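import Vale.Agent.P073.Defs

/-!
# The base map of a fibre-preserving homeomorphism of cylinders (problem P073)
-/

open MeasureTheory Set Filter Topology
open scoped ContDiff ENNReal

namespace Vale.Agent.P073

namespace Base

lemma jn_mem {n : ℕ} {Ω : Set (X n)} {x : X n} (hx : x ∈ Ω) {z : ℝ} (hz : z ∈ Ioo (0 : ℝ) 1) :
    jn x z ∈ Cyl Ω := by
  refine ⟨by simpa using hx, ?_, ?_⟩
  · simpa using hz.1
  · simpa using hz.2

lemma cont_jn_left {n : ℕ} (z : ℝ) : Continuous fun x : X n => jn x z := by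
  refine continuous_pi fun i => ?_
  refine Fin.lastCases ?_ (fun i => ?_) i
  · simpa using continuous_const
  · simpa using continuous_apply i

lemma cont_jn_right {n : ℕ} (x : X n) : Continuous fun z : ℝ => jn x z := by
  refine continuous_pi fun i => ?_
  refine Fin.lastCases ?_ (fun i => ?_) i
  · simpa using continuous_id'
  · simpa using continuous_const

lemma cont_ini {n : ℕ} : Continuous (ini : X (n + 1) → X n) := by
  unfold ini; fun_prop

lemma half_mem : (1 / 2 : ℝ) ∈ Ioo (0 : ℝ) 1 := ⟨by norm_num, by norm_num⟩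

end Base

open Base

/-- ROW BASE. A fibre-preserving homeomorphism of cylinders induces a homeomorphism of the
bases. -/
theorem base_homeo {n : ℕ} {Ω Λ : Set (X n)} (hΩ : IsOpen Ω) (hΛ : IsOpen Λ)
    {f : X (n + 1) → X (n + 1)} (hf : IsHomeo f (Cyl Ω) (Cyl Λ)) {φ : X n → X n}
    (hfib : ∀ y ∈ Cyl Ω, ini (f y) = φ (ini y)) : IsHomeo φ Ω Λ := by
  obtain ⟨hfc, hfm, k, hkc, hkm, hkf, hfk⟩ := hf
  have hφ : ∀ x ∈ Ω, ∀ z ∈ Ioo (0 : ℝ) 1, φ x = ini (f (jn x z)) := by
    intro x hx z hz
    rw [hfib _ (jn_mem hx hz), ini_jn]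
  have hφm : MapsTo φ Ω Λ := by
    intro x hx
    rw [hφ x hx (1 / 2) half_mem]
    exact (hfm (jn_mem hx half_mem)).1
  -- the last coordinate of `f` on the fibre over `x`
  have hinj : ∀ x ∈ Ω, ∀ x' ∈ Ω, φ x = φ x' → x = x' := by
    intro x hx x' hx' he
    by_contra hne
    set y := φ x with hy
    have hyΛ : y ∈ Λ := hφm hx
    let q : ℝ → X n := fun t => ini (k (jn y t))
    have hqc : ContinuousOn q (Ioo 0 1) := by
      have h1 : ContinuousOn (fun t => k (jn y t)) (Ioo 0 1) :=
        hkc.comp (cont_jn_right y).continuousOn fun t ht => jn_mem hyΛ ht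
      exact cont_ini.comp_continuousOn h1
    have hqΩ : ∀ t ∈ Ioo (0 : ℝ) 1, q t ∈ Ω ∧ φ (q t) = y := by
      intro t ht
      have h1 := hkm (jn_mem hyΛ ht)
      refine ⟨h1.1, ?_⟩
      show φ (ini (k (jn y t))) = y
      rw [← hfib _ h1, hfk _ (jn_mem hyΛ ht), ini_jn]
    have hg : ∀ w ∈ Ω, φ w = y → ∀ z ∈ Ioo (0 : ℝ) 1,
        f (jn w z) (Fin.last n) ∈ Ioo (0 : ℝ) 1 ∧ q (f (jn w z) (Fin.last n)) = w ∧
          k (jn y (f (jn w z) (Fin.last n))) = jn w z := by
      intro w hw hwy z hz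
      have h1 := hfm (jn_mem hw hz)
      have h2 : jn y (f (jn w z) (Fin.last n)) = f (jn w z) := by
        have h3 : ini (f (jn w z)) = y := by rw [← hφ w hw z hz, hwy]
        rw [← h3]
        exact jn_ini _
      have h4 : k (jn y (f (jn w z) (Fin.last n))) = jn w z := by
        rw [h2, hkf _ (jn_mem hw hz)]
      refine ⟨⟨h1.2.1, h1.2.2⟩, ?_, h4⟩
      show ini (k (jn y (f (jn w z) (Fin.last n)))) = w
      rw [h4, ini_jn]
    obtain ⟨i, hi⟩ := Function.ne_iff.mp hne
    set r : ℝ → ℝ := fun t => q t i with hr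
    have hrc : ContinuousOn r (Ioo 0 1) := (continuous_apply i).comp_continuousOn hqc
    have hcount : (r '' Ioo 0 1).Countable := by
      refine Set.PairwiseDisjoint.countable_of_nonempty_interior
        (s := fun c => {t | t ∈ Ioo (0 : ℝ) 1 ∧ r t = c}) ?_ ?_
      · intro c _ d _ hcd
        refine Set.disjoint_left.mpr fun t ht ht' => hcd ?_
        exact ht.2.symm.trans ht'.2
      · rintro c ⟨t0, ht0, rfl⟩
        obtain ⟨hw, hwy⟩ := hqΩ t0 ht0
        set w := q t0 with hwdef
        have hsub3 : Icc (1 / 3 : ℝ) (2 / 3) ⊆ Ioo 0 1 := fun z hz =>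
          ⟨lt_of_lt_of_le (by norm_num) hz.1, lt_of_le_of_lt hz.2 (by norm_num)⟩
        have hm1 : (1 / 3 : ℝ) ∈ Ioo (0 : ℝ) 1 := ⟨by norm_num, by norm_num⟩
        have hm2 : (2 / 3 : ℝ) ∈ Ioo (0 : ℝ) 1 := ⟨by norm_num, by norm_num⟩
        have hgc : ContinuousOn (fun z => f (jn w z) (Fin.last n)) (uIcc (1 / 3) (2 / 3)) := by
          rw [uIcc_of_le (by norm_num)]
          refine (continuous_apply (Fin.last n)).comp_continuousOn
            (hfc.comp (cont_jn_right w).continuousOn fun z hz => jn_mem hw (hsub3 hz))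
        have hgne : f (jn w (1 / 3)) (Fin.last n) ≠ f (jn w (2 / 3)) (Fin.last n) := by
          intro h
          have h1 := (hg w hw hwy _ hm1).2.2
          rw [h, (hg w hw hwy _ hm2).2.2] at h1
          have h2 := congrFun h1 (Fin.last n)
          simp only [last_jn] at h2
          norm_num at h2
        have hiv := intermediate_value_uIcc hgc
        have hsub : uIcc (f (jn w (1 / 3)) (Fin.last n)) (f (jn w (2 / 3)) (Fin.last n)) ⊆
            {t | t ∈ Ioo (0 : ℝ) 1 ∧ r t = r t0} := by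
          intro t ht
          obtain ⟨z, hz, rfl⟩ := hiv ht
          rw [uIcc_of_le (by norm_num)] at hz
          have h1 := hg w hw hwy z (hsub3 hz)
          refine ⟨h1.1, ?_⟩
          show q (f (jn w z) (Fin.last n)) i = q t0 i
          rw [h1.2.1]
        refine Set.Nonempty.mono (interior_mono hsub) ?_
        rw [uIcc, interior_Icc]
        refine nonempty_Ioo.mpr ?_
        exact lt_of_le_of_ne inf_le_sup fun h => hgne (by
          have h5 := inf_eq_sup.mp h
          exact h5)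
    have hpre : IsPreconnected (r '' Ioo 0 1) := isPreconnected_Ioo.image r hrc
    have hmx : x i ∈ r '' Ioo 0 1 :=
      ⟨_, (hg x hx rfl _ half_mem).1, congrFun (hg x hx rfl _ half_mem).2.1 i⟩
    have hmx' : x' i ∈ r '' Ioo 0 1 :=
      ⟨_, (hg x' hx' he.symm _ half_mem).1, congrFun (hg x' hx' he.symm _ half_mem).2.1 i⟩
    rcases lt_or_gt_of_ne hi with h | h
    · have h1 := (hcount.mono (hpre.Icc_subset hmx hmx')).measure_zero volume
      rw [Real.volume_Icc, ENNReal.ofReal_eq_zero] at h1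
      linarith
    · have h1 := (hcount.mono (hpre.Icc_subset hmx' hmx)).measure_zero volume
      rw [Real.volume_Icc, ENNReal.ofReal_eq_zero] at h1
      linarith
  refine ⟨?_, hφm, fun y => ini (k (jn y (1 / 2))), ?_, ?_, ?_, ?_⟩
  · have h1 : ContinuousOn (fun x => ini (f (jn x (1 / 2)))) Ω :=
      cont_ini.comp_continuousOn
        (hfc.comp (cont_jn_left (1 / 2)).continuousOn fun x hx => jn_mem hx half_mem)
    exact h1.congr fun x hx => hφ x hx _ half_mem
  · exact cont_ini.comp_continuousOn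
        (hkc.comp (cont_jn_left (1 / 2)).continuousOn fun x hx => jn_mem hx half_mem)
  · intro y hy
    exact (hkm (jn_mem hy half_mem)).1
  · intro x hx
    have hy := hφm hx
    have h1 := hkm (jn_mem hy half_mem)
    refine hinj _ h1.1 _ hx ?_
    rw [← hfib _ h1, hfk _ (jn_mem hy half_mem), ini_jn]
  · intro y hy
    have h1 := hkm (jn_mem hy half_mem)
    show φ (ini (k (jn y (1 / 2)))) = y
    rw [← hfib _ h1, hfk _ (jn_mem hy half_mem), ini_jn]

end Vale.Agent.P073
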