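import Vale.Agent.P073.Fub

open MeasureTheory Set Filter Topology
open scoped ContDiff ENNReal

namespace Vale.Agent.P073

namespace BaseW

open Fub

/-- Jensen's inequality. -/
theorem jensen {α : Type*} [MeasurableSpace α] (μ : Measure α) [IsProbabilityMeasure μ] {f : α → ℝ}
    (hf : AEStronglyMeasurable f μ) {q : ℝ} (hq : 1 ≤ q) :
    (∫⁻ a, ‖f a‖ₑ ∂μ) ^ q ≤ ∫⁻ a, ‖f a‖ₑ ^ q ∂μ := by
  have h := eLpNorm'_le_eLpNorm'_of_exponent_le one_pos hq μ hf
  rw [eLpNorm'_eq_lintegral_enorm, eLpNorm'_eq_lintegral_enorm] at h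
  simp only [ENNReal.rpow_one, div_one] at h
  have h2 := ENNReal.rpow_le_rpow h (z := q) (by linarith)
  rwa [← ENNReal.rpow_mul, one_div, inv_mul_cancel₀ (by linarith), ENNReal.rpow_one] at h2

theorem memLp_avg {α β : Type*} [MeasurableSpace α] [MeasurableSpace β] (μ : Measure α)
    [IsProbabilityMeasure μ] (ν : Measure β) [SFinite ν] {p : ℝ≥0∞} (hp : 1 ≤ p) (hp' : p ≠ ⊤)
    {K : α × β → ℝ} (hK : MemLp K p (μ.prod ν)) :
    MemLp (fun x => ∫ z, K (z, x) ∂μ) p ν := by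
  have hp0 : p ≠ 0 := (lt_of_lt_of_le one_pos hp).ne'
  refine ⟨hK.1.prod_swap.integral_prod_right', ?_⟩
  rw [eLpNorm_lt_top_iff_lintegral_rpow_enorm_lt_top hp0 hp']
  have hq : 1 ≤ p.toReal := by
    rw [← ENNReal.toReal_one]
    exact ENNReal.toReal_mono hp' hp
  have h1 : ∫⁻ x, ‖∫ z, K (z, x) ∂μ‖ₑ ^ p.toReal ∂ν ≤ ∫⁻ x, ∫⁻ z, ‖K (z, x)‖ₑ ^ p.toReal ∂μ ∂ν := by
    refine lintegral_mono_ae ?_
    filter_upwards [hK.1.prod_swap.prodMk_left] with x hx
    refine le_trans (ENNReal.rpow_le_rpow (enorm_integral_le_lintegral_enorm _) (by linarith)) ?_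
    exact jensen μ hx hq
  refine h1.trans_lt ?_
  rw [← lintegral_prod_symm (f := fun q => ‖K q‖ₑ ^ p.toReal) (hK.1.enorm.pow_const _)]
  exact (eLpNorm_lt_top_iff_lintegral_rpow_enorm_lt_top hp0 hp').1 hK.2

theorem memLp_snd {α β : Type*} [MeasurableSpace α] [MeasurableSpace β] (μ : Measure α)
    [IsProbabilityMeasure μ] (ν : Measure β) [SFinite ν] {p : ℝ≥0∞} {g : β → ℝ}
    (h : MemLp (fun q : α × β => g q.2) p (μ.prod ν)) : MemLp g p ν := by
  have h1 : AEStronglyMeasurable g ν := by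
    obtain ⟨x, hx⟩ := h.1.prodMk_left.exists
    exact hx
  refine ⟨h1, ?_⟩
  have h2 : MeasurePreserving (Prod.snd : α × β → β) (μ.prod ν) ν := measurePreserving_snd
  have h3 := eLpNorm_comp_measurePreserving (p := p) h1 h2
  rw [← h3]
  exact h.2

instance : IsProbabilityMeasure (volume.restrict (Ioo (0:ℝ) 1)) := ⟨by simp⟩

theorem memLp_cyl {n : ℕ} {Ω : Set (X n)} (hΩ : MeasurableSet Ω) {p : ℝ≥0∞} {u : X (n + 1) → ℝ}
    (hu : MemLp u p (volume.restrict (Cyl Ω))) :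
    MemLp (fun q : ℝ × X n => u (jn q.2 q.1)) p
      ((volume.restrict (Ioo (0:ℝ) 1)).prod (volume.restrict Ω)) := by
  have h := hu.comp_measurePreserving ((e_mp hΩ).symm (e n))
  have h2 : (u ∘ (e n).symm) = fun q : ℝ × X n => u (jn q.2 q.1) := by
    funext q
    have : (e n).symm q = jn q.2 q.1 := by
      rw [MeasurableEquiv.symm_apply_eq, e_apply]
      simp
    simp [this]
  rwa [h2] at h

/-- The test function. -/
def Psi {n : ℕ} (ψ : X n → ℝ) (η : ℝ → ℝ) (y : X (n + 1)) : ℝ := ψ (ini y) * η (y (Fin.last n))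

theorem Psi_jn {n : ℕ} (ψ : X n → ℝ) (η : ℝ → ℝ) (x : X n) (z : ℝ) :
    Psi ψ η (jn x z) = ψ x * η z := by simp [Psi]

theorem Psi_contDiff {n : ℕ} {ψ : X n → ℝ} {η : ℝ → ℝ} (hψ : ContDiff ℝ ∞ ψ)
    (hη : ContDiff ℝ ∞ η) : ContDiff ℝ ∞ (Psi ψ η) := by
  have h1 : ContDiff ℝ ∞ (ini : X (n + 1) → X n) := by
    rw [contDiff_pi]
    intro i
    exact contDiff_apply ℝ ℝ i.castSucc
  exact (hψ.comp h1).mul (hη.comp (contDiff_apply ℝ ℝ (Fin.last n)))

theorem Psi_tsupport {n : ℕ} {ψ : X n → ℝ} {η : ℝ → ℝ} (hψ : HasCompactSupport ψ)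
    (hη : HasCompactSupport η) :
    tsupport (Psi ψ η) ⊆ (fun q : ℝ × X n => jn q.2 q.1) '' (tsupport η ×ˢ tsupport ψ) := by
  have hc : IsCompact ((fun q : ℝ × X n => jn q.2 q.1) '' (tsupport η ×ˢ tsupport ψ)) :=
    (IsCompact.prod hη hψ).image continuous_jn
  refine closure_minimal ?_ hc.isClosed
  intro y hy
  have hy' : ψ (ini y) * η (y (Fin.last n)) ≠ 0 := hy
  refine ⟨(y (Fin.last n), ini y), ⟨subset_tsupport η (right_ne_zero_of_mul hy'),
    subset_tsupport ψ (left_ne_zero_of_mul hy')⟩, jn_ini y⟩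

theorem Psi_compact {n : ℕ} {ψ : X n → ℝ} {η : ℝ → ℝ} (hψ : HasCompactSupport ψ)
    (hη : HasCompactSupport η) : HasCompactSupport (Psi ψ η) :=
  ((IsCompact.prod hη hψ).image continuous_jn).of_isClosed_subset (isClosed_tsupport _)
    (Psi_tsupport hψ hη)

theorem Psi_pd {n : ℕ} {ψ : X n → ℝ} {η : ℝ → ℝ} (hψ : ContDiff ℝ ∞ ψ)
    (hη : ContDiff ℝ ∞ η) (j : Fin n) (x : X n) (z : ℝ) :
    pd j.castSucc (Psi ψ η) (jn x z) = pd j ψ x * η z := by
  rw [← slice_pd z x j (Psi_contDiff hψ hη)]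
  simp only [Psi_jn]
  unfold pd
  have hd : DifferentiableAt ℝ ψ x := (hψ.differentiable (by simp)) x
  rw [fderiv_mul_const hd]
  simp [mul_comm]

end BaseW

open Fub BaseW

theorem base_W1p {n : ℕ} {Ω : Set (X n)} (hO : IsOpen Ω) (hb : Bornology.IsBounded Ω)
    (p : ℝ≥0∞) (hp : 1 ≤ p) (hp' : p ≠ ⊤) {f : X (n + 1) → X (n + 1)}
    {F : X (n + 1) → Fin (n + 1) → Fin (n + 1) → ℝ} (hF : InW1p (Cyl Ω) p f F)
    {φ : X n → X n} (hfib : ∀ y ∈ Cyl Ω, ini (f y) = φ (ini y)) :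
    ∃ G, InW1p Ω p φ G := by
  have : IsFiniteMeasure (volume.restrict Ω) := ⟨by
    rw [Measure.restrict_apply_univ]; exact hb.measure_lt_top⟩
  have hm := hO.measurableSet
  set b : ContDiffBump (1 / 2 : ℝ) := ⟨1 / 8, 1 / 4, by norm_num, by norm_num⟩ with hbdef
  set η : ℝ → ℝ := b.normed volume with hη
  have hηs : ContDiff ℝ ∞ η := b.contDiff_normed
  have hηc : HasCompactSupport η := b.hasCompactSupport_normed
  have hηt : tsupport η ⊆ Ioo 0 1 := by
    rw [hη, b.tsupport_normed_eq]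
    intro z hz
    rw [Metric.mem_closedBall, Real.dist_eq, abs_le] at hz
    have h1 : b.rOut = 1 / 4 := rfl
    rw [h1] at hz
    constructor <;> linarith [hz.1, hz.2]
  have hηi : ∫ z in Ioo (0:ℝ) 1, η z = 1 := by
    rw [setIntegral_eq_integral_of_forall_compl_eq_zero]
    · exact b.integral_normed
    · intro z hz
      by_contra h
      exact hz (hηt (subset_tsupport η h))
  obtain ⟨C, hC⟩ := hηc.exists_bound_of_continuous hηs.continuous
  have hφp : ∀ y ∈ Cyl Ω, ∀ i : Fin n, f y i.castSucc = φ (ini y) i := by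
    intro y hy i
    rw [← hfib y hy]
    rfl
  have hφi : ∀ i : Fin n, MemLp (fun y => φ (ini y) i) p (volume.restrict (Cyl Ω)) := by
    intro i
    refine (hF.1 i.castSucc).ae_eq ?_
    filter_upwards [ae_restrict_mem (isOpen_Cyl hO).measurableSet] with y hy
    exact hφp y hy i
  have hφm : ∀ i : Fin n, MemLp (fun x => φ x i) p (volume.restrict Ω) := by
    intro i
    have h1 := memLp_cyl hm (hφi i)
    simp only [ini_jn] at h1
    exact memLp_snd _ _ h1
  have hK : ∀ i j : Fin n, MemLp (fun q : ℝ × X n =>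
      η q.1 * F (jn q.2 q.1) i.castSucc j.castSucc) p
      ((volume.restrict (Ioo (0:ℝ) 1)).prod (volume.restrict Ω)) := by
    intro i j
    have h1 := memLp_cyl hm (hF.2 i.castSucc j.castSucc).1
    refine h1.of_le_mul (c := C) ?_ (Eventually.of_forall fun q => ?_)
    · exact (hηs.continuous.comp continuous_fst).aestronglyMeasurable.mul h1.1
    · rw [norm_mul]
      exact mul_le_mul_of_nonneg_right (hC _) (norm_nonneg _)
  refine ⟨fun x i j => ∫ z in Ioo (0:ℝ) 1, η z * F (jn x z) i.castSucc j.castSucc, hφm,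
    fun i j => ⟨memLp_avg _ _ hp hp' (hK i j), ?_⟩⟩
  intro ψ hψ hψc hψt
  have hPt : tsupport (Psi ψ η) ⊆ Cyl Ω := by
    refine (Psi_tsupport hψc hηc).trans ?_
    rintro y ⟨q, ⟨hq1, hq2⟩, rfl⟩
    refine ⟨?_, ?_, ?_⟩
    · simpa using hψt hq2
    · simpa using (hηt hq1).1
    · simpa using (hηt hq1).2
  have h := (hF.2 i.castSucc j.castSucc).2 (Psi ψ η) (Psi_contDiff hψ hηs)
    (Psi_compact hψc hηc) hPt
  have hL : ∫ y in Cyl Ω, f y i.castSucc * pd j.castSucc (Psi ψ η) y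
      = ∫ x in Ω, φ x i * pd j ψ x := by
    have e1 : ∫ y in Cyl Ω, f y i.castSucc * pd j.castSucc (Psi ψ η) y
        = ∫ y in Cyl Ω, φ (ini y) i * pd j.castSucc (Psi ψ η) y :=
      setIntegral_congr_fun (isOpen_Cyl hO).measurableSet fun y hy => by
        simp only [hφp y hy i]
    rw [e1, int_eq hm]
    simp only [ini_jn, Psi_pd hψ hηs]
    have e2 : (fun q : ℝ × X n => φ q.2 i * (pd j ψ q.2 * η q.1))
        = fun q => η q.1 * (φ q.2 i * pd j ψ q.2) := by
      funext q; ring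
    rw [e2, integral_prod_mul (fun z => η z) (fun x => φ x i * pd j ψ x), hηi, one_mul]
  have hR : ∫ y in Cyl Ω, F y i.castSucc j.castSucc * Psi ψ η y
      = ∫ x in Ω, (∫ z in Ioo (0:ℝ) 1, η z * F (jn x z) i.castSucc j.castSucc) * ψ x := by
    rw [int_eq hm]
    simp only [Psi_jn]
    have e2 : (fun q : ℝ × X n => F (jn q.2 q.1) i.castSucc j.castSucc * (ψ q.2 * η q.1))
        = fun q => (η q.1 * F (jn q.2 q.1) i.castSucc j.castSucc) * ψ q.2 := by
      funext q; ring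
    obtain ⟨D, hD⟩ := hψc.exists_bound_of_continuous hψ.continuous
    have hint : Integrable (fun q : ℝ × X n =>
        (η q.1 * F (jn q.2 q.1) i.castSucc j.castSucc) * ψ q.2)
        ((volume.restrict (Ioo (0:ℝ) 1)).prod (volume.restrict Ω)) :=
      ((hK i j).integrable hp).mul_bdd (c := D)
        (hψ.continuous.comp continuous_snd).aestronglyMeasurable
        (Eventually.of_forall fun q => hD _)
    rw [e2, integral_prod_symm _ hint]
    refine integral_congr_ae (Eventually.of_forall fun x => ?_)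
    simp only
    rw [integral_mul_const]
  rw [hL, hR] at h
  exact h

end Vale.Agent.P073
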