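import Vale.Agent.P073.Defs

open MeasureTheory Set Filter Topology
open scoped ContDiff ENNReal

/-!
P073, row BIJ: the fibre maps of the smoothed map are bijections of the interval.
-/

namespace Vale.Agent.P073

namespace Bij

theorem bijOn_Ioo {w : ℝ → ℝ} (hc : ContinuousOn w (Ioo 0 1)) (hm : StrictMonoOn w (Ioo 0 1))
    (h0 : Tendsto w (𝓝[>] 0) (𝓝 0)) (h1 : Tendsto w (𝓝[<] 1) (𝓝 1)) :
    BijOn w (Ioo 0 1) (Ioo 0 1) := by
  refine ⟨?_, hm.injOn, ?_⟩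
  · intro z hz
    constructor
    · have hz' : z / 2 ∈ Ioo (0 : ℝ) 1 := ⟨by linarith [hz.1], by linarith [hz.1, hz.2]⟩
      have h2 : (0 : ℝ) ≤ w (z / 2) := by
        refine le_of_tendsto h0 ?_
        have h3 : Ioo (0 : ℝ) (z / 2) ∈ 𝓝[>] (0 : ℝ) := Ioo_mem_nhdsGT hz'.1
        filter_upwards [h3] with s hs
        exact (hm ⟨hs.1, hs.2.trans hz'.2⟩ hz' hs.2).le
      exact h2.trans_lt (hm hz' hz (by linarith [hz.1]))
    · have hz' : (z + 1) / 2 ∈ Ioo (0 : ℝ) 1 := ⟨by linarith [hz.1], by linarith [hz.1, hz.2]⟩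
      have h2 : w ((z + 1) / 2) ≤ 1 := by
        refine ge_of_tendsto h1 ?_
        have h3 : Ioo ((z + 1) / 2) (1 : ℝ) ∈ 𝓝[<] (1 : ℝ) := Ioo_mem_nhdsLT hz'.2
        filter_upwards [h3] with s hs
        exact (hm hz' ⟨hz'.1.trans hs.1, hs.2⟩ hs.1).le
      exact (hm hz hz' (by linarith [hz.2])).trans_le h2
  · intro y hy
    have h2 : ∀ᶠ s in 𝓝[>] (0 : ℝ), w s < y := h0.eventually (gt_mem_nhds hy.1)
    have h3 : ∀ᶠ s in 𝓝[>] (0 : ℝ), s ∈ Ioo (0 : ℝ) 1 := Ioo_mem_nhdsGT one_pos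
    obtain ⟨a, ha1, ha2⟩ := (h2.and h3).exists
    have h4 : ∀ᶠ s in 𝓝[<] (1 : ℝ), y < w s := h1.eventually (lt_mem_nhds hy.2)
    have h5 : ∀ᶠ s in 𝓝[<] (1 : ℝ), s ∈ Ioo (0 : ℝ) 1 := Ioo_mem_nhdsLT one_pos
    obtain ⟨b, hb1, hb2⟩ := (h4.and h5).exists
    have h6 : y ∈ uIcc (w a) (w b) := mem_uIcc_of_le ha1.le hb1.le
    have h7 : uIcc a b ⊆ Ioo (0 : ℝ) 1 := (ordConnected_Ioo).uIcc_subset ha2 hb2
    obtain ⟨c, hc1, hc2⟩ := intermediate_value_uIcc (hc.mono h7) h6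
    exact ⟨c, h7 hc1, hc2⟩

theorem tend_zero {g : ℝ → ℝ} (hm : StrictMonoOn g (Ioo 0 1)) (hb : BijOn g (Ioo 0 1) (Ioo 0 1)) :
    Tendsto g (𝓝[>] 0) (𝓝 0) := by
  rw [tendsto_order]
  have h3 : ∀ᶠ s in 𝓝[>] (0 : ℝ), s ∈ Ioo (0 : ℝ) 1 := Ioo_mem_nhdsGT one_pos
  constructor
  · intro l hl
    filter_upwards [h3] with s hs
    exact hl.trans (hb.mapsTo hs).1
  · intro u hu
    have hu' : min u (1 / 2) ∈ Ioo (0 : ℝ) 1 :=
      ⟨lt_min hu (by norm_num), (min_le_right _ _).trans_lt (by norm_num)⟩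
    obtain ⟨a, ha, hga⟩ := hb.surjOn hu'
    have h4 : Ioo (0 : ℝ) a ∈ 𝓝[>] (0 : ℝ) := Ioo_mem_nhdsGT ha.1
    filter_upwards [h4] with s hs
    have h5 := hm ⟨hs.1, hs.2.trans ha.2⟩ ha hs.2
    rw [hga] at h5
    exact h5.trans_le (min_le_left _ _)

theorem tend_one {g : ℝ → ℝ} (hm : StrictMonoOn g (Ioo 0 1)) (hb : BijOn g (Ioo 0 1) (Ioo 0 1)) :
    Tendsto g (𝓝[<] 1) (𝓝 1) := by
  rw [tendsto_order]
  have h3 : ∀ᶠ s in 𝓝[<] (1 : ℝ), s ∈ Ioo (0 : ℝ) 1 := Ioo_mem_nhdsLT one_pos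
  constructor
  · intro l hl
    have hl' : max l (1 / 2) ∈ Ioo (0 : ℝ) 1 :=
      ⟨lt_of_lt_of_le (by norm_num) (le_max_right _ _), max_lt hl (by norm_num)⟩
    obtain ⟨a, ha, hga⟩ := hb.surjOn hl'
    have h4 : Ioo a (1 : ℝ) ∈ 𝓝[<] (1 : ℝ) := Ioo_mem_nhdsLT ha.2
    filter_upwards [h4] with s hs
    have h5 := hm ha ⟨ha.1.trans hs.1, hs.2⟩ hs.1
    rw [hga] at h5
    exact (le_max_left _ _).trans_lt h5
  · intro u hu
    filter_upwards [h3] with s hs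
    exact (hb.mapsTo hs).2.trans hu

theorem jn_mem {n : ℕ} {Ω : Set (X n)} {x : X n} (hx : x ∈ Ω) {z : ℝ} (hz : z ∈ Ioo (0 : ℝ) 1) :
    jn x z ∈ Cyl Ω := by
  refine ⟨?_, ?_, ?_⟩
  · rw [ini_jn]
    exact hx
  · rw [last_jn]
    exact hz.1
  · rw [last_jn]
    exact hz.2

theorem hasDerivAt_jn {n : ℕ} (x : X n) (z : ℝ) :
    HasDerivAt (fun z => jn x z) (Pi.single (Fin.last n) 1 : X (n + 1)) z := by
  rw [hasDerivAt_pi]
  intro i
  refine Fin.lastCases ?_ (fun i => ?_) i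
  · simp only [last_jn, Pi.single_eq_same]
    exact hasDerivAt_id z
  · simp only [castSucc_jn]
    rw [Pi.single_eq_of_ne (Fin.castSucc_lt_last i).ne]
    exact hasDerivAt_const z (x i)

theorem hasDerivAt_fib {n : ℕ} {Ω : Set (X n)} (hΩ : IsOpen Ω) {w : X (n + 1) → ℝ}
    (hw : ContDiffOn ℝ ∞ w (Cyl Ω)) {x : X n} (hx : x ∈ Ω) {z : ℝ} (hz : z ∈ Ioo (0 : ℝ) 1) :
    HasDerivAt (fun z => w (jn x z)) (pd (Fin.last n) w (jn x z)) z := by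
  have h1 : DifferentiableAt ℝ w (jn x z) :=
    (hw.contDiffAt ((isOpen_Cyl hΩ).mem_nhds (jn_mem hx hz))).differentiableAt (by simp)
  exact h1.hasFDerivAt.comp_hasDerivAt z (hasDerivAt_jn x z)

end Bij

/-- ROW BIJ (file Bij.lean). -/
theorem bij {n : ℕ} {Ω : Set (X n)} (hΩ : IsOpen Ω) {h w : X (n + 1) → ℝ}
    (hh : ∀ x ∈ Ω, StrictMonoOn (fun z => h (jn x z)) (Ioo 0 1) ∧
      BijOn (fun z => h (jn x z)) (Ioo 0 1) (Ioo 0 1))
    (lam : ℝ) (hlam : 0 < lam) (hlam1 : lam < 1) (hw : ContDiffOn ℝ ∞ w (Cyl Ω))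
    (hpos : ∀ y ∈ Cyl Ω, 0 < pd (Fin.last n) w y)
    (hclose : ∀ y ∈ Cyl Ω, |w y - ((1 - lam) * h y + lam * y (Fin.last n))|
      ≤ y (Fin.last n) * (1 - y (Fin.last n))) :
    ∀ x ∈ Ω, BijOn (fun z => w (jn x z)) (Ioo 0 1) (Ioo 0 1) := by
  intro x hx
  obtain ⟨hm, hb⟩ := hh x hx
  have hcl : ∀ z ∈ Ioo (0 : ℝ) 1,
      |w (jn x z) - ((1 - lam) * h (jn x z) + lam * z)| ≤ z * (1 - z) := by
    intro z hz
    have h1 := hclose (jn x z) (Bij.jn_mem hx hz)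
    rwa [last_jn] at h1
  have hder := fun z (hz : z ∈ Ioo (0 : ℝ) 1) => Bij.hasDerivAt_fib hΩ hw hx hz
  have hcont : ContinuousOn (fun z => w (jn x z)) (Ioo 0 1) :=
    fun z hz => (hder z hz).continuousAt.continuousWithinAt
  have key : ∀ (l : Filter ℝ) (c : ℝ), (∀ᶠ z in l, z ∈ Ioo (0 : ℝ) 1) →
      Tendsto (fun z : ℝ => z) l (𝓝 c) → Tendsto (fun z => h (jn x z)) l (𝓝 c) →
      c * (1 - c) = 0 → Tendsto (fun z => w (jn x z)) l (𝓝 c) := by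
    intro l c hl hz hhz hc0
    have h1 : Tendsto (fun z => (1 - lam) * h (jn x z) + lam * z) l (𝓝 c) := by
      have := (hhz.const_mul (1 - lam)).add (hz.const_mul lam)
      have h2 : (1 - lam) * c + lam * c = c := by ring
      rwa [h2] at this
    have h2 : Tendsto (fun z : ℝ => z * (1 - z)) l (𝓝 0) := by
      have := hz.mul (hz.const_sub 1)
      rwa [hc0] at this
    have h3 : Tendsto (fun z => w (jn x z) - ((1 - lam) * h (jn x z) + lam * z)) l (𝓝 0) := by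
      refine squeeze_zero_norm' ?_ h2
      filter_upwards [hl] with z hz
      exact hcl z hz
    have h4 := h3.add h1
    rw [zero_add] at h4
    refine h4.congr fun z => ?_
    ring
  refine Bij.bijOn_Ioo hcont ?_ ?_ ?_
  · refine strictMonoOn_of_deriv_pos (convex_Ioo 0 1) hcont ?_
    intro z hz
    rw [interior_Ioo] at hz
    rw [(hder z hz).deriv]
    exact hpos _ (Bij.jn_mem hx hz)
  · refine key _ 0 (Ioo_mem_nhdsGT one_pos) ?_ (Bij.tend_zero hm hb) (by ring)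
    exact tendsto_id.mono_left nhdsWithin_le_nhds
  · refine key _ 1 (Ioo_mem_nhdsLT one_pos) ?_ (Bij.tend_one hm hb) (by ring)
    exact tendsto_id.mono_left nhdsWithin_le_nhds

end Vale.Agent.P073
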