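import Vale.Agent.P073.Defs2

open MeasureTheory Set Filter Topology
open scoped ContDiff ENNReal

namespace Vale.Agent.P073

namespace BijV

theorem comp {T : Set ℝ} (hT : IsOpen T) (hb : Bornology.IsBounded T) {c : ℝ} (hc : c ∈ T) :
    ∃ a b, a < c ∧ c < b ∧ Ioo a b ⊆ T ∧ a ∉ T ∧ b ∉ T := by
  obtain ⟨R, hR⟩ := hb.subset_closedBall 0
  have hR' : ∀ x, R < |x| → x ∉ T := fun x hx hxT => by
    have := hR hxT
    rw [mem_closedBall_zero_iff, Real.norm_eq_abs] at this
    linarith
  have hcl : IsClosed Tᶜ := hT.isClosed_compl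
  have h1 : (Tᶜ ∩ Iic c).Nonempty := ⟨-(|R| + |c| + 1), hR' _ (by
    rw [abs_neg, abs_of_nonneg (by positivity)]
    linarith [le_abs_self R, abs_nonneg c]), by
    show -(|R| + |c| + 1) ≤ c
    linarith [neg_abs_le c, abs_nonneg R]⟩
  have h2 : (Tᶜ ∩ Ici c).Nonempty := ⟨|R| + |c| + 1, hR' _ (by
    rw [abs_of_nonneg (by positivity)]
    linarith [le_abs_self R, abs_nonneg c]), by
    show c ≤ |R| + |c| + 1
    linarith [le_abs_self c, abs_nonneg R]⟩
  have b1 : BddAbove (Tᶜ ∩ Iic c) := ⟨c, fun x hx => hx.2⟩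
  have b2 : BddBelow (Tᶜ ∩ Ici c) := ⟨c, fun x hx => hx.2⟩
  have m1 := (hcl.inter isClosed_Iic).csSup_mem h1 b1
  have m2 := (hcl.inter isClosed_Ici).csInf_mem h2 b2
  refine ⟨sSup (Tᶜ ∩ Iic c), sInf (Tᶜ ∩ Ici c), lt_of_le_of_ne m1.2 ?_, lt_of_le_of_ne m2.2 ?_,
    ?_, m1.1, m2.1⟩
  · intro h
    exact m1.1 (by rw [h]; exact hc)
  · intro h
    exact m2.1 (by rw [← h]; exact hc)
  · intro x hx
    by_contra hxT
    rcases le_total x c with h | h
    · exact absurd (le_csSup b1 ⟨hxT, h⟩) (not_le.2 hx.1)
    · exact absurd (csInf_le b2 ⟨hxT, h⟩) (not_le.2 hx.2)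

theorem bijOn_Ioo {a b : ℝ} {w : ℝ → ℝ} (hc : ContinuousOn w (Ioo a b))
    (hm : StrictMonoOn w (Ioo a b)) (hab : a < b)
    (h0 : Tendsto w (𝓝[>] a) (𝓝 a)) (h1 : Tendsto w (𝓝[<] b) (𝓝 b)) :
    BijOn w (Ioo a b) (Ioo a b) := by
  refine ⟨?_, hm.injOn, ?_⟩
  · intro z hz
    constructor
    · have hz' : (a + z) / 2 ∈ Ioo a b := ⟨by linarith [hz.1], by linarith [hz.1, hz.2]⟩
      have h2 : a ≤ w ((a + z) / 2) := by
        refine le_of_tendsto h0 ?_
        have h3 : Ioo a ((a + z) / 2) ∈ 𝓝[>] a := Ioo_mem_nhdsGT hz'.1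
        filter_upwards [h3] with s hs
        exact (hm ⟨hs.1, hs.2.trans hz'.2⟩ hz' hs.2).le
      exact h2.trans_lt (hm hz' hz (by linarith [hz.1]))
    · have hz' : (z + b) / 2 ∈ Ioo a b := ⟨by linarith [hz.1, hz.2], by linarith [hz.1, hz.2]⟩
      have h2 : w ((z + b) / 2) ≤ b := by
        refine ge_of_tendsto h1 ?_
        have h3 : Ioo ((z + b) / 2) b ∈ 𝓝[<] b := Ioo_mem_nhdsLT hz'.2
        filter_upwards [h3] with s hs
        exact (hm hz' ⟨hz'.1.trans hs.1, hs.2⟩ hs.1).le
      exact (hm hz hz' (by linarith [hz.2])).trans_le h2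
  · intro y hy
    have h2 : ∀ᶠ s in 𝓝[>] a, w s < y := h0.eventually (gt_mem_nhds hy.1)
    have h3 : ∀ᶠ s in 𝓝[>] a, s ∈ Ioo a b := Ioo_mem_nhdsGT hab
    obtain ⟨a', ha1, ha2⟩ := (h2.and h3).exists
    have h4 : ∀ᶠ s in 𝓝[<] b, y < w s := h1.eventually (lt_mem_nhds hy.2)
    have h5 : ∀ᶠ s in 𝓝[<] b, s ∈ Ioo a b := Ioo_mem_nhdsLT hab
    obtain ⟨b', hb1, hb2⟩ := (h4.and h5).exists
    have h6 : y ∈ uIcc (w a') (w b') := mem_uIcc_of_le ha1.le hb1.le
    have h7 : uIcc a' b' ⊆ Ioo a b := (ordConnected_Ioo).uIcc_subset ha2 hb2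
    obtain ⟨c, hc1, hc2⟩ := intermediate_value_uIcc (hc.mono h7) h6
    exact ⟨c, h7 hc1, hc2⟩

theorem tend_zero {a b : ℝ} (hab : a < b) {g : ℝ → ℝ} (hm : StrictMonoOn g (Ioo a b))
    (hmap : MapsTo g (Ioo a b) (Ioo a b)) (hs : SurjOn g (Ioo a b) (Ioo a b)) :
    Tendsto g (𝓝[>] a) (𝓝 a) := by
  rw [tendsto_order]
  have h3 : ∀ᶠ s in 𝓝[>] a, s ∈ Ioo a b := Ioo_mem_nhdsGT hab
  constructor
  · intro l hl
    filter_upwards [h3] with s hs
    exact hl.trans (hmap hs).1
  · intro u hu
    have hu' : min u ((a + b) / 2) ∈ Ioo a b :=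
      ⟨lt_min hu (by linarith), (min_le_right _ _).trans_lt (by linarith)⟩
    obtain ⟨c, hc, hgc⟩ := hs hu'
    have h4 : Ioo a c ∈ 𝓝[>] a := Ioo_mem_nhdsGT hc.1
    filter_upwards [h4] with s hs
    have h5 := hm ⟨hs.1, hs.2.trans hc.2⟩ hc hs.2
    rw [hgc] at h5
    exact h5.trans_le (min_le_left _ _)

theorem tend_one {a b : ℝ} (hab : a < b) {g : ℝ → ℝ} (hm : StrictMonoOn g (Ioo a b))
    (hmap : MapsTo g (Ioo a b) (Ioo a b)) (hs : SurjOn g (Ioo a b) (Ioo a b)) :
    Tendsto g (𝓝[<] b) (𝓝 b) := by
  rw [tendsto_order]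
  have h3 : ∀ᶠ s in 𝓝[<] b, s ∈ Ioo a b := Ioo_mem_nhdsLT hab
  constructor
  · intro l hl
    have hl' : max l ((a + b) / 2) ∈ Ioo a b :=
      ⟨lt_of_lt_of_le (by linarith) (le_max_right _ _), max_lt hl (by linarith)⟩
    obtain ⟨c, hc, hgc⟩ := hs hl'
    have h4 : Ioo c b ∈ 𝓝[<] b := Ioo_mem_nhdsLT hc.2
    filter_upwards [h4] with s hs
    have h5 := hm hc ⟨hc.1.trans hs.1, hs.2⟩ hs.1
    rw [hgc] at h5
    exact (le_max_left _ _).trans_lt h5
  · intro u hu
    filter_upwards [h3] with s hs
    exact (hmap hs).2.trans hu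

end BijV

theorem bij_vert {n : ℕ} {U : Set (X n)} (hU : IsOpen U) (hb : Bornology.IsBounded U)
    (e : Fin n) {h w θ : X n → ℝ} (hh : ContinuousOn h U)
    (hseg : ∀ y ∈ U, ∀ s ∈ Icc (0 : ℝ) 1,
      y + (s * (h y - y e)) • (Pi.single e 1 : X n) ∈ U)
    (hsurj : ∀ y ∈ U, ∃ y' ∈ U, (∀ i, i ≠ e → y' i = y i) ∧ h y' = y e)
    (hinc : ∀ x ∈ U, ∀ t : ℝ, 0 < t → (∀ s ∈ Icc 0 t, x + s • (Pi.single e 1 : X n) ∈ U) →
      h x < h (x + t • (Pi.single e 1 : X n)))
    (lam : ℝ) (hlam : 0 < lam) (hlam1 : lam < 1)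
    (hw : ContDiffOn ℝ ∞ w U) (hpos : ∀ y ∈ U, 0 < pd e w y)
    (hθ : Continuous θ) (hθU : ∀ y, y ∉ U → θ y = 0)
    (hclose : ∀ y ∈ U, |w y - ((1 - lam) * h y + lam * y e)| ≤ θ y) :
    BijOn (fun y => Function.update y e (w y)) U U := by
  have _ := hh
  have _ := hlam
  have _ := hlam1
  -- adding multiples of the basis vector
  have hadd : ∀ (y : X n) (z s : ℝ), Function.update y e z + s • (Pi.single e 1 : X n) =
      Function.update y e (z + s) := by
    intro y z s
    funext i
    by_cases hi : i = e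
    · subst hi
      simp
    · simp [hi]
  have hupd : ∀ (y : X n) (z z' : ℝ), Function.update (Function.update y e z) e z' =
      Function.update y e z' := fun y z z' => Function.update_idem _ _ _
  have hcontY : ∀ y : X n, Continuous fun z : ℝ => Function.update y e z := fun y =>
    continuous_const.update e continuous_id
  -- the statement on one component
  have main : ∀ y ∈ U, ∃ a b, a < y e ∧ y e < b ∧ (∀ z ∈ Ioo a b, Function.update y e z ∈ U) ∧
      Function.update y e a ∉ U ∧ Function.update y e b ∉ U ∧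
      StrictMonoOn (fun z => w (Function.update y e z)) (Ioo a b) ∧
      BijOn (fun z => w (Function.update y e z)) (Ioo a b) (Ioo a b) := by
    intro y hy
    let T : Set ℝ := {z | Function.update y e z ∈ U}
    have hT : IsOpen T := hU.preimage (hcontY y)
    have hTb : Bornology.IsBounded T := by
      have h1 : T ⊆ (fun p : X n => p e) '' U := fun z hz =>
        ⟨Function.update y e z, hz, Function.update_self _ _ _⟩
      exact (((LipschitzWith.eval e).isBounded_image hb)).subset h1
    have hyT : y e ∈ T := by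
      show Function.update y e (y e) ∈ U
      rw [Function.update_eq_self]
      exact hy
    obtain ⟨a, b, ha, hb', hab, haT, hbT⟩ := BijV.comp hT hTb hyT
    have hlt : a < b := ha.trans hb'
    let g : ℝ → ℝ := fun z => h (Function.update y e z)
    have hsegT : ∀ z ∈ T, ∀ s ∈ Icc (0 : ℝ) 1, z + s * (g z - z) ∈ T := by
      intro z hz s hs
      have h1 := hseg _ hz s hs
      rw [hadd, Function.update_self] at h1
      exact h1
    have hbtw : ∀ z ∈ T, ∀ c, c ∈ Ioo (min z (g z)) (max z (g z)) ∨ c = g z → c ∈ T := by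
      intro z hz c hc
      rcases hc with hc | hc
      · rcases lt_trichotomy z (g z) with h1 | h1 | h1
        · rw [min_eq_left h1.le, max_eq_right h1.le] at hc
          have h2 := hsegT z hz ((c - z) / (g z - z)) ⟨div_nonneg (by linarith [hc.1])
            (by linarith), (div_le_one (by linarith)).2 (by linarith [hc.2])⟩
          have h3 : z + (c - z) / (g z - z) * (g z - z) = c := by
            have : g z - z ≠ 0 := by intro h; linarith
            field_simp
            ring
          rwa [h3] at h2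
        · rw [← h1, min_self, max_self] at hc
          exact absurd (hc.1.trans hc.2) (lt_irrefl _)
        · rw [min_eq_right h1.le, max_eq_left h1.le] at hc
          have h2 := hsegT z hz ((z - c) / (z - g z)) ⟨div_nonneg (by linarith [hc.2])
            (by linarith), (div_le_one (by linarith)).2 (by linarith [hc.1])⟩
          have h3 : z + (z - c) / (z - g z) * (g z - z) = c := by
            have : z - g z ≠ 0 := by intro h; linarith
            field_simp
            ring
          rwa [h3] at h2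
      · have h2 := hsegT z hz 1 ⟨by norm_num, le_rfl⟩
        rw [hc]
        have h3 : z + 1 * (g z - z) = g z := by ring
        rwa [h3] at h2
    have hmap : MapsTo g (Ioo a b) (Ioo a b) := by
      intro z hz
      have hzT := hab hz
      constructor
      · by_contra hcon
        rcases eq_or_lt_of_le (not_lt.1 hcon) with h1 | h1
        · exact haT (hbtw z hzT a (Or.inr h1.symm))
        · exact haT (hbtw z hzT a (Or.inl ⟨(min_le_right _ _).trans_lt h1,
            hz.1.trans_le (le_max_left _ _)⟩))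
      · by_contra hcon
        rcases eq_or_lt_of_le (not_lt.1 hcon) with h1 | h1
        · exact hbT (hbtw z hzT b (Or.inr h1))
        · exact hbT (hbtw z hzT b (Or.inl ⟨(min_le_left _ _).trans_lt hz.2,
            h1.trans_le (le_max_right _ _)⟩))
    have hmono : StrictMonoOn g (Ioo a b) := by
      intro z hz z' hz' hzz
      have h1 := hinc (Function.update y e z) (hab hz) (z' - z) (by linarith) (fun s hs => by
        rw [hadd]
        exact hab ⟨by linarith [hz.1, hs.1], by linarith [hz'.2, hs.2]⟩)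
      rw [hadd] at h1
      have e1 : z + (z' - z) = z' := by ring
      rw [e1] at h1
      exact h1
    have hsur : SurjOn g (Ioo a b) (Ioo a b) := by
      intro z hz
      obtain ⟨y', hy', h1, h2⟩ := hsurj _ (hab hz)
      rw [Function.update_self] at h2
      have h3 : y' = Function.update y e (y' e) := by
        funext i
        by_cases hi : i = e
        · subst hi
          simp
        · rw [Function.update_of_ne hi, h1 i hi, Function.update_of_ne hi]
      have hT' : y' e ∈ T := by
        show Function.update y e (y' e) ∈ U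
        rw [← h3]
        exact hy'
      have hg : g (y' e) = z := by
        show h (Function.update y e (y' e)) = z
        rw [← h3]
        exact h2
      refine ⟨y' e, ⟨?_, ?_⟩, hg⟩
      · by_contra hcon
        rcases eq_or_lt_of_le (not_lt.1 hcon) with h4 | h4
        · exact haT (h4 ▸ hT')
        · exact haT (hbtw _ hT' a (Or.inl ⟨(min_le_left _ _).trans_lt h4, by
            rw [hg]; exact hz.1.trans_le (le_max_right _ _)⟩))
      · by_contra hcon
        rcases eq_or_lt_of_le (not_lt.1 hcon) with h4 | h4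
        · exact hbT (h4 ▸ hT')
        · exact hbT (hbtw _ hT' b (Or.inl ⟨by
            rw [hg]; exact (min_le_right _ _).trans_lt hz.2, h4.trans_le (le_max_left _ _)⟩))
    have hder : ∀ z ∈ Ioo a b, HasDerivAt (fun z => w (Function.update y e z))
        (pd e w (Function.update y e z)) z := by
      intro z hz
      have h1 : DifferentiableAt ℝ w (Function.update y e z) :=
        (hw.contDiffAt (hU.mem_nhds (hab hz))).differentiableAt (by simp)
      exact h1.hasFDerivAt.comp_hasDerivAt z (hasDerivAt_update y e z)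
    have hcont : ContinuousOn (fun z => w (Function.update y e z)) (Ioo a b) :=
      fun z hz => (hder z hz).continuousAt.continuousWithinAt
    have hwm : StrictMonoOn (fun z => w (Function.update y e z)) (Ioo a b) := by
      refine strictMonoOn_of_deriv_pos (convex_Ioo a b) hcont (fun z hz => ?_)
      rw [interior_Ioo] at hz
      rw [(hder z hz).deriv]
      exact hpos _ (hab hz)
    have key : ∀ (l : Filter ℝ) (c : ℝ), c ∉ T → l ≤ 𝓝 c → (∀ᶠ z in l, z ∈ Ioo a b) →
        Tendsto g l (𝓝 c) → Tendsto (fun z => w (Function.update y e z)) l (𝓝 c) := by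
      intro l c hcT hl hl' hg
      have hz : Tendsto (fun z : ℝ => z) l (𝓝 c) := hl
      have h1 : Tendsto (fun z => (1 - lam) * g z + lam * z) l (𝓝 c) := by
        have := (hg.const_mul (1 - lam)).add (hz.const_mul lam)
        have h2 : (1 - lam) * c + lam * c = c := by ring
        rwa [h2] at this
      have h2 : Tendsto (fun z : ℝ => θ (Function.update y e z)) l (𝓝 0) := by
        have h3 := ((hθ.comp (hcontY y)).tendsto c).comp hz
        have h4 : θ (Function.update y e c) = 0 := hθU _ hcT
        have h5 : (θ ∘ fun z : ℝ => Function.update y e z) c = 0 := h4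
        rw [h5] at h3
        exact h3
      have h3 : Tendsto (fun z => w (Function.update y e z) - ((1 - lam) * g z + lam * z)) l
          (𝓝 0) := by
        refine squeeze_zero_norm' ?_ h2
        filter_upwards [hl'] with z hz'
        have h4 := hclose _ (hab hz')
        rw [Function.update_self] at h4
        rw [Real.norm_eq_abs]
        exact h4
      have h4 := h3.add h1
      rw [zero_add] at h4
      refine h4.congr fun z => ?_
      ring
    refine ⟨a, b, ha, hb', fun z hz => hab hz, haT, hbT, hwm, ?_⟩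
    exact BijV.bijOn_Ioo hcont hwm hlt
      (key _ a haT nhdsWithin_le_nhds (Ioo_mem_nhdsGT hlt) (BijV.tend_zero hlt hmono hmap hsur))
      (key _ b hbT nhdsWithin_le_nhds (Ioo_mem_nhdsLT hlt) (BijV.tend_one hlt hmono hmap hsur))
  refine ⟨?_, ?_, ?_⟩
  · intro y hy
    obtain ⟨a, b, ha, hb', hin, _, _, _, hbij⟩ := main y hy
    have h1 := hbij.mapsTo ⟨ha, hb'⟩
    simp only [Function.update_eq_self] at h1
    exact hin _ h1
  · intro y1 hy1 y2 hy2 heq
    obtain ⟨a, b, ha, hb', hin, ha', hb'', hm, hbij⟩ := main y1 hy1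
    obtain ⟨a2, b2, ha2, hb2', hin2, _, _, _, hbij2⟩ := main y2 hy2
    have heq' : Function.update y1 e (w y1) = Function.update y2 e (w y2) := heq
    have hc : w y1 = w y2 := by
      have := congrFun heq' e
      simpa using this
    have hne : ∀ i, i ≠ e → y1 i = y2 i := by
      intro i hi
      have := congrFun heq' i
      simpa [hi] using this
    have hY : ∀ z, Function.update y1 e z = Function.update y2 e z := by
      intro z
      funext i
      by_cases hi : i = e
      · subst hi
        simp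
      · rw [Function.update_of_ne hi, Function.update_of_ne hi, hne i hi]
    have h1 := hbij.mapsTo ⟨ha, hb'⟩
    have h2 := hbij2.mapsTo ⟨ha2, hb2'⟩
    simp only [Function.update_eq_self] at h1 h2
    have h3 : y2 e ∈ Ioo a b := by
      constructor
      · by_contra hcon
        have h4 := not_lt.1 hcon
        apply ha'
        rw [hY]
        exact hin2 a ⟨by linarith [ha2], by linarith [h1.1, h2.2]⟩
      · by_contra hcon
        have h4 := not_lt.1 hcon
        apply hb''
        rw [hY]
        exact hin2 b ⟨by linarith [h1.2, h2.1], by linarith⟩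
    have h4 : y1 e = y2 e := by
      refine hm.injOn ⟨ha, hb'⟩ h3 ?_
      show w (Function.update y1 e (y1 e)) = w (Function.update y1 e (y2 e))
      rw [Function.update_eq_self, hY, Function.update_eq_self]
      exact hc
    funext i
    by_cases hi : i = e
    · subst hi
      exact h4
    · exact hne i hi
  · intro y hy
    obtain ⟨a, b, ha, hb', hin, _, _, _, hbij⟩ := main y hy
    obtain ⟨z, hz, hz'⟩ := hbij.surjOn ⟨ha, hb'⟩
    refine ⟨Function.update y e z, hin z hz, ?_⟩
    show Function.update (Function.update y e z) e (w (Function.update y e z)) = y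
    have hz'' : w (Function.update y e z) = y e := hz'
    rw [hz'', hupd, Function.update_eq_self]

end Vale.Agent.P073
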