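import Vale.Agent.P073.Defs2

/-!
# P073: the chain rule in coordinates
-/

open MeasureTheory Set Filter Topology
open scoped ContDiff ENNReal

namespace Vale.Agent.P073

namespace Chain

/-- The chain rule. -/
theorem pd_comp {n : ℕ} {U Ω : Set (X n)} (hU : IsOpen U) (hΩ : IsOpen Ω) {β : X n → X n}
    (hβ : ContDiffOn ℝ ∞ β U) (hm : MapsTo β U Ω) {g : X n → ℝ} (hg : ContDiffOn ℝ ∞ g Ω)
    (j : Fin n) {x : X n} (hx : x ∈ U) :
    pd j (fun x => g (β x)) x = ∑ k, pd k g (β x) * pd j (fun x => β x k) x := by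
  have hgd : DifferentiableAt ℝ g (β x) :=
    (hg.contDiffAt (hΩ.mem_nhds (hm hx))).differentiableAt (by simp)
  have hβd : DifferentiableAt ℝ β x :=
    (hβ.contDiffAt (hU.mem_nhds hx)).differentiableAt (by simp)
  have h1 : fderiv ℝ (fun x => g (β x)) x = (fderiv ℝ g (β x)).comp (fderiv ℝ β x) :=
    fderiv_comp x hgd hβd
  have h2 : ∀ k, pd j (fun x => β x k) x = (fderiv ℝ β x (Pi.single j 1)) k := by
    intro k
    unfold pd
    rw [fderiv_apply hβd]
    rfl
  have h3 : (fderiv ℝ β x (Pi.single j 1)) =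
      ∑ k, (fderiv ℝ β x (Pi.single j 1)) k • (Pi.single k (1 : ℝ) : X n) := by
    conv_lhs => rw [← Finset.univ_sum_single (fderiv ℝ β x (Pi.single j 1))]
    refine Finset.sum_congr rfl fun k _ => ?_
    rw [← Pi.single_smul, smul_eq_mul, mul_one]
  have h4 : pd j (fun x => g (β x)) x = fderiv ℝ g (β x) (fderiv ℝ β x (Pi.single j 1)) := by
    unfold pd
    rw [h1]
    rfl
  rw [h4, h3, map_sum]
  refine Finset.sum_congr rfl fun k _ => ?_
  rw [map_smul, smul_eq_mul, h2 k, mul_comm]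
  rfl

theorem pd_le {n : ℕ} {β : X n → X n} {x : X n} (hβ : DifferentiableAt ℝ β x) (j k : Fin n) :
    |pd j (fun x => β x k) x| ≤ ‖fderiv ℝ β x‖ := by
  have h2 : pd j (fun x => β x k) x = (fderiv ℝ β x (Pi.single j 1)) k := by
    unfold pd
    rw [fderiv_apply hβ]
    rfl
  rw [h2, ← Real.norm_eq_abs]
  refine (norm_le_pi_norm _ k).trans (((fderiv ℝ β x).le_opNorm _).trans ?_)
  have : ‖(Pi.single j (1 : ℝ) : X n)‖ ≤ 1 := by
    rw [pi_norm_le_iff_of_nonneg zero_le_one]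
    intro i
    by_cases h : i = j
    · subst h; simp
    · simp [Pi.single_eq_of_ne h]
  calc ‖fderiv ℝ β x‖ * ‖(Pi.single j (1 : ℝ) : X n)‖ ≤ ‖fderiv ℝ β x‖ * 1 :=
        mul_le_mul_of_nonneg_left this (norm_nonneg _)
    _ = _ := mul_one _

/-- Partial derivatives of a smooth function are continuous. -/
theorem continuousOn_pd {n : ℕ} {U : Set (X n)} (hU : IsOpen U) {w : X n → ℝ}
    (hw : ContDiffOn ℝ ∞ w U) (j : Fin n) : ContinuousOn (pd j w) U := by
  unfold pd
  have h := hw.continuousOn_fderiv_of_isOpen hU (by simp)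
  exact h.clm_apply continuousOn_const

theorem coord {n : ℕ} {U : Set (X n)} {β : X n → X n}
    (hβ : ContDiffOn ℝ ∞ β U) (k : Fin n) : ContDiffOn ℝ ∞ (fun x => β x k) U :=
  (contDiff_apply ℝ ℝ k).comp_contDiffOn hβ

end Chain

end Vale.Agent.P073
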