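import Vale.Agent.P073.Defs2

/-!
# P073, row CHG: change of variables in `L^p`
-/

open MeasureTheory Set Filter Topology
open scoped ContDiff ENNReal

namespace Vale.Agent.P073

namespace Chg

theorem det_bound {n : ℕ} (C : ℝ) : ∃ D : ℝ, 0 ≤ D ∧
    ∀ L : X n →L[ℝ] X n, ‖L‖ ≤ C → |L.det| ≤ D := by
  have hcomp : IsCompact (Metric.closedBall (0 : X n →L[ℝ] X n) C) := isCompact_closedBall 0 C
  obtain ⟨D, hD⟩ := hcomp.exists_bound_of_continuousOn
    (f := fun L : X n →L[ℝ] X n => L.det) ContinuousLinearMap.continuous_det.continuousOn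
  refine ⟨|D|, abs_nonneg _, fun L hL => ?_⟩
  have := hD L (by simpa using hL)
  rw [Real.norm_eq_abs] at this
  exact this.trans (le_abs_self D)

theorem map_le {n : ℕ} {U Ω : Set (X n)} (hU : IsOpen U) (hΩ : IsOpen Ω) {β : X n → X n}
    (hβ : NiceDiffeo β U Ω) :
    ∃ A : ℝ≥0∞, A ≠ ⊤ ∧ AEMeasurable β (volume.restrict U) ∧
      Measure.map β (volume.restrict U) ≤ A • (volume.restrict Ω) := by
  obtain ⟨hβs, hβm, k, hks, hkm, hkβ, hβk, C, -, hkC⟩ := hβ
  obtain ⟨D, hD0, hD⟩ := det_bound (n := n) C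
  have hae : AEMeasurable β (volume.restrict U) :=
    hβs.continuousOn.aemeasurable hU.measurableSet
  refine ⟨ENNReal.ofReal D, ENNReal.ofReal_ne_top, hae, ?_⟩
  rw [Measure.le_iff]
  intro S hS
  rw [Measure.map_apply_of_aemeasurable hae hS, Measure.restrict_apply' hU.measurableSet,
    Measure.smul_apply, Measure.restrict_apply hS, smul_eq_mul]
  have himg : β ⁻¹' S ∩ U = k '' (S ∩ Ω) := by
    ext x
    constructor
    · rintro ⟨hxS, hxU⟩
      exact ⟨β x, ⟨hxS, hβm hxU⟩, hkβ x hxU⟩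
    · rintro ⟨y, ⟨hyS, hyΩ⟩, rfl⟩
      refine ⟨?_, hkm hyΩ⟩
      rw [mem_preimage, hβk y hyΩ]
      exact hyS
  have hinj : InjOn k (S ∩ Ω) := by
    intro y hy y' hy' h
    rw [← hβk y hy.2, ← hβk y' hy'.2, h]
  have hder : ∀ y ∈ S ∩ Ω, HasFDerivWithinAt k (fderiv ℝ k y) (S ∩ Ω) y := by
    intro y hy
    exact ((hks.contDiffAt (hΩ.mem_nhds hy.2)).differentiableAt
      (by simp)).hasFDerivAt.hasFDerivWithinAt
  rw [himg, ← lintegral_abs_det_fderiv_eq_addHaar_image volume (hS.inter hΩ.measurableSet)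
    hder hinj]
  calc ∫⁻ y in S ∩ Ω, ENNReal.ofReal |(fderiv ℝ k y).det|
      ≤ ∫⁻ _ in S ∩ Ω, ENNReal.ofReal D := by
        refine setLIntegral_mono' (hS.inter hΩ.measurableSet) fun y hy => ?_
        exact ENNReal.ofReal_le_ofReal (hD _ (hkC y hy.2))
    _ = ENNReal.ofReal D * volume (S ∩ Ω) := by
        rw [lintegral_const, Measure.restrict_apply_univ]

end Chg

theorem chg {n : ℕ} {p : ℝ≥0∞} (hp' : p ≠ ⊤) {U Ω : Set (X n)} (hU : IsOpen U) (hΩ : IsOpen Ω)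
    {β : X n → X n} (hβ : NiceDiffeo β U Ω) :
    ∃ A : ℝ≥0∞, A ≠ ⊤ ∧ ∀ v : X n → ℝ, AEStronglyMeasurable v (volume.restrict Ω) →
      AEStronglyMeasurable (fun x => v (β x)) (volume.restrict U) ∧
      eLpNorm (fun x => v (β x)) p (volume.restrict U) ≤ A * eLpNorm v p (volume.restrict Ω) := by
  obtain ⟨A, hA, hae, hle⟩ := Chg.map_le hU hΩ hβ
  refine ⟨A ^ (1 / p).toReal, ENNReal.rpow_ne_top_of_nonneg ENNReal.toReal_nonneg hA,
    fun v hv => ?_⟩
  have hac : Measure.map β (volume.restrict U) ≪ volume.restrict Ω :=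
    hle.absolutelyContinuous.trans Measure.smul_absolutelyContinuous
  have hvm : AEStronglyMeasurable v (Measure.map β (volume.restrict U)) := hv.mono_ac hac
  refine ⟨hvm.comp_aemeasurable hae, ?_⟩
  calc eLpNorm (fun x => v (β x)) p (volume.restrict U)
      = eLpNorm v p (Measure.map β (volume.restrict U)) := (eLpNorm_map_measure hvm hae).symm
    _ ≤ eLpNorm v p (A • volume.restrict Ω) := eLpNorm_mono_measure _ hle
    _ = A ^ (1 / p).toReal • eLpNorm v p (volume.restrict Ω) :=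
        eLpNorm_smul_measure_of_ne_top hp' v A

theorem chg_memLp {n : ℕ} {p : ℝ≥0∞} (hp' : p ≠ ⊤) {U Ω : Set (X n)} (hU : IsOpen U)
    (hΩ : IsOpen Ω) {β : X n → X n} (hβ : NiceDiffeo β U Ω) {v : X n → ℝ}
    (hv : MemLp v p (volume.restrict Ω)) :
    MemLp (fun x => v (β x)) p (volume.restrict U) := by
  obtain ⟨A, hA, h⟩ := chg hp' hU hΩ hβ
  obtain ⟨h1, h2⟩ := h v hv.1
  exact ⟨h1, h2.trans_lt (ENNReal.mul_lt_top (lt_top_iff_ne_top.2 hA) hv.2)⟩

end Vale.Agent.P073
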