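import Vale.Agent.P073.Defs2

/-!
# Change of variables in `L^p` (problem P073)
-/

open MeasureTheory Set Filter Topology
open scoped ContDiff ENNReal

namespace Vale.Agent.P073

namespace ChgR

lemma entry_le {n : ℕ} (A : X n →L[ℝ] X n) (i j : Fin n) :
    |A (Pi.single j 1) i| ≤ ‖A‖ := by
  have h1 : ‖A (Pi.single j 1)‖ ≤ ‖A‖ * ‖(Pi.single j 1 : X n)‖ := A.le_opNorm _
  have h2 : ‖(Pi.single j 1 : X n)‖ ≤ 1 := by
    rw [pi_norm_le_iff_of_nonneg zero_le_one]
    intro l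
    by_cases h : l = j
    · subst h; simp
    · rw [Pi.single_eq_of_ne h]; simp
  calc |A (Pi.single j 1) i| = ‖A (Pi.single j 1) i‖ := (Real.norm_eq_abs _).symm
    _ ≤ ‖A (Pi.single j 1)‖ := norm_le_pi_norm _ i
    _ ≤ ‖A‖ * ‖(Pi.single j 1 : X n)‖ := h1
    _ ≤ ‖A‖ * 1 := by gcongr
    _ = ‖A‖ := mul_one _

lemma det_le {n : ℕ} (A : X n →L[ℝ] X n) {C : ℝ} (hC : ‖A‖ ≤ C) :
    |A.det| ≤ (n.factorial : ℝ) * C ^ n := by
  have h1 : A.det = (LinearMap.toMatrix' (A : X n →ₗ[ℝ] X n)).det := by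
    rw [LinearMap.det_toMatrix']
  have h2 := Matrix.det_le (A := LinearMap.toMatrix' (A : X n →ₗ[ℝ] X n))
    (abv := AbsoluteValue.abs) (x := C) (fun i j => by
      rw [LinearMap.toMatrix'_apply]
      have h3 := entry_le A i j
      have h4 : (fun j' : Fin n => if j' = j then (1 : ℝ) else 0) = Pi.single j 1 := by
        funext l
        simp [Pi.single_apply]
      simpa [h4] using h3.trans hC)
  rw [h1]
  simpa using h2

lemma map_le {n : ℕ} {U Ω : Set (X n)} (hU : IsOpen U) (hΩ : IsOpen Ω) {β : X n → X n}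
    (hβ : NiceDiffeo β U Ω) :
    ∃ M : ℝ≥0∞, M ≠ ⊤ ∧ Measure.map β (volume.restrict U) ≤ M • volume.restrict Ω := by
  obtain ⟨hβs, hβm, k, hks, hkm, hkβ, hβk, C, hC1, hC2⟩ := hβ
  refine ⟨ENNReal.ofReal ((n.factorial : ℝ) * C ^ n), ENNReal.ofReal_ne_top, ?_⟩
  have hae : AEMeasurable β (volume.restrict U) :=
    hβs.continuousOn.aemeasurable hU.measurableSet
  rw [Measure.le_iff]
  intro A hA
  rw [Measure.map_apply_of_aemeasurable hae hA, Measure.restrict_apply' hU.measurableSet,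
    Measure.smul_apply, Measure.restrict_apply hA, smul_eq_mul]
  have hsub : β ⁻¹' A ∩ U ⊆ k '' (A ∩ Ω) := by
    rintro x ⟨hx, hxU⟩
    exact ⟨β x, ⟨hx, hβm hxU⟩, hkβ x hxU⟩
  refine (measure_mono hsub).trans ?_
  have hAm : MeasurableSet (A ∩ Ω) := hA.inter hΩ.measurableSet
  have hd : ∀ y ∈ A ∩ Ω, HasFDerivWithinAt k (fderiv ℝ k y) (A ∩ Ω) y := fun y hy =>
    ((hks.differentiableOn (by simp)).differentiableAt
      (hΩ.mem_nhds hy.2)).hasFDerivAt.hasFDerivWithinAt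
  refine (addHaar_image_le_lintegral_abs_det_fderiv volume hAm hd).trans ?_
  calc ∫⁻ y in A ∩ Ω, ENNReal.ofReal |(fderiv ℝ k y).det|
      ≤ ∫⁻ _ in A ∩ Ω, ENNReal.ofReal ((n.factorial : ℝ) * C ^ n) := by
        refine setLIntegral_mono measurable_const fun y hy => ?_
        exact ENNReal.ofReal_le_ofReal (det_le _ (hC2 y hy.2))
    _ = ENNReal.ofReal ((n.factorial : ℝ) * C ^ n) * volume (A ∩ Ω) := by
        rw [lintegral_const, Measure.restrict_apply_univ]

/-- Change of variables in `L^p`. -/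
lemma chg {n : ℕ} {p : ℝ≥0∞} (hp : 1 ≤ p) (hp' : p ≠ ⊤) {U Ω : Set (X n)} (hU : IsOpen U)
    (hΩ : IsOpen Ω) {β : X n → X n} (hβ : NiceDiffeo β U Ω) :
    ∃ D : ℝ, 0 ≤ D ∧ ∀ v : X n → ℝ, MemLp v p (volume.restrict Ω) →
      MemLp (fun x => v (β x)) p (volume.restrict U) ∧
      eLpNorm (fun x => v (β x)) p (volume.restrict U) ≤
        ENNReal.ofReal D * eLpNorm v p (volume.restrict Ω) := by
  obtain ⟨M, hM, hle⟩ := map_le hU hΩ hβ
  have hae : AEMeasurable β (volume.restrict U) :=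
    hβ.1.continuousOn.aemeasurable hU.measurableSet
  have hp0 : p ≠ 0 := (lt_of_lt_of_le one_pos hp).ne'
  have hMp : M ^ (1 / p).toReal ≠ ⊤ := ENNReal.rpow_ne_top_of_nonneg ENNReal.toReal_nonneg hM
  refine ⟨(M ^ (1 / p).toReal).toReal, ENNReal.toReal_nonneg, fun v hv => ?_⟩
  have h1 : MemLp v p (M • volume.restrict Ω) := hv.smul_measure hM
  have h2 : MemLp v p (Measure.map β (volume.restrict U)) := h1.mono_measure hle
  have h3 : MemLp (v ∘ β) p (volume.restrict U) := (memLp_map_measure_iff h2.1 hae).mp h2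
  refine ⟨h3, ?_⟩
  have h4 : eLpNorm (v ∘ β) p (volume.restrict U) =
      eLpNorm v p (Measure.map β (volume.restrict U)) := (eLpNorm_map_measure h2.1 hae).symm
  change eLpNorm (v ∘ β) p (volume.restrict U) ≤ _
  rw [h4, ENNReal.ofReal_toReal hMp]
  refine (eLpNorm_mono_measure v hle).trans ?_
  rw [eLpNorm_smul_measure_of_ne_top hp', smul_eq_mul]

end ChgR

end Vale.Agent.P073
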