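import Vale.Agent.P073.Fub

open MeasureTheory Set Filter Topology
open scoped ContDiff ENNReal

namespace Vale.Agent.P073

namespace ClW

/-- The product of a compactly supported continuous function and a function which is continuous
on a neighbourhood of the support is continuous. -/
lemma cont_mul {n : ℕ} {U : Set (X n)} (hU : IsOpen U) {a b : X n → ℝ} (ha : Continuous a)
    (hs : tsupport a ⊆ U) (hb : ContinuousOn b U) : Continuous fun x => a x * b x := by
  rw [continuous_iff_continuousAt]
  intro x
  by_cases hx : x ∈ tsupport a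
  · exact ha.continuousAt.mul (hb.continuousAt (hU.mem_nhds (hs hx)))
  · have h0 : (fun x => a x * b x) =ᶠ[𝓝 x] fun _ => 0 := by
      have h1 : (tsupport a)ᶜ ∈ 𝓝 x := (isClosed_tsupport a).isOpen_compl.mem_nhds hx
      filter_upwards [h1] with y hy
      rw [image_eq_zero_of_notMem_tsupport hy, zero_mul]
    exact continuousAt_const.congr h0.symm

lemma smooth_mul {n : ℕ} {U : Set (X n)} (hU : IsOpen U) {a b : X n → ℝ} (ha : ContDiff ℝ ∞ a)
    (hs : tsupport a ⊆ U) (hb : ContDiffOn ℝ ∞ b U) : ContDiff ℝ ∞ fun x => a x * b x := by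
  rw [contDiff_iff_contDiffAt]
  intro x
  by_cases hx : x ∈ tsupport a
  · exact ha.contDiffAt.mul (hb.contDiffAt (hU.mem_nhds (hs hx)))
  · have h0 : (fun x => a x * b x) =ᶠ[𝓝 x] fun _ => 0 := by
      have h1 : (tsupport a)ᶜ ∈ 𝓝 x := (isClosed_tsupport a).isOpen_compl.mem_nhds hx
      filter_upwards [h1] with y hy
      rw [image_eq_zero_of_notMem_tsupport hy, zero_mul]
    exact contDiffAt_const.congr_of_eventuallyEq h0

lemma compact_mul {n : ℕ} {a b : X n → ℝ} (ha : HasCompactSupport a) :
    HasCompactSupport fun x => a x * b x := ha.mul_right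

lemma pd_tsupport {n : ℕ} (j : Fin n) (ψ : X n → ℝ) : tsupport (pd j ψ) ⊆ tsupport ψ :=
  tsupport_fderiv_apply_subset ℝ _

lemma pd_contOn {n : ℕ} {U : Set (X n)} (hU : IsOpen U) (j : Fin n) {w : X n → ℝ}
    (hw : ContDiffOn ℝ ∞ w U) : ContinuousOn (pd j w) U := by
  have h := hw.continuousOn_fderiv_of_isOpen hU (by simp)
  exact h.clm_apply continuousOn_const

lemma int_pd {n : ℕ} (j : Fin n) {G : X n → ℝ} (hG : ContDiff ℝ ∞ G)
    (hc : HasCompactSupport G) : ∫ x, pd j G x = 0 := by
  have h1 : Integrable (fun x => fderiv ℝ G x (Pi.single j 1) * (1:ℝ)) := by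
    simp only [mul_one]
    exact (Fub.pd_cont j hG).integrable_of_hasCompactSupport (Fub.pd_supp j hc)
  have h2 : Integrable (fun x => G x * fderiv ℝ (fun _ : X n => (1:ℝ)) x (Pi.single j 1)) := by
    have : (fun x => G x * fderiv ℝ (fun _ : X n => (1:ℝ)) x (Pi.single j 1)) = fun _ => 0 := by
      funext x; simp
    rw [this]
    exact integrable_zero _ _ _
  have h3 : Integrable (fun x => G x * (1:ℝ)) := by
    simp only [mul_one]
    exact hG.continuous.integrable_of_hasCompactSupport hc
  have h4 := integral_mul_fderiv_eq_neg_fderiv_mul_of_integrable h1 h2 h3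
    (fun x _ => (hG.differentiable (by simp)) x) (fun x _ => differentiableAt_const (1:ℝ))
  simp only [mul_one] at h4
  have h5 : ∫ x, G x * fderiv ℝ (fun _ : X n => (1:ℝ)) x (Pi.single j 1) = 0 := by
    simp
  rw [h5] at h4
  unfold pd
  linarith

end ClW

open ClW

/-- A classical partial derivative is a weak one. -/
theorem classical_weak {n : ℕ} {U : Set (X n)} (hU : IsOpen U) (j : Fin n) {w : X n → ℝ}
    (hw : ContDiffOn ℝ ∞ w U) : IsWeakPartial U j w (pd j w) := by
  intro ψ hψ hc hs
  have hA : Continuous fun x => pd j ψ x * w x :=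
    cont_mul hU (Fub.pd_cont j hψ) ((pd_tsupport j ψ).trans hs) hw.continuousOn
  have hB : Continuous fun x => ψ x * pd j w x :=
    cont_mul hU hψ.continuous hs (pd_contOn hU j hw)
  have hAi : Integrable fun x => pd j ψ x * w x :=
    hA.integrable_of_hasCompactSupport (compact_mul (Fub.pd_supp j hc))
  have hBi : Integrable fun x => ψ x * pd j w x :=
    hB.integrable_of_hasCompactSupport (compact_mul hc)
  have hG : ContDiff ℝ ∞ fun x => ψ x * w x := smooth_mul hU hψ hs hw
  have h0 := int_pd j hG (compact_mul hc)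
  have hsplit : ∀ x, pd j (fun x => ψ x * w x) x = pd j ψ x * w x + ψ x * pd j w x := by
    intro x
    by_cases hx : x ∈ U
    · have d1 : DifferentiableAt ℝ ψ x := (hψ.differentiable (by simp)) x
      have d2 : DifferentiableAt ℝ w x :=
        (hw.contDiffAt (hU.mem_nhds hx)).differentiableAt (by simp)
      unfold pd
      rw [fderiv_fun_mul d1 d2]
      simp only [add_apply, smul_apply, smul_eq_mul]
      ring
    · have hx1 : x ∉ tsupport ψ := fun h => hx (hs h)
      have hx2 : x ∉ tsupport (pd j ψ) := fun h => hx1 (pd_tsupport j ψ h)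
      have hx3 : x ∉ tsupport (pd j (fun x => ψ x * w x)) := fun h =>
        hx1 (tsupport_mul_subset_left (pd_tsupport j _ h))
      rw [image_eq_zero_of_notMem_tsupport hx1, image_eq_zero_of_notMem_tsupport hx2,
        image_eq_zero_of_notMem_tsupport hx3]
      ring
  have h1 : (∫ x in U, pd j ψ x * w x) = ∫ x, pd j ψ x * w x :=
    setIntegral_eq_integral_of_forall_compl_eq_zero fun x hx => by
      rw [image_eq_zero_of_notMem_tsupport (fun h => hx (hs (pd_tsupport j ψ h))), zero_mul]
  have h2 : (∫ x in U, ψ x * pd j w x) = ∫ x, ψ x * pd j w x :=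
    setIntegral_eq_integral_of_forall_compl_eq_zero fun x hx => by
      rw [image_eq_zero_of_notMem_tsupport (fun h => hx (hs h)), zero_mul]
  simp only [hsplit] at h0
  rw [integral_add hAi hBi, ← h1, ← h2] at h0
  have e1 : (∫ x in U, w x * pd j ψ x) = ∫ x in U, pd j ψ x * w x := by
    simp only [mul_comm]
  have e2 : (∫ x in U, pd j w x * ψ x) = ∫ x in U, ψ x * pd j w x := by
    simp only [mul_comm]
  rw [e1, e2]
  linarith

end Vale.Agent.P073
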