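import Vale.Agent.P073.Fub

open MeasureTheory Set Filter Topology
open scoped ContDiff ENNReal

namespace Vale.Agent.P073

namespace LimW

lemma tend {n : ℕ} {U : Set (X n)} (hb : Bornology.IsBounded U) {p : ℝ≥0∞} (hp : 1 ≤ p)
    {uk : ℕ → X n → ℝ} {u : X n → ℝ} (huk : ∀ k, MemLp (uk k) p (volume.restrict U))
    (hu : MemLp u p (volume.restrict U))
    (h1 : Tendsto (fun k => eLpNorm (fun x => uk k x - u x) p (volume.restrict U)) atTop (𝓝 0))
    {ψ : X n → ℝ} (hψ : Continuous ψ) (hc : HasCompactSupport ψ) :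
    Tendsto (fun k => ∫ x in U, uk k x * ψ x) atTop (𝓝 (∫ x in U, u x * ψ x)) := by
  have hfin : IsFiniteMeasure (volume.restrict U) := ⟨by
    rw [Measure.restrict_apply_univ]; exact hb.measure_lt_top⟩
  obtain ⟨C, hC⟩ := hc.exists_bound_of_continuous hψ
  have hint : ∀ w : X n → ℝ, MemLp w p (volume.restrict U) →
      Integrable (fun x => w x * ψ x) (volume.restrict U) := fun w hw =>
    (hw.integrable hp).mul_bdd (c := C) hψ.aestronglyMeasurable
      (Eventually.of_forall fun x => hC x)
  refine tendsto_integral_of_L1' _ (hint u hu).aestronglyMeasurable (Eventually.of_forall fun k => hint _ (huk k)) ?_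
  have hK : volume.restrict U univ ^ (1 / (1:ℝ≥0∞).toReal - 1 / p.toReal) ≠ ⊤ := by
    refine ENNReal.rpow_ne_top_of_nonneg ?_ (measure_ne_top _ _)
    rcases eq_or_ne p ⊤ with rfl | hpt
    · simp
    · have h3 : 1 ≤ p.toReal := by
        have := (ENNReal.toReal_le_toReal ENNReal.one_ne_top hpt).2 hp
        simpa using this
      simp only [ENNReal.toReal_one, div_one, sub_nonneg]
      exact div_le_one_of_le₀ h3 (by linarith)
  have hlim : Tendsto (fun k => ENNReal.ofReal C *
      (eLpNorm (fun x => uk k x - u x) p (volume.restrict U) *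
        volume.restrict U univ ^ (1 / (1:ℝ≥0∞).toReal - 1 / p.toReal))) atTop (𝓝 0) := by
    have h4 := ENNReal.Tendsto.mul_const h1 (Or.inr hK)
    have h5 := ENNReal.Tendsto.const_mul (a := ENNReal.ofReal C) h4
      (Or.inr ENNReal.ofReal_ne_top)
    simpa using h5
  refine tendsto_of_tendsto_of_tendsto_of_le_of_le tendsto_const_nhds hlim
    (fun _ => zero_le) fun k => ?_
  have hm : AEStronglyMeasurable (fun x => uk k x - u x) (volume.restrict U) :=
    (huk k).1.sub hu.1
  calc eLpNorm ((fun x => uk k x * ψ x) - fun x => u x * ψ x) 1 (volume.restrict U)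
      ≤ ENNReal.ofReal C * eLpNorm (fun x => uk k x - u x) 1 (volume.restrict U) := by
        refine eLpNorm_le_mul_eLpNorm_of_ae_le_mul (Eventually.of_forall fun x => ?_) 1
        simp only [Pi.sub_apply]
        rw [← sub_mul, norm_mul, mul_comm]
        exact mul_le_mul_of_nonneg_right (hC x) (norm_nonneg _)
    _ ≤ _ := by
        gcongr
        exact eLpNorm_le_eLpNorm_mul_rpow_measure_univ hp hm

end LimW

/-- Weak derivatives pass to `L^p` limits. -/
theorem limit_weak' {n : ℕ} {U : Set (X n)} (hb : Bornology.IsBounded U) {p : ℝ≥0∞} (hp : 1 ≤ p)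
    (j : Fin n) {uk vk : ℕ → X n → ℝ} {u v : X n → ℝ}
    (huk : ∀ k, MemLp (uk k) p (volume.restrict U))
    (hvk : ∀ k, MemLp (vk k) p (volume.restrict U))
    (hu : MemLp u p (volume.restrict U)) (hv : MemLp v p (volume.restrict U))
    (h1 : Tendsto (fun k => eLpNorm (fun x => uk k x - u x) p (volume.restrict U)) atTop (𝓝 0))
    (h2 : Tendsto (fun k => eLpNorm (fun x => vk k x - v x) p (volume.restrict U)) atTop (𝓝 0))
    (hw : ∀ k, IsWeakPartial U j (uk k) (vk k)) : IsWeakPartial U j u v := by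
  intro ψ hψ hc hs
  have t1 := LimW.tend hb hp huk hu h1 (Fub.pd_cont j hψ) (Fub.pd_supp j hc)
  have t2 := LimW.tend hb hp hvk hv h2 hψ.continuous hc
  have t3 : Tendsto (fun k => ∫ x in U, uk k x * pd j ψ x) atTop
      (𝓝 (-∫ x in U, v x * ψ x)) := by
    refine t2.neg.congr fun k => ?_
    exact (hw k ψ hψ hc hs).symm
  exact tendsto_nhds_unique t1 t3

/-- Weak derivatives pass to `L^p` limits (form used by the other files). -/
theorem limit_weak {n : ℕ} {p : ℝ≥0∞} (hp : 1 ≤ p) (hp' : p ≠ ⊤) {U : Set (X n)}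
    (hU : IsOpen U) (hb : Bornology.IsBounded U) (j : Fin n) {uk vk : ℕ → X n → ℝ}
    {u v : X n → ℝ} (hu : MemLp u p (volume.restrict U)) (hv : MemLp v p (volume.restrict U))
    (huk : ∀ k, MemLp (uk k) p (volume.restrict U))
    (hvk : ∀ k, MemLp (vk k) p (volume.restrict U))
    (h1 : Tendsto (fun k => eLpNorm (fun x => uk k x - u x) p (volume.restrict U)) atTop (𝓝 0))
    (h2 : Tendsto (fun k => eLpNorm (fun x => vk k x - v x) p (volume.restrict U)) atTop (𝓝 0))
    (hw : ∀ k, IsWeakPartial U j (uk k) (vk k)) : IsWeakPartial U j u v :=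
  limit_weak' hb hp j huk hvk hu hv h1 h2 hw

end Vale.Agent.P073
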