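import Vale.Agent.P073.Defs2
import Vale.Agent.P073.ClW
import Vale.Agent.P073.LimW

/-! P073, row COMPL: smooth changes of coordinates in the target. -/

open MeasureTheory Set Filter Topology
open scoped ContDiff ENNReal

namespace Vale.Agent.P073

namespace CompL

/-- dominated convergence in `L^p` -/
theorem dom {α : Type*} [MeasurableSpace α] {μ : Measure α} {p : ℝ≥0∞} (hp : 1 ≤ p) (hp' : p ≠ ⊤)
    {h : ℕ → α → ℝ} {G : α → ℝ} (hG : MemLp G p μ) (hm : ∀ k, AEStronglyMeasurable (h k) μ)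
    (hb : ∀ k, ∀ᵐ x ∂μ, |h k x| ≤ G x)
    (hl : ∀ᵐ x ∂μ, Tendsto (fun k => h k x) atTop (𝓝 0)) :
    Tendsto (fun k => eLpNorm (h k) p μ) atTop (𝓝 0) := by
  have hp0 : p ≠ 0 := (zero_lt_one.trans_le hp).ne'
  have hq : 0 < p.toReal := ENNReal.toReal_pos hp0 hp'
  have hfin : ∫⁻ x, ‖G x‖ₑ ^ p.toReal ∂μ ≠ ⊤ :=
    (lintegral_rpow_enorm_lt_top_of_eLpNorm_lt_top hp0 hp' hG.2).ne
  have h1 : Tendsto (fun k => ∫⁻ x, ‖h k x‖ₑ ^ p.toReal ∂μ) atTop (𝓝 (∫⁻ _, 0 ∂μ)) := by
    refine tendsto_lintegral_of_dominated_convergence' (fun x => ‖G x‖ₑ ^ p.toReal)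
      (fun k => (hm k).enorm.pow_const _) (fun k => ?_) hfin ?_
    · filter_upwards [hb k] with x hx
      refine ENNReal.rpow_le_rpow ?_ hq.le
      rw [enorm_le_iff_norm_le]
      simpa [Real.norm_eq_abs] using hx.trans (le_abs_self _)
    · filter_upwards [hl] with x hx
      have h2 : Tendsto (fun k => ‖h k x‖ₑ) atTop (𝓝 ‖(0 : ℝ)‖ₑ) :=
        (continuous_enorm.tendsto _).comp hx
      have h3 := ((ENNReal.continuous_rpow_const (y := p.toReal)).tendsto _).comp h2
      have h6 : ‖(0 : ℝ)‖ₑ ^ p.toReal = 0 := by simp [hq]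
      rw [h6] at h3
      exact h3
  rw [lintegral_zero] at h1
  have h4 := ((ENNReal.continuous_rpow_const (y := 1 / p.toReal)).tendsto _).comp h1
  have h5 : (0 : ℝ≥0∞) ^ (1 / p.toReal) = 0 := ENNReal.zero_rpow_of_pos (by positivity)
  rw [h5] at h4
  refine h4.congr fun k => ?_
  rw [eLpNorm_eq_lintegral_rpow_enorm_toReal hp0 hp']
  rfl

/-- chain rule -/
theorem chain {n : ℕ} {Ω Λ : Set (X n)} (hΩ : IsOpen Ω) (hΛ : IsOpen Λ) {g : X n → X n}
    (hg : ContDiffOn ℝ ∞ g Ω) (hm : MapsTo g Ω Λ) {a : X n → ℝ} (ha : ContDiffOn ℝ ∞ a Λ)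
    (j : Fin n) {x : X n} (hx : x ∈ Ω) :
    pd j (fun y => a (g y)) x = ∑ l, pd l a (g x) * pd j (fun y => g y l) x := by
  have hgx : DifferentiableAt ℝ g x :=
    ((hg x hx).contDiffAt (hΩ.mem_nhds hx)).differentiableAt (by simp)
  have hax : DifferentiableAt ℝ a (g x) :=
    ((ha (g x) (hm hx)).contDiffAt (hΛ.mem_nhds (hm hx))).differentiableAt (by simp)
  have h1 : fderiv ℝ (fun y => a (g y)) x = (fderiv ℝ a (g x)).comp (fderiv ℝ g x) :=
    fderiv_comp x hax hgx
  unfold pd
  rw [h1, ContinuousLinearMap.comp_apply]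
  set v := fderiv ℝ g x (Pi.single j 1) with hv
  have hvl : ∀ l, fderiv ℝ (fun y => g y l) x (Pi.single j 1) = v l := by
    intro l
    have h2 : HasFDerivAt (fun y => g y l) ((ContinuousLinearMap.proj l).comp (fderiv ℝ g x)) x :=
      hasFDerivAt_pi'.1 hgx.hasFDerivAt l
    rw [h2.fderiv]
    rfl
  simp_rw [hvl]
  have h3 : v = ∑ l, v l • (Pi.single l (1 : ℝ) : X n) := by
    ext i
    simp [Finset.sum_apply, Pi.single_apply]
  conv_lhs => rw [h3, map_sum]
  refine Finset.sum_congr rfl fun l _ => ?_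
  rw [map_smul, smul_eq_mul, mul_comm]

theorem cpd {n : ℕ} {Λ : Set (X n)} (hΛ : IsOpen Λ) {a : X n → ℝ}
    (ha : ContDiffOn ℝ ∞ a Λ) (l : Fin n) : ContinuousOn (pd l a) Λ := by
  have h1 : ContinuousOn (fderiv ℝ a) Λ := ha.continuousOn_fderiv_of_isOpen hΛ (by simp)
  exact h1.clm_apply continuousOn_const

end CompL

open CompL

theorem comp_left {n : ℕ} {p : ℝ≥0∞} (hp : 1 ≤ p) (hp' : p ≠ ⊤) {Ω Λ W : Set (X n)}
    (hΩ : IsOpen Ω) (hbΩ : Bornology.IsBounded Ω) (hΛ : IsOpen Λ)
    (hbW : Bornology.IsBounded W) {α : X n → X n} (hα : NiceDiffeo α Λ W)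
    {f : X n → X n} (hfm : MapsTo f Ω Λ) (hf : Approximable p f Ω Λ) :
    Approximable p (fun x => α (f x)) Ω W := by
  classical
  obtain ⟨hαs, hαm, kα, hkαs, hkαm, hkα1, hkα2, C, hC, -⟩ := hα
  obtain ⟨F, hF, happ⟩ := hf
  set μ := volume.restrict Ω with hμ
  have : IsFiniteMeasure μ := ⟨by
    rw [hμ, Measure.restrict_apply_univ]; exact hbΩ.measure_lt_top⟩
  have hp0 : p ≠ 0 := (zero_lt_one.trans_le hp).ne'
  -- bounds
  obtain ⟨R, hR⟩ := hbW.exists_norm_le
  have hCl : ∀ i l, ∀ y ∈ Λ, |pd l (fun z => α z i) y| ≤ |C| := by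
    intro i l y hy
    have hay : DifferentiableAt ℝ α y :=
      ((hαs y hy).contDiffAt (hΛ.mem_nhds hy)).differentiableAt (by simp)
    have h2 : HasFDerivAt (fun z => α z i) ((ContinuousLinearMap.proj i).comp (fderiv ℝ α y)) y :=
      hasFDerivAt_pi'.1 hay.hasFDerivAt i
    unfold pd
    rw [h2.fderiv, ContinuousLinearMap.comp_apply]
    have h3 : ‖fderiv ℝ α y (Pi.single l 1)‖ ≤ C := by
      refine ((fderiv ℝ α y).le_opNorm _).trans ?_
      have h4 : ‖(Pi.single l (1 : ℝ) : X n)‖ ≤ 1 := by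
        rw [pi_norm_le_iff_of_nonneg zero_le_one]
        intro i
        by_cases h : i = l
        · subst h; simp
        · simp [h]
      calc _ ≤ ‖fderiv ℝ α y‖ * 1 := by gcongr
        _ ≤ C := by rw [mul_one]; exact hC y hy
    exact ((norm_le_pi_norm _ i).trans h3).trans (le_abs_self C)
  -- the sequence
  have hpos : ∀ k : ℕ, (0 : ℝ) < 1 / (k + 1) := fun k => by positivity
  choose g hgD hgM hgP hgc hgd using fun k : ℕ => happ (1 / (k + 1)) (hpos k)
  have hto : Tendsto (fun k : ℕ => ENNReal.ofReal (1 / ((k : ℝ) + 1))) atTop (𝓝 0) := by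
    have := ENNReal.tendsto_ofReal (tendsto_one_div_add_atTop_nhds_zero_nat (𝕜 := ℝ))
    simpa using this
  have hgms : ∀ k, AEStronglyMeasurable (g k) μ := fun k => by
    refine AEMeasurable.aestronglyMeasurable ?_
    exact aemeasurable_pi_lambda _ fun i => (hgM k i).1.aemeasurable
  have hfms : AEStronglyMeasurable f μ := by
    refine AEMeasurable.aestronglyMeasurable ?_
    exact aemeasurable_pi_lambda _ fun i => (hF.1 i).1.aemeasurable
  have hmeas : TendstoInMeasure μ g atTop f := by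
    refine tendstoInMeasure_of_tendsto_eLpNorm hp0 hgms hfms ?_
    have hb : ∀ k, eLpNorm (g k - f) p μ ≤ ∑ _i : Fin n, ENNReal.ofReal (1 / ((k : ℝ) + 1)) := by
      intro k
      calc eLpNorm (g k - f) p μ ≤ eLpNorm (∑ i : Fin n, fun x => |g k x i - f x i|) p μ := by
            refine eLpNorm_mono_real fun x => ?_
            rw [Finset.sum_apply]
            rw [pi_norm_le_iff_of_nonneg (Finset.sum_nonneg fun i _ => abs_nonneg _)]
            intro i
            exact Finset.single_le_sum (f := fun i => |g k x i - f x i|)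
              (fun i _ => abs_nonneg _) (Finset.mem_univ i)
        _ ≤ ∑ i : Fin n, eLpNorm (fun x => |g k x i - f x i|) p μ := by
            refine eLpNorm_sum_le (fun i _ => ?_) hp
            exact (((hgM k i).1.sub (hF.1 i).1).norm)
        _ ≤ _ := by
            refine Finset.sum_le_sum fun i _ => ?_
            refine le_trans (le_of_eq ?_) (hgc k i)
            exact eLpNorm_norm (fun x => g k x i - f x i)
    have hz : Tendsto (fun k : ℕ => ∑ _i : Fin n, ENNReal.ofReal (1 / ((k : ℝ) + 1))) atTop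
        (𝓝 (∑ _i : Fin n, 0)) := tendsto_finsetSum _ fun i _ => hto
    rw [Finset.sum_const_zero] at hz
    exact tendsto_of_tendsto_of_tendsto_of_le_of_le tendsto_const_nhds hz
      (fun k => bot_le) hb
  obtain ⟨ns, hns, hae⟩ := hmeas.exists_seq_tendsto_ae
  have haeΩ : ∀ᵐ x ∂μ, x ∈ Ω := ae_restrict_mem hΩ.measurableSet
  have hto' : Tendsto (fun k : ℕ => ENNReal.ofReal (1 / ((ns k : ℝ) + 1))) atTop (𝓝 0) :=
    hto.comp hns.tendsto_atTop
  -- the derivative
  set H : X n → Fin n → Fin n → ℝ := fun x i j => ∑ l, pd l (fun z => α z i) (f x) * F x l j with hH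
  have hgO : ∀ k, ContDiffOn ℝ ∞ (g k) Ω := fun k => (hgD k).1
  have hgm : ∀ k, MapsTo (g k) Ω Λ := fun k => (hgD k).2.1
  have hαi : ∀ i, ContDiffOn ℝ ∞ (fun z => α z i) Λ := fun i => contDiffOn_pi.1 hαs i
  have hgl : ∀ k l, ContDiffOn ℝ ∞ (fun z => g k z l) Ω := fun k l => contDiffOn_pi.1 (hgO k) l
  -- measurability
  have hcm : ∀ (a : X n → ℝ), ContinuousOn a Λ → ∀ k, AEStronglyMeasurable (fun x => a (g k x)) μ :=
    fun a ha k => (ha.comp (hgO k).continuousOn (hgm k)).aestronglyMeasurable hΩ.measurableSet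
  have hlim : ∀ (a : X n → ℝ), ContinuousOn a Λ → ∀ᵐ x ∂μ,
      Tendsto (fun k => a (g (ns k) x)) atTop (𝓝 (a (f x))) := by
    intro a ha
    filter_upwards [hae, haeΩ] with x hx hxΩ
    exact ((ha.continuousAt (hΛ.mem_nhds (hfm hxΩ))).tendsto).comp hx
  have hfm' : ∀ (a : X n → ℝ), ContinuousOn a Λ → AEStronglyMeasurable (fun x => a (f x)) μ :=
    fun a ha => aestronglyMeasurable_of_tendsto_ae atTop (fun k => hcm a ha (ns k)) (hlim a ha)
  have hRb : ∀ i, ∀ y ∈ Λ, |α y i| ≤ R := fun i y hy =>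
    (norm_le_pi_norm (α y) i).trans (hR _ (hαm hy))
  have hMemf : ∀ i, MemLp (fun x => α (f x) i) p μ := by
    intro i
    refine MemLp.of_bound (hfm' _ (hαi i).continuousOn) R ?_
    filter_upwards [haeΩ] with x hx
    exact hRb i _ (hfm hx)
  have hMemg : ∀ k i, MemLp (fun x => α (g k x) i) p μ := by
    intro k i
    refine MemLp.of_bound (hcm _ (hαi i).continuousOn k) R ?_
    filter_upwards [haeΩ] with x hx
    exact hRb i _ (hgm k hx)
  have hprod : ∀ (b v : X n → ℝ), AEStronglyMeasurable b μ → (∀ᵐ x ∂μ, |b x| ≤ |C|) →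
      MemLp v p μ → MemLp (fun x => b x * v x) p μ := by
    intro b v hb hbb hv
    refine MemLp.of_le_mul (c := |C|) hv (hb.mul hv.1) ?_
    filter_upwards [hbb] with x hx
    rw [norm_mul]
    exact mul_le_mul_of_nonneg_right hx (norm_nonneg _)
  have hMemH : ∀ i j, MemLp (fun x => H x i j) p μ := by
    intro i j
    refine memLp_finsetSum _ fun l _ => ?_
    refine hprod _ _ (hfm' _ (cpd hΛ (hαi i) l)) ?_ (hF.2 l j).1
    filter_upwards [haeΩ] with x hx
    exact hCl i l _ (hfm hx)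
  -- derivative of the approximants
  have hae_pd : ∀ k i j, ∀ᵐ x ∂μ, pd j (fun y => α (g k y) i) x =
      ∑ l, pd l (fun z => α z i) (g k x) * pd j (fun y => g k y l) x := by
    intro k i j
    filter_upwards [haeΩ] with x hx
    exact chain hΩ hΛ (hgO k) (hgm k) (hαi i) j hx
  have hMemv : ∀ k i j, MemLp (fun x => ∑ l, pd l (fun z => α z i) (g k x) *
      pd j (fun y => g k y l) x) p μ := by
    intro k i j
    refine memLp_finsetSum _ fun l _ => ?_
    refine hprod _ _ (hcm _ (cpd hΛ (hαi i) l) k) ?_ (hgP k l j)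
    filter_upwards [haeΩ] with x hx
    exact hCl i l _ (hgm k hx)
  have hMempd : ∀ k i j, MemLp (pd j (fun y => α (g k y) i)) p μ := fun k i j =>
    (memLp_congr_ae (hae_pd k i j)).2 (hMemv k i j)
  -- convergence of the functions
  have hconv1 : ∀ i, Tendsto (fun k => eLpNorm (fun x => α (g (ns k) x) i - α (f x) i) p μ) atTop
      (𝓝 0) := by
    intro i
    refine dom hp hp' (G := fun _ => 2 * R) (memLp_const _)
      (fun k => (hMemg (ns k) i).1.sub (hMemf i).1) (fun k => ?_) ?_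
    · filter_upwards [haeΩ] with x hx
      have h1 := hRb i _ (hgm (ns k) hx)
      have h2 := hRb i _ (hfm hx)
      calc |α (g (ns k) x) i - α (f x) i| ≤ |α (g (ns k) x) i| + |α (f x) i| := abs_sub _ _
        _ ≤ 2 * R := by linarith
    · filter_upwards [hlim _ (hαi i).continuousOn] with x hx
      have := hx.sub_const (α (f x) i)
      simpa using this
  -- convergence of the derivatives
  have hconv2 : ∀ i j, Tendsto (fun k => eLpNorm (fun x => pd j (fun y => α (g (ns k) y) i) x -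
      H x i j) p μ) atTop (𝓝 0) := by
    intro i j
    have hb : ∀ k, eLpNorm (fun x => pd j (fun y => α (g (ns k) y) i) x - H x i j) p μ ≤
        ∑ l, (ENNReal.ofReal |C| * ENNReal.ofReal (1 / ((ns k : ℝ) + 1)) +
          eLpNorm (fun x => (pd l (fun z => α z i) (g (ns k) x) -
            pd l (fun z => α z i) (f x)) * F x l j) p μ) := by
      intro k
      have e1 : eLpNorm (fun x => pd j (fun y => α (g (ns k) y) i) x - H x i j) p μ =
          eLpNorm (∑ l, ((fun x => pd l (fun z => α z i) (g (ns k) x) *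
            (pd j (fun y => g (ns k) y l) x - F x l j)) +
            fun x => (pd l (fun z => α z i) (g (ns k) x) -
            pd l (fun z => α z i) (f x)) * F x l j)) p μ := by
        refine eLpNorm_congr_ae ?_
        filter_upwards [hae_pd (ns k) i j] with x hx
        rw [hx, Finset.sum_apply, hH, ← Finset.sum_sub_distrib]
        refine Finset.sum_congr rfl fun l _ => ?_
        simp only [Pi.add_apply]
        ring
      rw [e1]
      have hA : ∀ l, AEStronglyMeasurable (fun x => pd l (fun z => α z i) (g (ns k) x) *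
            (pd j (fun y => g (ns k) y l) x - F x l j)) μ := fun l =>
        (hcm _ (cpd hΛ (hαi i) l) _).mul ((hgP (ns k) l j).1.sub (hF.2 l j).1.1)
      have hB : ∀ l, AEStronglyMeasurable (fun x => (pd l (fun z => α z i) (g (ns k) x) -
            pd l (fun z => α z i) (f x)) * F x l j) μ := fun l =>
        ((hcm _ (cpd hΛ (hαi i) l) _).sub
          (hfm' _ (cpd hΛ (hαi i) l))).mul (hF.2 l j).1.1
      refine (eLpNorm_sum_le (fun l _ => (hA l).add (hB l)) hp).trans ?_
      refine Finset.sum_le_sum fun l _ => ?_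
      refine (eLpNorm_add_le (hA l) (hB l) hp).trans ?_
      gcongr
      have h1 : ∀ᵐ x ∂μ, ‖pd l (fun z => α z i) (g (ns k) x) *
            (pd j (fun y => g (ns k) y l) x - F x l j)‖ ≤
            |C| * ‖pd j (fun y => g (ns k) y l) x - F x l j‖ := by
        filter_upwards [haeΩ] with x hx
        rw [norm_mul]
        exact mul_le_mul_of_nonneg_right (hCl i l _ (hgm _ hx)) (norm_nonneg _)
      refine (eLpNorm_le_mul_eLpNorm_of_ae_le_mul h1 p).trans ?_
      gcongr
      exact hgd (ns k) l j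
    have hz : Tendsto (fun k => ∑ l, (ENNReal.ofReal |C| * ENNReal.ofReal (1 / ((ns k : ℝ) + 1)) +
          eLpNorm (fun x => (pd l (fun z => α z i) (g (ns k) x) -
            pd l (fun z => α z i) (f x)) * F x l j) p μ)) atTop (𝓝 (∑ _l : Fin n, (0 + 0))) := by
      refine tendsto_finsetSum _ fun l _ => Tendsto.add ?_ ?_
      · have := ENNReal.Tendsto.const_mul (a := ENNReal.ofReal |C|) hto'
          (Or.inr ENNReal.ofReal_ne_top)
        simpa using this
      · refine dom hp hp' (G := fun x => (2 * |C|) * |F x l j|)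
          (((hF.2 l j).1.norm).const_mul _) (fun k => ?_) (fun k => ?_) ?_
        · exact ((hcm _ (cpd hΛ (hαi i) l) _).sub
            (hfm' _ (cpd hΛ (hαi i) l))).mul (hF.2 l j).1.1
        · filter_upwards [haeΩ] with x hx
          rw [abs_mul]
          refine mul_le_mul_of_nonneg_right ?_ (abs_nonneg _)
          have h1 := hCl i l _ (hgm (ns k) hx)
          have h2 := hCl i l _ (hfm hx)
          exact (abs_sub _ _).trans (by linarith)
        · filter_upwards [hlim _ (cpd hΛ (hαi i) l)] with x hx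
          have := (hx.sub_const (pd l (fun z => α z i) (f x))).mul_const (F x l j)
          simpa using this
    simp only [add_zero, Finset.sum_const_zero] at hz
    exact tendsto_of_tendsto_of_tendsto_of_le_of_le tendsto_const_nhds hz
      (fun k => bot_le) hb
  -- smoothness of the approximants
  have hsm : ∀ k i, ContDiffOn ℝ ∞ (fun y => α (g k y) i) Ω := fun k i =>
    (hαi i).comp (hgO k) (hgm k)
  refine ⟨H, ⟨hMemf, fun i j => ⟨hMemH i j, ?_⟩⟩, fun ε hε => ?_⟩
  · exact limit_weak hp hp' hΩ hbΩ j (hMemf i) (hMemH i j) (fun k => hMemg (ns k) i)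
      (fun k => hMempd (ns k) i j) (hconv1 i) (hconv2 i j)
      (fun k => classical_weak hΩ j (hsm (ns k) i))
  · have hε' : 0 < ENNReal.ofReal ε := ENNReal.ofReal_pos.2 hε
    have ev1 : ∀ᶠ k in atTop, ∀ i, eLpNorm (fun x => α (g (ns k) x) i - α (f x) i) p μ ≤
        ENNReal.ofReal ε := eventually_all.2 fun i => (hconv1 i).eventually_le_const hε'
    have ev2 : ∀ᶠ k in atTop, ∀ i j, eLpNorm (fun x => pd j (fun y => α (g (ns k) y) i) x -
      H x i j) p μ ≤ ENNReal.ofReal ε :=
      eventually_all.2 fun i => eventually_all.2 fun j => (hconv2 i j).eventually_le_const hε'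
    obtain ⟨k, hk1, hk2⟩ := (ev1.and ev2).exists
    refine ⟨fun x => α (g (ns k) x), ⟨?_, ?_, ?_⟩, fun i => hMemg _ i, fun i j => hMempd _ i j,
      hk1, hk2⟩
    · exact hαs.comp (hgO _) (hgm _)
    · exact fun x hx => hαm (hgm _ hx)
    · obtain ⟨-, -, kg, hks, hkm, hk3, hk4⟩ := hgD (ns k)
      refine ⟨fun y => kg (kα y), hks.comp hkαs hkαm, fun y hy => hkm (hkαm hy), ?_, ?_⟩
      · intro x hx
        simp only
        rw [hkα1 _ (hgm _ hx), hk3 x hx]
      · intro y hy
        simp only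
        rw [hk4 _ (hkαm hy), hkα2 y hy]

end Vale.Agent.P073
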