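import Vale.Agent.P073.ChgR
import Vale.Agent.P073.ClW
import Vale.Agent.P073.LimW

/-!
# Composition with a smooth change of coordinates on the right (problem P073)
-/

open MeasureTheory Set Filter Topology
open scoped ContDiff ENNReal

namespace Vale.Agent.P073

namespace CompR

/-- Composition of a smooth change of coordinates and a diffeomorphism. -/
lemma diffeo_comp {n : ℕ} {U Ω Λ : Set (X n)} {β g : X n → X n} (hβ : NiceDiffeo β U Ω)
    (hg : IsDiffeo g Ω Λ) : IsDiffeo (fun x => g (β x)) U Λ := by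
  obtain ⟨b1, b2, k, b3, b4, b5, b6, _⟩ := hβ
  obtain ⟨g1, g2, l, g3, g4, g5, g6⟩ := hg
  refine ⟨g1.comp b1 b2, fun x hx => g2 (b2 hx), fun y => k (l y), b3.comp g3 g4,
    fun y hy => b4 (g4 hy), fun x hx => ?_, fun y hy => ?_⟩
  · show k (l (g (β x))) = x
    rw [g5 _ (b2 hx), b5 x hx]
  · show g (β (k (l y))) = y
    rw [b6 _ (g4 hy), g6 y hy]

/-- Chain rule for partial derivatives. -/
lemma chain {n : ℕ} {U Ω : Set (X n)} (hU : IsOpen U) (hΩ : IsOpen Ω) {β : X n → X n}
    (hβ : ContDiffOn ℝ ∞ β U) (hm : MapsTo β U Ω) {w : X n → ℝ} (hw : ContDiffOn ℝ ∞ w Ω)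
    (j : Fin n) {x : X n} (hx : x ∈ U) :
    pd j (fun x => w (β x)) x =
      ∑ l, pd l w (β x) * (fderiv ℝ β x (Pi.single j 1) l) := by
  have h1 : DifferentiableAt ℝ β x :=
    (hβ.differentiableOn (by simp)).differentiableAt (hU.mem_nhds hx)
  have h2 : DifferentiableAt ℝ w (β x) :=
    (hw.differentiableOn (by simp)).differentiableAt (hΩ.mem_nhds (hm hx))
  have h3 : fderiv ℝ (fun x => w (β x)) x = (fderiv ℝ w (β x)).comp (fderiv ℝ β x) :=
    fderiv_comp x h2 h1
  unfold pd
  rw [h3, ContinuousLinearMap.comp_apply]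
  set q : X n := fderiv ℝ β x (Pi.single j 1) with hq
  have h4 : q = ∑ l, q l • (Pi.single l 1 : X n) := by
    funext i
    simp [Finset.sum_apply, Pi.single_apply]
  conv_lhs => rw [h4]
  rw [map_sum]
  refine Finset.sum_congr rfl fun l _ => ?_
  rw [map_smul, smul_eq_mul, mul_comm]

/-- Entries of the derivative matrix of `β`: bounded and measurable. -/
lemma mul_entry {n : ℕ} {p : ℝ≥0∞} {U : Set (X n)} (hU : IsOpen U) {β : X n → X n}
    (hβ : ContDiffOn ℝ ∞ β U) {C : ℝ} (hC : ∀ x ∈ U, ‖fderiv ℝ β x‖ ≤ C) (j l : Fin n)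
    {v : X n → ℝ} (hv : MemLp v p (volume.restrict U)) :
    MemLp (fun x => v x * (fderiv ℝ β x (Pi.single j 1) l)) p (volume.restrict U) ∧
      eLpNorm (fun x => v x * (fderiv ℝ β x (Pi.single j 1) l)) p (volume.restrict U) ≤
        ENNReal.ofReal (max C 0) * eLpNorm v p (volume.restrict U) := by
  have hc : ContinuousOn (fun x => fderiv ℝ β x (Pi.single j 1) l) U := by
    have h1 : ContinuousOn (fderiv ℝ β) U := hβ.continuousOn_fderiv_of_isOpen hU (by simp)
    have h2 : ContinuousOn (fun x => fderiv ℝ β x (Pi.single j 1)) U :=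
      h1.clm_apply continuousOn_const
    exact (continuous_apply l).comp_continuousOn h2
  have hms : AEStronglyMeasurable (fun x => fderiv ℝ β x (Pi.single j 1) l)
      (volume.restrict U) := hc.aestronglyMeasurable hU.measurableSet
  have hbd : ∀ᵐ x ∂(volume.restrict U),
      ‖v x * (fderiv ℝ β x (Pi.single j 1) l)‖ ≤ max C 0 * ‖v x‖ := by
    filter_upwards [ae_restrict_mem hU.measurableSet] with x hx
    rw [norm_mul, mul_comm]
    refine mul_le_mul_of_nonneg_right ?_ (norm_nonneg _)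
    exact ((ChgR.entry_le (fderiv ℝ β x) l j).trans (hC x hx)).trans (le_max_left _ _)
  refine ⟨hv.of_le_mul (hv.1.mul hms) hbd, ?_⟩
  have h5 := eLpNorm_le_mul_eLpNorm_of_ae_le_mul hbd p
  exact h5

end CompR

open CompR

/-- ROW COMPR. -/
theorem comp_right {n : ℕ} {p : ℝ≥0∞} (hp : 1 ≤ p) (hp' : p ≠ ⊤) {U Ω Λ : Set (X n)}
    (hU : IsOpen U) (hbU : Bornology.IsBounded U) (hΩ : IsOpen Ω)
    (hbΩ : Bornology.IsBounded Ω) {β : X n → X n} (hβ : NiceDiffeo β U Ω)
    {f : X n → X n} (hf : Approximable p f Ω Λ) :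
    Approximable p (fun x => f (β x)) U Λ := by
  obtain ⟨F, hF, happ⟩ := hf
  obtain ⟨D, hD0, hD⟩ := ChgR.chg hp hp' hU hΩ hβ
  have hβ' := hβ
  obtain ⟨b1, b2, k, b3, b4, b5, b6, C, hC1, hC2⟩ := hβ'
  set C' : ℝ := max C 0 with hC'
  have hC'0 : 0 ≤ C' := le_max_right _ _
  set G : X n → Fin n → Fin n → ℝ := fun x i j =>
    ∑ l, F (β x) i l * (fderiv ℝ β x (Pi.single j 1) l) with hG
  -- approximation estimate for one approximant
  have key : ∀ ε : ℝ, 0 < ε → ∃ g : X n → X n, IsDiffeo g U Λ ∧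
      (∀ i, MemLp (fun x => g x i) p (volume.restrict U)) ∧
      (∀ i j, MemLp (pd j (fun x => g x i)) p (volume.restrict U)) ∧
      (∀ i, eLpNorm (fun x => g x i - f (β x) i) p (volume.restrict U) ≤ ENNReal.ofReal ε) ∧
      ∀ i j, eLpNorm (fun x => pd j (fun x => g x i) x - G x i j) p (volume.restrict U)
        ≤ ENNReal.ofReal ε := by
    intro ε hε
    set K : ℝ := (n : ℝ) * (C' * D) + D + 1 with hK
    have hK0 : 0 < K := by positivity
    obtain ⟨g, g1, g2, g3, g4, g5⟩ := happ (ε / K) (by positivity)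
    have hgs : ∀ i, ContDiffOn ℝ ∞ (fun y => g y i) Ω := fun i =>
      (contDiff_apply ℝ ℝ i).comp_contDiffOn g1.1
    refine ⟨fun x => g (β x), diffeo_comp hβ g1, fun i => (hD _ (g2 i)).1, fun i j => ?_,
      fun i => ?_, fun i j => ?_⟩
    · have h1 : MemLp (fun x => ∑ l, pd l (fun y => g y i) (β x) *
          (fderiv ℝ β x (Pi.single j 1) l)) p (volume.restrict U) :=
        memLp_finsetSum _ fun l _ => (mul_entry hU b1 hC1 j l (hD _ (g3 i l)).1).1
      refine h1.ae_eq ?_
      filter_upwards [ae_restrict_mem hU.measurableSet] with x hx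
      exact (chain hU hΩ b1 b2 (hgs i) j hx).symm
    · have h1 : MemLp (fun y => g y i - f y i) p (volume.restrict Ω) := (g2 i).sub (hF.1 i)
      refine (hD _ h1).2.trans ?_
      refine (mul_le_mul_right (g4 i) _).trans ?_
      rw [← ENNReal.ofReal_mul hD0]
      refine ENNReal.ofReal_le_ofReal ?_
      rw [mul_div_assoc', div_le_iff₀ hK0, mul_comm]
      refine mul_le_mul_of_nonneg_left ?_ hε.le
      rw [hK]
      have : 0 ≤ (n : ℝ) * (C' * D) := by positivity
      linarith
    · have h2 : ∀ l, MemLp (fun y => pd l (fun y => g y i) y - F y i l) p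
          (volume.restrict Ω) := fun l => (g3 i l).sub (hF.2 i l).1
      have h3 : (fun x => pd j (fun x => g (β x) i) x - G x i j) =ᵐ[volume.restrict U]
          fun x => ∑ l, (pd l (fun y => g y i) (β x) - F (β x) i l) *
            (fderiv ℝ β x (Pi.single j 1) l) := by
        filter_upwards [ae_restrict_mem hU.measurableSet] with x hx
        rw [chain hU hΩ b1 b2 (hgs i) j hx, hG, ← Finset.sum_sub_distrib]
        refine Finset.sum_congr rfl fun l _ => ?_
        ring
      rw [eLpNorm_congr_ae h3]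
      have h4 : eLpNorm (fun x => ∑ l, (pd l (fun y => g y i) (β x) - F (β x) i l) *
            (fderiv ℝ β x (Pi.single j 1) l)) p (volume.restrict U) ≤
          ∑ l : Fin n, eLpNorm (fun x => (pd l (fun y => g y i) (β x) - F (β x) i l) *
            (fderiv ℝ β x (Pi.single j 1) l)) p (volume.restrict U) := by
        have h5 := eLpNorm_sum_le (s := Finset.univ) (p := p) (μ := volume.restrict U)
          (f := fun l : Fin n => fun x => (pd l (fun y => g y i) (β x) - F (β x) i l) *
            (fderiv ℝ β x (Pi.single j 1) l))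
          (fun l _ => (mul_entry hU b1 hC1 j l (hD _ (h2 l)).1).1.1) hp
        refine le_trans (le_of_eq ?_) h5
        congr 1
        funext x
        simp
      refine h4.trans ?_
      have h6 : ∀ l : Fin n, eLpNorm (fun x => (pd l (fun y => g y i) (β x) - F (β x) i l) *
            (fderiv ℝ β x (Pi.single j 1) l)) p (volume.restrict U) ≤
          ENNReal.ofReal (C' * D * (ε / K)) := by
        intro l
        refine (mul_entry hU b1 hC1 j l (hD _ (h2 l)).1).2.trans ?_
        rw [ENNReal.ofReal_mul (by positivity), ENNReal.ofReal_mul hC'0, mul_assoc]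
        gcongr
        refine (hD _ (h2 l)).2.trans ?_
        gcongr
        exact g5 i l
      refine (Finset.sum_le_sum fun l _ => h6 l).trans ?_
      rw [Finset.sum_const, Finset.card_univ, Fintype.card_fin, nsmul_eq_mul]
      have h7 : ((n : ℕ) : ℝ≥0∞) = ENNReal.ofReal (n : ℝ) := (ENNReal.ofReal_natCast n).symm
      rw [h7, ← ENNReal.ofReal_mul (Nat.cast_nonneg n)]
      refine ENNReal.ofReal_le_ofReal ?_
      have h8 : (n : ℝ) * (C' * D * (ε / K)) = (n : ℝ) * (C' * D) * ε / K := by ring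
      rw [h8, div_le_iff₀ hK0, mul_comm _ ε]
      refine mul_le_mul_of_nonneg_left ?_ hε.le
      rw [hK]
      linarith
  have hfm : ∀ i, MemLp (fun x => f (β x) i) p (volume.restrict U) := fun i =>
    (hD _ (hF.1 i)).1
  have hGm : ∀ i j, MemLp (fun x => G x i j) p (volume.restrict U) := fun i j =>
    memLp_finsetSum _ fun l _ => (mul_entry hU b1 hC1 j l (hD _ (hF.2 i l).1).1).1
  refine ⟨G, ⟨hfm, fun i j => ⟨hGm i j, ?_⟩⟩, key⟩
  choose g hg using fun m : ℕ => key (1 / ((m : ℝ) + 1)) (by positivity)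
  have hlim : Tendsto (fun m : ℕ => ENNReal.ofReal (1 / ((m : ℝ) + 1))) atTop (𝓝 0) := by
    have h1 := (ENNReal.continuous_ofReal.tendsto 0).comp
      (tendsto_one_div_add_atTop_nhds_zero_nat (𝕜 := ℝ))
    simpa [Function.comp_def] using h1
  refine limit_weak hp hp' hU hbU j (hfm i) (hGm i j) (fun m => (hg m).2.1 i)
    (fun m => (hg m).2.2.1 i j) ?_ ?_ (fun m => ?_)
  · exact tendsto_of_tendsto_of_tendsto_of_le_of_le tendsto_const_nhds hlim
      (fun _ => bot_le) fun m => (hg m).2.2.2.1 i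
  · exact tendsto_of_tendsto_of_tendsto_of_le_of_le tendsto_const_nhds hlim
      (fun _ => bot_le) fun m => (hg m).2.2.2.2 i j
  · exact classical_weak hU j ((contDiff_apply ℝ ℝ i).comp_contDiffOn (hg m).1.1)

end Vale.Agent.P073
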