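import Vale.Agent.P073.Main

open MeasureTheory Set Filter Topology
open scoped ContDiff ENNReal

namespace Vale.Agent.P073

theorem InW1p.congr {n : ℕ} {U : Set (X n)} (hU : MeasurableSet U) {p : ℝ≥0∞}
    {f f' : X n → X n} {F : X n → Fin n → Fin n → ℝ} (h : InW1p U p f F)
    (hf : ∀ x ∈ U, f' x = f x) : InW1p U p f' F := by
  refine ⟨fun i => (h.1 i).ae_eq ?_, fun i j => ⟨(h.2 i j).1, ?_⟩⟩
  · refine (ae_restrict_iff' hU).2 (Eventually.of_forall (fun y hy => ?_))
    simp only [hf y hy]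
  · exact (h.2 i j).2.congr hU (fun x hx => by rw [hf x hx]) (fun _ _ => rfl)

theorem Approximable.congr {n : ℕ} {U V : Set (X n)} (hU : MeasurableSet U) {p : ℝ≥0∞}
    {f f' : X n → X n} (h : Approximable p f U V)
    (hf : ∀ x ∈ U, f' x = f x) : Approximable p f' U V := by
  obtain ⟨F, hF, hA⟩ := h
  refine ⟨F, hF.congr hU hf, fun ε hε => ?_⟩
  obtain ⟨g, h1, h2, h3, h4, h5⟩ := hA ε hε
  refine ⟨g, h1, h2, h3, fun i => ?_, h5⟩
  have e : eLpNorm (fun x => g x i - f' x i) p (volume.restrict U)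
      = eLpNorm (fun x => g x i - f x i) p (volume.restrict U) := by
    refine eLpNorm_congr_ae ?_
    refine (ae_restrict_iff' hU).2 (Eventually.of_forall (fun y hy => ?_))
    simp only [hf y hy]
  rw [e]
  exact h4 i

end Vale.Agent.P073
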