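import Vale.Agent.P073.Defs

open MeasureTheory Set Filter Topology
open scoped ContDiff ENNReal

namespace Vale.Agent.P073

/-- A smooth change of coordinates of `U` onto `Ω` whose first derivatives, and those of its
inverse, are bounded. -/
def NiceDiffeo {n : ℕ} (β : X n → X n) (U Ω : Set (X n)) : Prop :=
  ContDiffOn ℝ ∞ β U ∧ MapsTo β U Ω ∧
    ∃ k : X n → X n, ContDiffOn ℝ ∞ k Ω ∧ MapsTo k Ω U ∧
      (∀ x ∈ U, k (β x) = x) ∧ (∀ y ∈ Ω, β (k y) = y) ∧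
      ∃ C : ℝ, (∀ x ∈ U, ‖fderiv ℝ β x‖ ≤ C) ∧ ∀ y ∈ Ω, ‖fderiv ℝ k y‖ ≤ C

/-- The open unit cube. -/
def cube (n : ℕ) : Set (X n) := {x | ∀ i, 0 < x i ∧ x i < 1}

/-- `f` is triangular on the cube: the `i`-th component depends on the first `i` coordinates. -/
def Triangular {n : ℕ} (f : X n → X n) : Prop :=
  ∀ x ∈ cube n, ∀ y ∈ cube n, ∀ i, (∀ j ≤ i, x j = y j) → f x i = f y i

end Vale.Agent.P073
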