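import Vale.Agent.P073.Main
import Vale.Agent.P073.Base
import Vale.Agent.P073.BaseW
import Vale.Agent.P073.Defs2

open MeasureTheory Set Filter Topology
open scoped ContDiff ENNReal

namespace Vale.Agent.P073

theorem cube_succ (n : ℕ) : cube (n + 1) = Cyl (cube n) := by
  ext y
  constructor
  · intro h
    exact ⟨fun i => h i.castSucc, h (Fin.last n)⟩
  · intro h i
    refine Fin.lastCases ?_ (fun i => ?_) i
    · exact h.2
    · exact h.1 i

theorem isOpen_cube (n : ℕ) : IsOpen (cube n) := by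
  have : cube n = Set.pi univ (fun _ => Ioo (0 : ℝ) 1) := by
    ext x; simp [cube]
  rw [this]
  exact isOpen_set_pi finite_univ (fun _ _ => isOpen_Ioo)

theorem isPreconnected_cube (n : ℕ) : IsPreconnected (cube n) := by
  have : cube n = Set.pi univ (fun _ => Ioo (0 : ℝ) 1) := by
    ext x; simp [cube]
  rw [this]
  exact isPreconnected_univ_pi (fun _ => isPreconnected_Ioo)

theorem isBounded_cube (n : ℕ) : Bornology.IsBounded (cube n) := by
  refine (Metric.isBounded_iff_subset_closedBall (0 : X n)).2 ⟨1, fun y hy => ?_⟩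
  rw [mem_closedBall_zero_iff]
  refine (pi_norm_le_iff_of_nonneg zero_le_one).2 (fun i => ?_)
  rw [Real.norm_eq_abs, abs_le]
  exact ⟨by linarith [(hy i).1], (hy i).2.le⟩

/-- Fibre-preserving form: the base map is automatically a `W^{1,p}` homeomorphism. -/
theorem fibre_of_base {n : ℕ} (p : ℝ≥0∞) (hp : 1 ≤ p) (hp' : p ≠ ⊤) {Ω Λ : Set (X n)}
    (hΩ : IsOpen Ω) (hbΩ : Bornology.IsBounded Ω) (hcΩ : IsPreconnected Ω)
    (hΛ : IsOpen Λ)
    (hbase : ∀ φ : X n → X n, IsW1pHomeo p φ Ω Λ → Approximable p φ Ω Λ)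
    {f : X (n + 1) → X (n + 1)} (hf : IsW1pHomeo p f (Cyl Ω) (Cyl Λ))
    (hfib : ∀ y ∈ Cyl Ω, ∀ y' ∈ Cyl Ω, ini y = ini y' → ini (f y) = ini (f y')) :
    Approximable p f (Cyl Ω) (Cyl Λ) := by
  have h12 : (0 : ℝ) < 1 / 2 ∧ (1 / 2 : ℝ) < 1 := by norm_num
  set φ : X n → X n := fun x => ini (f (jn x (1 / 2))) with hφ
  have hm : ∀ y ∈ Cyl Ω, jn (ini y) (1 / 2) ∈ Cyl Ω := fun y hy => by
    refine ⟨by rw [ini_jn]; exact hy.1, ?_, ?_⟩
    · rw [last_jn]; exact h12.1
    · rw [last_jn]; exact h12.2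
  have hfib' : ∀ y ∈ Cyl Ω, ini (f y) = φ (ini y) := fun y hy =>
    hfib y hy _ (hm y hy) (by rw [ini_jn])
  have h1 : IsHomeo φ Ω Λ := base_homeo hΩ hΛ hf.1 hfib'
  obtain ⟨F, hF⟩ := hf.2
  have h2 : ∃ G, InW1p Ω p φ G := base_W1p hΩ hbΩ p hp hp' hF hfib'
  exact main p hp hp' hΩ hbΩ hcΩ hΛ h1 (hbase φ ⟨h1, h2⟩) hf hfib'

theorem zero_dim (p : ℝ≥0∞) (f : X 0 → X 0) (hf : IsW1pHomeo p f (cube 0) (cube 0)) :
    Approximable p f (cube 0) (cube 0) := by
  obtain ⟨_, F, hF⟩ := hf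
  refine ⟨F, hF, fun ε hε => ⟨fun x => x, ⟨contDiffOn_id, fun x hx => hx,
    fun x => x, contDiffOn_id, fun x hx => hx, fun _ _ => rfl, fun _ _ => rfl⟩, ?_⟩⟩
  exact ⟨fun i => i.elim0, fun i => i.elim0, fun i => i.elim0, fun i => i.elim0⟩

theorem triangular {n : ℕ} (p : ℝ≥0∞) (hp : 1 ≤ p) (hp' : p ≠ ⊤) :
    ∀ f : X n → X n, IsW1pHomeo p f (cube n) (cube n) → Triangular f →
      Approximable p f (cube n) (cube n) := by
  induction n with
  | zero => intro f hf _; exact zero_dim p f hf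
  | succ n ih =>
    intro f hf htri
    have h12 : (0 : ℝ) < 1 / 2 ∧ (1 / 2 : ℝ) < 1 := by norm_num
    have hcs := cube_succ n
    have hfib : ∀ y ∈ Cyl (cube n), ∀ y' ∈ Cyl (cube n), ini y = ini y' →
        ini (f y) = ini (f y') := by
      intro y hy y' hy' h
      funext i
      refine htri y (hcs ▸ hy) y' (hcs ▸ hy') i.castSucc (fun j hj => ?_)
      have hjl : j ≠ Fin.last n := by
        rintro rfl
        exact absurd hj (not_le.2 (Fin.castSucc_lt_last i))
      obtain ⟨j', rfl⟩ := Fin.exists_castSucc_eq.2 hjl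
      exact congrFun h j'
    set φ : X n → X n := fun x => ini (f (jn x (1 / 2))) with hφ
    have hmx : ∀ x ∈ cube n, jn x (1 / 2) ∈ Cyl (cube n) := fun x hx => by
      refine ⟨by rw [ini_jn]; exact hx, ?_, ?_⟩
      · rw [last_jn]; exact h12.1
      · rw [last_jn]; exact h12.2
    have hfib' : ∀ y ∈ Cyl (cube n), ini (f y) = φ (ini y) := fun y hy =>
      hfib y hy _ (hmx _ hy.1) (by rw [ini_jn])
    rw [hcs] at hf ⊢
    have h1 : IsHomeo φ (cube n) (cube n) :=
      base_homeo (isOpen_cube n) (isOpen_cube n) hf.1 hfib'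
    obtain ⟨F, hF⟩ := hf.2
    have h2 : ∃ G, InW1p (cube n) p φ G :=
      base_W1p (isOpen_cube n) (isBounded_cube n) p hp hp' hF hfib'
    have htri' : Triangular φ := by
      intro x hx y hy i hi
      refine htri _ (hcs ▸ hmx x hx) _ (hcs ▸ hmx y hy) i.castSucc (fun j hj => ?_)
      have hjl : j ≠ Fin.last n := by
        rintro rfl
        exact absurd hj (not_le.2 (Fin.castSucc_lt_last i))
      obtain ⟨j', rfl⟩ := Fin.exists_castSucc_eq.2 hjl
      rw [castSucc_jn, castSucc_jn]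
      exact hi j' (by simpa using hj)
    exact main p hp hp' (isOpen_cube n) (isBounded_cube n) (isPreconnected_cube n)
      (isOpen_cube n) h1 (ih φ ⟨h1, h2⟩ htri') hf hfib'

end Vale.Agent.P073
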