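import Mathlib

open MeasureTheory Set Filter Topology
open scoped ContDiff ENNReal

/-!
Sobolev homeomorphisms and diffeomorphic approximation (problem P073).
-/

namespace Vale.Agent.P073

/-- Euclidean space of dimension `n` (coordinates; Lebesgue measure `volume`). -/
abbrev X (n : ℕ) : Type := Fin n → ℝ

/-- Classical partial derivative. -/
noncomputable def pd {n : ℕ} (j : Fin n) (g : X n → ℝ) (x : X n) : ℝ :=
  fderiv ℝ g x (Pi.single j 1)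

/-- `v` is the weak partial derivative of `u` in the direction `j` on `Ω`. -/
def IsWeakPartial {n : ℕ} (Ω : Set (X n)) (j : Fin n) (u v : X n → ℝ) : Prop :=
  ∀ ψ : X n → ℝ, ContDiff ℝ ∞ ψ → HasCompactSupport ψ → tsupport ψ ⊆ Ω →
    ∫ x in Ω, u x * pd j ψ x = - ∫ x in Ω, v x * ψ x

/-- `f` lies in `W^{1,p}(Ω)`, with weak derivative matrix `F`. -/
def InW1p {n : ℕ} (Ω : Set (X n)) (p : ℝ≥0∞) (f : X n → X n)
    (F : X n → Fin n → Fin n → ℝ) : Prop :=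
  (∀ i, MemLp (fun x => f x i) p (volume.restrict Ω)) ∧
  ∀ i j, MemLp (fun x => F x i j) p (volume.restrict Ω) ∧
    IsWeakPartial Ω j (fun x => f x i) (fun x => F x i j)

/-- `f` is a homeomorphism of `Ω` onto `Λ`. -/
def IsHomeo {n : ℕ} (f : X n → X n) (Ω Λ : Set (X n)) : Prop :=
  ContinuousOn f Ω ∧ MapsTo f Ω Λ ∧
    ∃ k : X n → X n, ContinuousOn k Λ ∧ MapsTo k Λ Ω ∧
      (∀ x ∈ Ω, k (f x) = x) ∧ ∀ y ∈ Λ, f (k y) = y

/-- `f` is a smooth diffeomorphism of `Ω` onto `Λ`. -/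
def IsDiffeo {n : ℕ} (f : X n → X n) (Ω Λ : Set (X n)) : Prop :=
  ContDiffOn ℝ ∞ f Ω ∧ MapsTo f Ω Λ ∧
    ∃ k : X n → X n, ContDiffOn ℝ ∞ k Λ ∧ MapsTo k Λ Ω ∧
      (∀ x ∈ Ω, k (f x) = x) ∧ ∀ y ∈ Λ, f (k y) = y

/-- `W^{1,p}` homeomorphism of `Ω` onto `Λ`. -/
def IsW1pHomeo {n : ℕ} (p : ℝ≥0∞) (f : X n → X n) (Ω Λ : Set (X n)) : Prop :=
  IsHomeo f Ω Λ ∧ ∃ F, InW1p Ω p f F

/-- `f : Ω → Λ` is diffeomorphically approximable in `W^{1,p}`: there are smooth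
diffeomorphisms of `Ω` onto the same `Λ`, lying in `W^{1,p}`, arbitrarily close to `f` in
`W^{1,p}(Ω)`. -/
def Approximable {n : ℕ} (p : ℝ≥0∞) (f : X n → X n) (Ω Λ : Set (X n)) : Prop :=
  ∃ F, InW1p Ω p f F ∧ ∀ ε : ℝ, 0 < ε → ∃ g : X n → X n, IsDiffeo g Ω Λ ∧
    (∀ i, MemLp (fun x => g x i) p (volume.restrict Ω)) ∧
    (∀ i j, MemLp (pd j (fun x => g x i)) p (volume.restrict Ω)) ∧
    (∀ i, eLpNorm (fun x => g x i - f x i) p (volume.restrict Ω) ≤ ENNReal.ofReal ε) ∧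
    ∀ i j, eLpNorm (fun x => pd j (fun x => g x i) x - F x i j) p (volume.restrict Ω)
      ≤ ENNReal.ofReal ε

/-- The first `n` coordinates. -/
def ini {n : ℕ} (y : X (n + 1)) : X n := fun i => y i.castSucc

/-- The point `(x, z)`. -/
def jn {n : ℕ} (x : X n) (z : ℝ) : X (n + 1) := Fin.snoc (α := fun _ => ℝ) x z

/-- The cylinder `Ω × (0, 1)`. -/
def Cyl {n : ℕ} (Ω : Set (X n)) : Set (X (n + 1)) :=
  {y | ini y ∈ Ω ∧ 0 < y (Fin.last n) ∧ y (Fin.last n) < 1}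

@[simp] lemma ini_jn {n : ℕ} (x : X n) (z : ℝ) : ini (jn x z) = x := by
  funext i; simp [ini, jn]

@[simp] lemma last_jn {n : ℕ} (x : X n) (z : ℝ) : jn x z (Fin.last n) = z := by
  simp [jn]

@[simp] lemma castSucc_jn {n : ℕ} (x : X n) (z : ℝ) (i : Fin n) : jn x z i.castSucc = x i := by
  simp [jn]

lemma jn_ini {n : ℕ} (y : X (n + 1)) : jn (ini y) (y (Fin.last n)) = y := by
  funext i
  refine Fin.lastCases ?_ (fun i => ?_) i
  · simp
  · simp [ini]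

lemma isOpen_Cyl {n : ℕ} {Ω : Set (X n)} (hΩ : IsOpen Ω) : IsOpen (Cyl Ω) := by
  have h1 : Continuous (ini : X (n + 1) → X n) := by unfold ini; fun_prop
  have h2 : Continuous (fun y : X (n + 1) => y (Fin.last n)) := by fun_prop
  exact (hΩ.preimage h1).inter ((isOpen_lt continuous_const h2).inter
    (isOpen_lt h2 continuous_const))

end Vale.Agent.P073
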