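import Vale.Agent.P073.Defs

open MeasureTheory Set Filter Topology
open scoped ContDiff ENNReal

namespace Vale.Agent.P073

/-- `f` moves the points of `U` only along the direction `e`, inside the maximal segments of
`U` parallel to `e`, and is increasing along them. -/
def SegmentPreserving {n : ℕ} (e : Fin n) (f : X n → X n) (U : Set (X n)) : Prop :=
  (∀ y ∈ U, ∀ i, i ≠ e → f y i = y i) ∧ (∀ y ∈ U, segment ℝ y (f y) ⊆ U) ∧
    ∀ x ∈ U, ∀ t : ℝ, 0 < t → (∀ s ∈ Icc 0 t, x + s • (Pi.single e 1 : X n) ∈ U) →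
      f x e < f (x + t • (Pi.single e 1 : X n)) e

end Vale.Agent.P073
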