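import Vale.Agent.P073.Defs

open MeasureTheory Set Filter Topology
open scoped ContDiff ENNReal

/-! P073, row DIR: the fibres of a fibre-preserving homeomorphism. -/

namespace Vale.Agent.P073

namespace Dir

theorem continuous_jn {n : ℕ} : Continuous (fun q : X n × ℝ => jn q.1 q.2) := by
  refine continuous_pi fun i => ?_
  refine Fin.lastCases ?_ (fun i => ?_) i
  · simp only [last_jn]
    fun_prop
  · simp only [castSucc_jn]
    fun_prop

theorem jn_mem {n : ℕ} {Ω : Set (X n)} {x : X n} (hx : x ∈ Ω) {z : ℝ} (hz : z ∈ Ioo (0 : ℝ) 1) :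
    jn x z ∈ Cyl Ω := by
  refine ⟨?_, ?_, ?_⟩
  · rw [ini_jn]; exact hx
  · rw [last_jn]; exact hz.1
  · rw [last_jn]; exact hz.2

end Dir

open Dir

/-- Row DIR (file Dir.lean): the fibres of a fibre-preserving homeomorphism. -/
theorem dir {n : ℕ} {Ω Λ : Set (X n)} (hΩ : IsOpen Ω) (hc : IsPreconnected Ω)
    {φ : X n → X n} (hφ : InjOn φ Ω) {f : X (n + 1) → X (n + 1)}
    (hf : IsHomeo f (Cyl Ω) (Cyl Λ)) (hfib : ∀ y ∈ Cyl Ω, ini (f y) = φ (ini y)) :
    (∀ x ∈ Ω, BijOn (fun z => f (jn x z) (Fin.last n)) (Ioo 0 1) (Ioo 0 1)) ∧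
    ((∀ x ∈ Ω, StrictMonoOn (fun z => f (jn x z) (Fin.last n)) (Ioo 0 1)) ∨
      ∀ x ∈ Ω, StrictAntiOn (fun z => f (jn x z) (Fin.last n)) (Ioo 0 1)) := by
  have _ := hΩ
  obtain ⟨hfc, hfm, k, hkc, hkm, hkf, hfk⟩ := hf
  have hval : ∀ x ∈ Ω, ∀ z ∈ Ioo (0 : ℝ) 1,
      f (jn x z) = jn (φ x) (f (jn x z) (Fin.last n)) := by
    intro x hx z hz
    have h1 := hfib _ (jn_mem hx hz)
    rw [ini_jn] at h1
    rw [← h1, jn_ini]
  have hmaps : ∀ x ∈ Ω, MapsTo (fun z => f (jn x z) (Fin.last n)) (Ioo 0 1) (Ioo 0 1) := by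
    intro x hx z hz
    have h1 := hfm (jn_mem hx hz)
    exact ⟨h1.2.1, h1.2.2⟩
  have hinj : ∀ x ∈ Ω, InjOn (fun z => f (jn x z) (Fin.last n)) (Ioo 0 1) := by
    intro x hx z hz z' hz' h
    have h' : f (jn x z) (Fin.last n) = f (jn x z') (Fin.last n) := h
    have h1 : f (jn x z) = f (jn x z') := by
      rw [hval x hx z hz, hval x hx z' hz', h']
    have h2 := congrArg k h1
    rw [hkf _ (jn_mem hx hz), hkf _ (jn_mem hx hz')] at h2
    have h3 := congrFun h2 (Fin.last n)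
    simpa using h3
  have hsurj : ∀ x ∈ Ω, SurjOn (fun z => f (jn x z) (Fin.last n)) (Ioo 0 1) (Ioo 0 1) := by
    intro x hx t ht
    have hΛ : φ x ∈ Λ := by
      have h1 := hfm (jn_mem hx (z := 1 / 2) ⟨by norm_num, by norm_num⟩)
      have h2 := h1.1
      rwa [hfib _ (jn_mem hx ⟨by norm_num, by norm_num⟩), ini_jn] at h2
    have hq : jn (φ x) t ∈ Cyl Λ := jn_mem hΛ ht
    have hk := hkm hq
    have h3 := hfk _ hq
    have h4 : φ (ini (k (jn (φ x) t))) = φ x := by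
      rw [← hfib _ hk, h3, ini_jn]
    have h5 : ini (k (jn (φ x) t)) = x := hφ hk.1 hx h4
    refine ⟨k (jn (φ x) t) (Fin.last n), ⟨hk.2.1, hk.2.2⟩, ?_⟩
    have h6 : jn x (k (jn (φ x) t) (Fin.last n)) = k (jn (φ x) t) := by
      have h7 := jn_ini (k (jn (φ x) t))
      rw [h5] at h7
      exact h7
    show f (jn x (k (jn (φ x) t) (Fin.last n))) (Fin.last n) = t
    rw [h6, h3, last_jn]
  have hcont : ∀ x ∈ Ω, ContinuousOn (fun z => f (jn x z) (Fin.last n)) (Ioo 0 1) := by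
    intro x hx
    have h1 : ContinuousOn (fun z => f (jn x z)) (Ioo 0 1) := by
      refine hfc.comp ?_ (fun z hz => jn_mem hx hz)
      exact (continuous_jn.comp (by fun_prop : Continuous fun z : ℝ => (x, z))).continuousOn
    exact (continuous_apply (Fin.last n)).comp_continuousOn h1
  have hmono : ∀ x ∈ Ω, StrictMonoOn (fun z => f (jn x z) (Fin.last n)) (Ioo 0 1) ∨
      StrictAntiOn (fun z => f (jn x z) (Fin.last n)) (Ioo 0 1) := by
    intro x hx
    exact ContinuousOn.strictMonoOn_of_injOn_Ioo zero_lt_one (hcont x hx) (hinj x hx)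
  refine ⟨fun x hx => ⟨hmaps x hx, hinj x hx, hsurj x hx⟩, ?_⟩
  -- the sign of the increment between `1/3` and `2/3` is constant
  have ha : (1 / 3 : ℝ) ∈ Ioo (0 : ℝ) 1 := ⟨by norm_num, by norm_num⟩
  have hb : (2 / 3 : ℝ) ∈ Ioo (0 : ℝ) 1 := ⟨by norm_num, by norm_num⟩
  have hab : (1 / 3 : ℝ) < 2 / 3 := by norm_num
  have hDc : ∀ z ∈ Ioo (0 : ℝ) 1, ContinuousOn (fun x => f (jn x z) (Fin.last n)) Ω := by
    intro z hz
    have h1 : ContinuousOn (fun x => f (jn x z)) Ω := by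
      refine hfc.comp ?_ (fun x hx => jn_mem hx hz)
      exact (continuous_jn.comp (by fun_prop : Continuous fun x : X n => (x, z))).continuousOn
    exact (continuous_apply (Fin.last n)).comp_continuousOn h1
  set D : X n → ℝ := fun x =>
    f (jn x (2 / 3)) (Fin.last n) - f (jn x (1 / 3)) (Fin.last n) with hD
  have hDcont : ContinuousOn D Ω := (hDc _ hb).sub (hDc _ ha)
  have hD0 : ∀ x ∈ Ω, D x ≠ 0 := by
    intro x hx h0
    have h1 : f (jn x (2 / 3)) (Fin.last n) = f (jn x (1 / 3)) (Fin.last n) := sub_eq_zero.mp h0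
    have h2 : (2 / 3 : ℝ) = 1 / 3 := hinj x hx hb ha h1
    norm_num at h2
  have hord : (D '' Ω).OrdConnected := isPreconnected_iff_ordConnected.mp (hc.image D hDcont)
  by_cases hpos : ∃ x ∈ Ω, 0 < D x
  · left
    obtain ⟨x₀, hx₀, hx₀'⟩ := hpos
    intro x hx
    have hDx : 0 < D x := by
      by_contra hneg
      have hneg' : D x ≤ 0 := not_lt.mp hneg
      have hmem : (0 : ℝ) ∈ D '' Ω :=
        hord.out (mem_image_of_mem D hx) (mem_image_of_mem D hx₀) ⟨hneg', hx₀'.le⟩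
      obtain ⟨y, hy, hy0⟩ := hmem
      exact hD0 y hy hy0
    rcases hmono x hx with h | h
    · exact h
    · exfalso
      have h1 : f (jn x (2 / 3)) (Fin.last n) < f (jn x (1 / 3)) (Fin.last n) := h ha hb hab
      have h2 : 0 < f (jn x (2 / 3)) (Fin.last n) - f (jn x (1 / 3)) (Fin.last n) := hDx
      linarith
  · right
    intro x hx
    rcases hmono x hx with h | h
    · exfalso
      apply hpos
      refine ⟨x, hx, ?_⟩
      have h1 : f (jn x (1 / 3)) (Fin.last n) < f (jn x (2 / 3)) (Fin.last n) := h ha hb hab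
      have h2 : 0 < f (jn x (2 / 3)) (Fin.last n) - f (jn x (1 / 3)) (Fin.last n) := by linarith
      exact h2
    · exact h

end Vale.Agent.P073
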