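import Vale.Agent.P073.Lin

open MeasureTheory Set Filter Topology
open scoped ContDiff ENNReal

namespace Vale.Agent.P073

/-- Reflection of the last coordinate. -/
def fl {n : ℕ} (y : X (n + 1)) : X (n + 1) := jn (ini y) (1 - y (Fin.last n))

@[simp] theorem ini_fl {n : ℕ} (y : X (n + 1)) : ini (fl y) = ini y := by simp [fl]

@[simp] theorem fl_last {n : ℕ} (y : X (n + 1)) : fl y (Fin.last n) = 1 - y (Fin.last n) := by
  simp [fl]

@[simp] theorem fl_castSucc {n : ℕ} (y : X (n + 1)) (i : Fin n) :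
    fl y i.castSucc = y i.castSucc := by simp [fl, ini]

theorem fl_fl {n : ℕ} (y : X (n + 1)) : fl (fl y) = y := by
  funext i
  refine Fin.lastCases ?_ (fun i => ?_) i
  · simp
  · simp

theorem fl_mem {n : ℕ} {Ω : Set (X n)} {y : X (n + 1)} (hy : y ∈ Cyl Ω) : fl y ∈ Cyl Ω := by
  refine ⟨by rw [ini_fl]; exact hy.1, ?_, ?_⟩
  · rw [fl_last]; linarith [hy.2.2]
  · rw [fl_last]; linarith [hy.2.1]

theorem fl_smooth {n : ℕ} : ContDiff ℝ ∞ (fl : X (n + 1) → X (n + 1)) := by
  rw [contDiff_pi]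
  intro i
  refine Fin.lastCases ?_ (fun i => ?_) i
  · simp only [fl_last]; fun_prop
  · simp only [fl_castSucc]; fun_prop

theorem one_sub_weak {N : ℕ} {U : Set (X N)} (hb : Bornology.IsBounded U)
    (p : ℝ≥0∞) (hp : 1 ≤ p) (j : Fin N) (u v : X N → ℝ)
    (hu : MemLp u p (volume.restrict U))
    (h : IsWeakPartial U j u v) :
    IsWeakPartial U j (fun x => 1 - u x) (fun x => - v x) := by
  intro ψ hψ hc hs
  have h1 := h ψ hψ hc hs
  have hi1 : Integrable (fun x => u x * pd j ψ x) (volume.restrict U) :=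
    Lin.mul_int hb hp hu (Lin.pd_cont hψ j) (Lin.pd_supp hc j)
  have hi4 : Integrable (pd j ψ) (volume : Measure (X N)) :=
    (Lin.pd_cont hψ j).integrable_of_hasCompactSupport (Lin.pd_supp hc j)
  have h0 : ∫ x in U, pd j ψ x = 0 := by
    have e1 : ∫ x in U, pd j ψ x = ∫ x, pd j ψ x := by
      apply setIntegral_eq_integral_of_forall_compl_eq_zero
      intro x hx
      rw [Lin.pd_zero j (fun h => hx (hs h))]
    rw [e1]
    have key := integral_mul_fderiv_eq_neg_fderiv_mul_of_integrable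
      (μ := (volume : Measure (X N)))
      (f := fun _ : X N => (1 : ℝ)) (g := ψ) (v := Pi.single j 1) ?_ ?_ ?_ ?_ ?_
    · simpa [pd] using key
    · simp
    · simp only [one_mul]; exact hi4
    · simpa using hψ.continuous.integrable_of_hasCompactSupport hc
    · intro x _; exact differentiableAt_const _
    · intro x _
      exact hψ.differentiable (by simp) x
  have e1 : ∫ x in U, (1 - u x) * pd j ψ x =
      (∫ x in U, pd j ψ x) - ∫ x in U, u x * pd j ψ x := by
    rw [← integral_sub hi4.restrict hi1]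
    congr 1
    funext x
    ring
  have e2 : ∫ x in U, (- v x) * ψ x = - ∫ x in U, v x * ψ x := by
    rw [← integral_neg]
    congr 1
    funext x
    ring
  rw [e1, e2, h0, h1]
  ring

/-- sign of the row `i`. -/
def sg {n : ℕ} (i : Fin (n + 1)) : ℝ := if i = Fin.last n then -1 else 1

theorem fl_W1p {n : ℕ} {U : Set (X (n + 1))} (hb : Bornology.IsBounded U)
    {p : ℝ≥0∞} (hp : 1 ≤ p) {f : X (n + 1) → X (n + 1)}
    {F : X (n + 1) → Fin (n + 1) → Fin (n + 1) → ℝ} (hF : InW1p U p f F) :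
    InW1p U p (fun y => fl (f y)) (fun y i j => sg i * F y i j) := by
  have hfin : IsFiniteMeasure (volume.restrict U) :=
    ⟨by rw [Measure.restrict_apply_univ]; exact hb.measure_lt_top⟩
  refine ⟨fun i => ?_, fun i j => ⟨(hF.2 i j).1.const_mul _, ?_⟩⟩
  · refine Fin.lastCases ?_ (fun i => ?_) i
    · simp only [fl_last]
      exact (memLp_const 1).sub (hF.1 _)
    · simp only [fl_castSucc]
      exact hF.1 _
  · refine Fin.lastCases ?_ (fun i => ?_) i
    · simp only [fl_last, sg, if_true, neg_mul, one_mul]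
      exact one_sub_weak hb p hp j _ _ (hF.1 _) (hF.2 _ j).2
    · simp only [fl_castSucc, sg, Fin.castSucc_ne_last, if_false, one_mul]
      exact (hF.2 _ j).2

theorem fl_homeo {n : ℕ} {Ω Λ : Set (X n)} {f : X (n + 1) → X (n + 1)}
    (hf : IsHomeo f (Cyl Ω) (Cyl Λ)) : IsHomeo (fun y => fl (f y)) (Cyl Ω) (Cyl Λ) := by
  obtain ⟨h1, h2, k, h3, h4, h5, h6⟩ := hf
  refine ⟨fl_smooth.continuous.comp_continuousOn h1, fun y hy => fl_mem (h2 hy),
    fun y => k (fl y), h3.comp fl_smooth.continuous.continuousOn (fun y hy => fl_mem hy),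
    fun y hy => h4 (fl_mem hy), fun y hy => ?_, fun y hy => ?_⟩
  · show k (fl (fl (f y))) = y
    rw [fl_fl]; exact h5 y hy
  · show fl (f (k (fl y))) = y
    rw [h6 _ (fl_mem hy), fl_fl]

theorem fl_diffeo {n : ℕ} {Ω Λ : Set (X n)} {f : X (n + 1) → X (n + 1)}
    (hf : IsDiffeo f (Cyl Ω) (Cyl Λ)) : IsDiffeo (fun y => fl (f y)) (Cyl Ω) (Cyl Λ) := by
  obtain ⟨h1, h2, k, h3, h4, h5, h6⟩ := hf
  refine ⟨fl_smooth.comp_contDiffOn h1, fun y hy => fl_mem (h2 hy),
    fun y => k (fl y), h3.comp fl_smooth.contDiffOn (fun y hy => fl_mem hy),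
    fun y hy => h4 (fl_mem hy), fun y hy => ?_, fun y hy => ?_⟩
  · show k (fl (fl (f y))) = y
    rw [fl_fl]; exact h5 y hy
  · show fl (f (k (fl y))) = y
    rw [h6 _ (fl_mem hy), fl_fl]

theorem pd_one_sub {N : ℕ} (j : Fin N) (g : X N → ℝ) (x : X N) :
    pd j (fun y => 1 - g y) x = - pd j g x := by
  unfold pd
  rw [fderiv_const_sub]
  rfl

theorem flip_app {n : ℕ} {p : ℝ≥0∞} (hp : 1 ≤ p) {Ω Λ : Set (X n)}
    (hb : Bornology.IsBounded (Cyl Ω)) {f : X (n + 1) → X (n + 1)}
    (h : Approximable p (fun y => fl (f y)) (Cyl Ω) (Cyl Λ)) :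
    Approximable p f (Cyl Ω) (Cyl Λ) := by
  have hfin : IsFiniteMeasure (volume.restrict (Cyl Ω)) :=
    ⟨by rw [Measure.restrict_apply_univ]; exact hb.measure_lt_top⟩
  obtain ⟨F, hF, hA⟩ := h
  have hF' := fl_W1p hb hp hF
  simp only [fl_fl] at hF'
  refine ⟨_, hF', fun ε hε => ?_⟩
  obtain ⟨g, h1, h2, h3, h4, h5⟩ := hA ε hε
  refine ⟨fun y => fl (g y), fl_diffeo h1, fun i => ?_, fun i j => ?_, fun i => ?_,
    fun i j => ?_⟩
  · refine Fin.lastCases ?_ (fun i => ?_) i
    · simp only [fl_last]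
      exact (memLp_const 1).sub (h2 _)
    · simp only [fl_castSucc]
      exact h2 _
  · refine Fin.lastCases ?_ (fun i => ?_) i
    · simp only [fl_last]
      have : pd j (fun y => 1 - g y (Fin.last n)) = fun y => - pd j (fun y => g y (Fin.last n)) y :=
        by funext y; exact pd_one_sub j _ y
      rw [this]
      exact (h3 _ j).neg
    · simp only [fl_castSucc]
      exact h3 _ j
  · refine Fin.lastCases ?_ (fun i => ?_) i
    · have h6 := h4 (Fin.last n)
      simp only [fl_last] at h6 ⊢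
      have e : (fun y => 1 - g y (Fin.last n) - f y (Fin.last n))
          = - fun y => g y (Fin.last n) - (1 - f y (Fin.last n)) := by
        funext y; simp only [Pi.neg_apply]; ring
      rw [e, eLpNorm_neg]
      exact h6
    · have h6 := h4 i.castSucc
      simp only [fl_castSucc] at h6 ⊢
      exact h6
  · refine Fin.lastCases ?_ (fun i => ?_) i
    · have h6 := h5 (Fin.last n) j
      simp only [fl_last, sg, if_true]
      have e : (fun y => pd j (fun y => 1 - g y (Fin.last n)) y - -1 * F y (Fin.last n) j)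
          = - fun y => pd j (fun y => g y (Fin.last n)) y - F y (Fin.last n) j := by
        funext y; simp only [Pi.neg_apply, pd_one_sub]; ring
      rw [e, eLpNorm_neg]
      exact h6
    · have h6 := h5 i.castSucc j
      simp only [fl_castSucc, sg, Fin.castSucc_ne_last, if_false, one_mul]
      exact h6

end Vale.Agent.P073
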