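import Vale.Agent.P073.Defs

open MeasureTheory Set Filter Topology
open scoped ContDiff ENNReal

namespace Vale.Agent.P073

namespace Fub

lemma continuous_ini {n : ℕ} : Continuous (ini : X (n + 1) → X n) := by
  unfold ini; fun_prop

lemma continuous_jn {n : ℕ} : Continuous (fun q : ℝ × X n => jn q.2 q.1) := by
  refine continuous_pi fun i => ?_
  refine Fin.lastCases ?_ (fun i => ?_) i
  · simp only [last_jn]; fun_prop
  · simp only [castSucc_jn]; fun_prop

/-- The coordinates `(z, x)`. -/
noncomputable def e (n : ℕ) : X (n + 1) ≃ᵐ ℝ × X n :=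
  MeasurableEquiv.piFinSuccAbove (fun _ => ℝ) (Fin.last n)

lemma e_apply {n : ℕ} (y : X (n + 1)) : e n y = (y (Fin.last n), ini y) := by
  refine Prod.ext rfl ?_
  funext i
  show y ((Fin.last n).succAbove i) = y i.castSucc
  rw [Fin.succAbove_last]

lemma e_pre {n : ℕ} {Ω : Set (X n)} : (e n) ⁻¹' (Ioo (0:ℝ) 1 ×ˢ Ω) = Cyl Ω := by
  ext y
  simp only [mem_preimage, e_apply, mem_prod, mem_Ioo, Cyl, mem_ofPred_eq]
  tauto

lemma e_mp {n : ℕ} {Ω : Set (X n)} (hΩ : MeasurableSet Ω) :
    MeasurePreserving (e n) (volume.restrict (Cyl Ω))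
      ((volume.restrict (Ioo (0:ℝ) 1)).prod (volume.restrict Ω)) := by
  have h : MeasurePreserving (e n) volume ((volume : Measure ℝ).prod (volume : Measure (X n))) :=
    volume_preserving_piFinSuccAbove (fun _ : Fin (n+1) => ℝ) (Fin.last n)
  have h2 := h.restrict_preimage (s := Ioo (0:ℝ) 1 ×ˢ Ω) (measurableSet_Ioo.prod hΩ)
  rw [e_pre] at h2
  rwa [Measure.prod_restrict]

lemma int_eq {n : ℕ} {Ω : Set (X n)} (hΩ : MeasurableSet Ω) (F : X (n + 1) → ℝ) :
    ∫ y in Cyl Ω, F y =
      ∫ q, F (jn q.2 q.1) ∂((volume.restrict (Ioo (0:ℝ) 1)).prod (volume.restrict Ω)) := by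
  rw [← (e_mp hΩ).integral_comp' (fun q : ℝ × X n => F (jn q.2 q.1))]
  refine integral_congr_ae (Eventually.of_forall fun y => ?_)
  simp only [e_apply, jn_ini]

/-- Products of an integrable function of `x` and a bounded continuous function. -/
lemma intg {n : ℕ} {Ω : Set (X n)} {u : X n → ℝ} (hu : Integrable u (volume.restrict Ω))
    {ψ : X (n + 1) → ℝ} (hψ : Continuous ψ) (hc : HasCompactSupport ψ) :
    Integrable (fun q : ℝ × X n => u q.2 * ψ (jn q.2 q.1))
      ((volume.restrict (Ioo (0:ℝ) 1)).prod (volume.restrict Ω)) := by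
  obtain ⟨C, hC⟩ := hc.exists_bound_of_continuous hψ
  have h1 : Integrable (fun q : ℝ × X n => u q.2)
      ((volume.restrict (Ioo (0:ℝ) 1)).prod (volume.restrict Ω)) :=
    hu.comp_snd _
  exact h1.mul_bdd (c := C) (hψ.comp continuous_jn).aestronglyMeasurable
    (Eventually.of_forall fun q => hC _)

lemma pd_cont {n : ℕ} (j : Fin n) {ψ : X n → ℝ} (hψ : ContDiff ℝ ∞ ψ) :
    Continuous (pd j ψ) := by
  have h := hψ.continuous_fderiv (by simp)
  unfold pd
  exact h.clm_apply continuous_const

lemma pd_supp {n : ℕ} (j : Fin n) {ψ : X n → ℝ} (hc : HasCompactSupport ψ) :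
    HasCompactSupport (pd j ψ) := by
  unfold pd
  exact hc.fderiv_apply (𝕜 := ℝ) _

lemma jn_hasFDerivAt_line {n : ℕ} (x : X n) (z : ℝ) :
    HasDerivAt (fun z => jn x z) (Pi.single (Fin.last n) 1) z := by
  rw [hasDerivAt_pi]
  intro i
  refine Fin.lastCases ?_ (fun i => ?_) i
  · simp only [last_jn, Pi.single_eq_same]
    exact hasDerivAt_id z
  · simp only [castSucc_jn]
    have h : (Pi.single (Fin.last n) (1:ℝ) : X (n+1)) i.castSucc = 0 := by
      rw [Pi.single_eq_of_ne (Fin.castSucc_lt_last i).ne]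
    rw [h]
    exact hasDerivAt_const z _

/-- The embedding of the slice as an affine map. -/
lemma slice_contDiff {n : ℕ} (z : ℝ) : ContDiff ℝ ∞ (fun x : X n => jn x z) := by
  rw [contDiff_pi]
  intro i
  refine Fin.lastCases ?_ (fun i => ?_) i
  · simp only [last_jn]; exact contDiff_const
  · simp only [castSucc_jn]; exact contDiff_apply ℝ ℝ i

lemma slice_fderiv {n : ℕ} (z : ℝ) (x : X n) (j : Fin n) :
    fderiv ℝ (fun x : X n => jn x z) x (Pi.single j 1) = Pi.single j.castSucc 1 := by
  have hd : DifferentiableAt ℝ (fun x : X n => jn x z) x :=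
    ((slice_contDiff z).differentiable (by simp)) x
  have hd' : ∀ i, DifferentiableAt ℝ (fun x : X n => jn x z i) x := by
    intro i
    exact differentiableAt_pi.1 hd i
  funext i
  have h1 : fderiv ℝ (fun x : X n => jn x z) x (Pi.single j 1) i
      = fderiv ℝ (fun x : X n => jn x z i) x (Pi.single j 1) := by
    rw [fderiv_pi hd']
    rfl
  rw [h1]
  refine Fin.lastCases ?_ (fun i => ?_) i
  · simp only [last_jn]
    rw [Pi.single_eq_of_ne (Fin.castSucc_lt_last j).ne']
    simp
  · simp only [castSucc_jn]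
    have h2 : fderiv ℝ (fun x : X n => x i) x = ContinuousLinearMap.proj i := by
      exact (ContinuousLinearMap.proj (R := ℝ) (φ := fun _ : Fin n => ℝ) i).hasFDerivAt.fderiv
    rw [h2]
    simp only [ContinuousLinearMap.proj_apply]
    by_cases hij : i = j
    · subst hij; simp
    · rw [Pi.single_eq_of_ne hij, Pi.single_eq_of_ne]
      intro h
      exact hij (Fin.castSucc_injective n h)

lemma slice_pd {n : ℕ} (z : ℝ) (x : X n) (j : Fin n) {ψ : X (n + 1) → ℝ}
    (hψ : ContDiff ℝ ∞ ψ) :
    pd j (fun x => ψ (jn x z)) x = pd j.castSucc ψ (jn x z) := by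
  unfold pd
  have h1 : DifferentiableAt ℝ ψ (jn x z) := (hψ.differentiable (by simp)) _
  have h2 : DifferentiableAt ℝ (fun x : X n => jn x z) x :=
    ((slice_contDiff z).differentiable (by simp)) x
  have h3 : fderiv ℝ (fun x => ψ (jn x z)) x
      = (fderiv ℝ ψ (jn x z)).comp (fderiv ℝ (fun x : X n => jn x z) x) :=
    fderiv_comp x h1 h2
  rw [h3, ContinuousLinearMap.comp_apply, slice_fderiv]

lemma slice_supp {n : ℕ} (z : ℝ) {ψ : X (n + 1) → ℝ} :
    tsupport (fun x : X n => ψ (jn x z)) ⊆ (fun x : X n => jn x z) ⁻¹' (tsupport ψ) := by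
  refine closure_minimal ?_ ((isClosed_tsupport ψ).preimage (slice_contDiff z).continuous)
  intro x hx
  exact subset_tsupport ψ hx

lemma slice_compact {n : ℕ} (z : ℝ) {ψ : X (n + 1) → ℝ} (hc : HasCompactSupport ψ) :
    HasCompactSupport (fun x : X n => ψ (jn x z)) := by
  have h1 : IsCompact (ini '' (tsupport ψ)) := (show IsCompact (tsupport ψ) from hc).image
    continuous_ini
  refine HasCompactSupport.intro h1 ?_
  intro x hx
  by_contra h
  apply hx
  exact ⟨jn x z, subset_tsupport ψ h, by simp⟩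

end Fub

open Fub

theorem fub1 {n : ℕ} {Ω : Set (X n)} (hΩ : MeasurableSet Ω) :
    MeasurePreserving (ini : X (n + 1) → X n) (volume.restrict (Cyl Ω))
      (volume.restrict Ω) := by
  have h := (e_mp hΩ)
  have h2 : MeasurePreserving (Prod.snd : ℝ × X n → X n)
      ((volume.restrict (Ioo (0:ℝ) 1)).prod (volume.restrict Ω)) (volume.restrict Ω) := by
    refine ⟨measurable_snd, ?_⟩
    rw [Measure.map_snd_prod]
    simp
  have h3 := h2.comp h
  have h4 : (Prod.snd ∘ (e n) : X (n + 1) → X n) = ini := by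
    funext y
    simp only [Function.comp_apply, e_apply]
  rwa [h4] at h3

theorem fub2 {n : ℕ} {Ω : Set (X n)} (hΩ : IsOpen Ω) (hb : Bornology.IsBounded Ω)
    (p : ℝ≥0∞) (hp : 1 ≤ p) (j : Fin n) (u v : X n → ℝ)
    (hu : MemLp u p (volume.restrict Ω)) (hv : MemLp v p (volume.restrict Ω))
    (h : IsWeakPartial Ω j u v) :
    IsWeakPartial (Cyl Ω) j.castSucc (fun y => u (ini y)) (fun y => v (ini y)) := by
  have : IsFiniteMeasure (volume.restrict Ω) := ⟨by
    rw [Measure.restrict_apply_univ]; exact hb.measure_lt_top⟩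
  have hu1 : Integrable u (volume.restrict Ω) := hu.integrable hp
  have hv1 : Integrable v (volume.restrict Ω) := hv.integrable hp
  intro ψ hψ hc hs
  have hm := hΩ.measurableSet
  rw [int_eq hm, int_eq hm]
  simp only [ini_jn]
  rw [integral_prod _ (intg hu1 (pd_cont _ hψ) (pd_supp _ hc)),
    integral_prod _ (intg hv1 hψ.continuous hc), ← integral_neg]
  refine setIntegral_congr_fun measurableSet_Ioo fun z hz => ?_
  have h1 := h (fun x => ψ (jn x z)) (hψ.comp (slice_contDiff z)) (slice_compact z hc)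
    (fun x hx => (hs (slice_supp z hx)).1 |> fun h => by simpa using h)
  simp only [slice_pd z _ j hψ] at h1
  exact h1

theorem fub3 {n : ℕ} {Ω : Set (X n)} (hΩ : IsOpen Ω) (hb : Bornology.IsBounded Ω)
    (p : ℝ≥0∞) (hp : 1 ≤ p) (u : X n → ℝ) (hu : MemLp u p (volume.restrict Ω)) :
    IsWeakPartial (Cyl Ω) (Fin.last n) (fun y => u (ini y)) (fun _ => 0) := by
  have : IsFiniteMeasure (volume.restrict Ω) := ⟨by
    rw [Measure.restrict_apply_univ]; exact hb.measure_lt_top⟩
  have hu1 : Integrable u (volume.restrict Ω) := hu.integrable hp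
  intro ψ hψ hc hs
  have hm := hΩ.measurableSet
  rw [int_eq hm]
  simp only [ini_jn, zero_mul, integral_zero, neg_zero]
  rw [integral_prod_symm _ (intg hu1 (pd_cont _ hψ) (pd_supp _ hc))]
  refine integral_eq_zero_of_ae (Eventually.of_forall fun x => ?_)
  simp only [Pi.zero_apply]
  rw [integral_const_mul]
  have h1 : ∫ z in Ioo (0:ℝ) 1, pd (Fin.last n) ψ (jn x z) = 0 := by
    rw [← integral_Ioc_eq_integral_Ioo, ← intervalIntegral.integral_of_le zero_le_one]
    have hd : ∀ z ∈ uIcc (0:ℝ) 1, HasDerivAt (fun z => ψ (jn x z))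
        (pd (Fin.last n) ψ (jn x z)) z := by
      intro z _
      have h2 : HasFDerivAt ψ (fderiv ℝ ψ (jn x z)) (jn x z) :=
        ((hψ.differentiable (by simp)) _).hasFDerivAt
      exact h2.comp_hasDerivAt z (jn_hasFDerivAt_line x z)
    have hcont : Continuous fun z => pd (Fin.last n) ψ (jn x z) :=
      (pd_cont _ hψ).comp (continuous_jn.comp (continuous_id.prodMk continuous_const))
    rw [intervalIntegral.integral_eq_sub_of_hasDerivAt hd (hcont.intervalIntegrable _ _)]
    have h0 : ψ (jn x 0) = 0 := by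
      by_contra hne
      have := (hs (subset_tsupport ψ hne)).2.1
      simp at this
    have h1 : ψ (jn x 1) = 0 := by
      by_contra hne
      have := (hs (subset_tsupport ψ hne)).2.2
      simp at this
    rw [h0, h1, sub_zero]
  rw [h1, mul_zero]

end Vale.Agent.P073
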