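import Vale.Agent.P073.Mol

/-!
P073, row LOC: local smoothing by mollification.
-/

open MeasureTheory Set Filter Topology Metric
open scoped ContDiff ENNReal Convolution

namespace Vale.Agent.P073

namespace Loc

variable {N : ℕ}

/-- The mollification. -/
noncomputable def mo (b : ContDiffBump (0 : X N)) (w : X N → ℝ) : X N → ℝ :=
  (b.normed volume) ⋆[ContinuousLinearMap.lsmul ℝ ℝ, volume] w

theorem mo_apply (b : ContDiffBump (0 : X N)) (w : X N → ℝ) (x : X N) :
    mo b w x = ∫ t, b.normed volume t * w (x - t) := by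
  simp [mo, convolution_def]

theorem mo_smooth (b : ContDiffBump (0 : X N)) {w : X N → ℝ}
    (hw : LocallyIntegrable w volume) : ContDiff ℝ ∞ (mo b w) :=
  HasCompactSupport.contDiff_convolution_left _ b.hasCompactSupport_normed
    b.contDiff_normed hw

/-- The coordinate derivatives of a mollification. -/
theorem pd_mo (b : ContDiffBump (0 : X N)) {w : X N → ℝ}
    (hw : LocallyIntegrable w volume) (j : Fin N) (x : X N) :
    pd j (mo b w) x = ∫ t, pd j (b.normed volume) t * w (x - t) := by
  have h := HasCompactSupport.hasFDerivAt_convolution_left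
    (ContinuousLinearMap.lsmul ℝ ℝ : ℝ →L[ℝ] ℝ →L[ℝ] ℝ) (μ := (volume : Measure (X N)))
    (b.hasCompactSupport_normed (μ := volume)) (b.contDiff_normed (μ := volume) (n := 1)) hw x
  unfold pd
  rw [show fderiv ℝ (mo b w) x = _ from h.fderiv]
  have hex := ((b.hasCompactSupport_normed (μ := volume)).fderiv ℝ).convolutionExists_left
    ((ContinuousLinearMap.lsmul ℝ ℝ : ℝ →L[ℝ] ℝ →L[ℝ] ℝ).precompL (X N))
    ((b.contDiff_normed (μ := volume) (n := 1)).continuous_fderiv one_ne_zero) hw x
  simp_rw [convolution_def, ContinuousLinearMap.integral_apply hex]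
  rfl

/-- Convolution integrals by the change of variables `y = x - t`. -/
theorem int_flip (f w : X N → ℝ) (x : X N) :
    ∫ t, f t * w (x - t) = ∫ y, f (x - y) * w y := by
  rw [← integral_sub_left_eq_self (fun y => f (x - y) * w y) volume x]
  simp

/-- derivative of `y ↦ f (x - y)` -/
theorem pd_flip {f : X N → ℝ} (hf : ContDiff ℝ ∞ f) (j : Fin N) (x y : X N) :
    pd j (fun z => f (x - z)) y = - pd j f (x - y) := by
  unfold pd
  have h1 : HasFDerivAt f (fderiv ℝ f (x - y)) (x - y) :=
    (hf.differentiable (by simp) _).hasFDerivAt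
  have h2 : HasFDerivAt (fun z : X N => x - z) (-(ContinuousLinearMap.id ℝ (X N))) y := by
    simpa using (hasFDerivAt_id (𝕜 := ℝ) y).const_sub x
  have h3 := h1.comp y h2
  rw [show fderiv ℝ (fun z => f (x - z)) y = _ from h3.fderiv]
  simp

/-- On `K` the coordinate derivatives of the mollification are mollifications of the weak
derivatives. -/
theorem pd_weak (U : Set (X N)) (hU : IsOpen U) (u v : X N → ℝ) (j : Fin N)
    (hw : IsWeakPartial U j u v) (K' : Set (X N)) (hK'U : K' ⊆ U)
    (hu : LocallyIntegrable (K'.indicator u) volume) (b : ContDiffBump (0 : X N)) (x : X N)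
    (hx : closedBall x b.rOut ⊆ K') :
    pd j (mo b (K'.indicator u)) x = ∫ t, b.normed volume t * (K'.indicator v) (x - t) := by
  set f : X N → ℝ := b.normed volume with hf
  have hfs : ContDiff ℝ ∞ f := b.contDiff_normed
  set ψ : X N → ℝ := fun y => f (x - y) with hψ
  have hψs : ContDiff ℝ ∞ ψ := hfs.comp (contDiff_const.sub contDiff_id)
  have hsup : tsupport ψ ⊆ closedBall x b.rOut := by
    refine closure_minimal ?_ isClosed_closedBall
    intro y hy
    have h1 : x - y ∈ Function.support f := hy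
    rw [hf, b.support_normed_eq] at h1
    rw [mem_ball_zero_iff] at h1
    rw [mem_closedBall, dist_comm, dist_eq_norm]
    exact h1.le
  have hψc : HasCompactSupport ψ :=
    (isCompact_closedBall x b.rOut).of_isClosed_subset (isClosed_tsupport ψ) hsup
  have h0 : ∀ y, y ∉ K' → ψ y = 0 := fun y hy =>
    image_eq_zero_of_notMem_tsupport fun h => hy (hx (hsup h))
  have h0' : ∀ y, y ∉ K' → pd j ψ y = 0 := by
    intro y hy
    have : fderiv ℝ ψ y = 0 := by
      have h2 : y ∉ tsupport (fderiv ℝ ψ) := fun h => hy (hx (hsup (tsupport_fderiv_subset ℝ h)))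
      exact image_eq_zero_of_notMem_tsupport h2
    unfold pd
    rw [this]
    rfl
  have key := hw ψ hψs hψc (hsup.trans (hx.trans hK'U))
  rw [pd_mo b hu, int_flip, int_flip]
  have e1 : ∫ y, pd j f (x - y) * K'.indicator u y = - ∫ y in U, u y * pd j ψ y := by
    rw [← integral_neg, ← integral_indicator hU.measurableSet]
    refine integral_congr_ae (Eventually.of_forall fun y => ?_)
    by_cases hy : y ∈ K'
    · simp only [indicator_of_mem hy, indicator_of_mem (hK'U hy)]
      rw [hψ, pd_flip hfs]
      ring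
    · simp only [indicator_of_notMem hy, mul_zero]
      by_cases hyU : y ∈ U
      · simp only [indicator_of_mem hyU]
        rw [h0' y hy]
        simp
      · simp only [indicator_of_notMem hyU]
  have e2 : ∫ y, f (x - y) * K'.indicator v y = ∫ y in U, v y * ψ y := by
    rw [← integral_indicator hU.measurableSet]
    refine integral_congr_ae (Eventually.of_forall fun y => ?_)
    by_cases hy : y ∈ K'
    · simp only [indicator_of_mem hy, indicator_of_mem (hK'U hy)]
      rw [hψ]
      ring
    · simp only [indicator_of_notMem hy, mul_zero]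
      by_cases hyU : y ∈ U
      · simp only [indicator_of_mem hyU]
        rw [h0 y hy]
        simp
      · simp only [indicator_of_notMem hyU]
  rw [e1, e2, key]
  ring

/-- The lower bound of the derivative. -/
theorem pd_ge (U : Set (X N)) (u : X N → ℝ) (K' : Set (X N)) (hK'U : K' ⊆ U)
    (hui : LocallyIntegrable (K'.indicator u) volume)
    (e : Fin N) (lam : ℝ)
    (hmono : ∀ x ∈ U, ∀ t : ℝ, 0 < t → (∀ s ∈ Icc 0 t, x + s • (Pi.single e 1 : X N) ∈ U) →
      u x + lam * t ≤ u (x + t • (Pi.single e 1 : X N)))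
    (b : ContDiffBump (0 : X N)) (x : X N) (r : ℝ) (hr : b.rOut < r)
    (hx : closedBall x r ⊆ K') : lam ≤ pd e (mo b (K'.indicator u)) x := by
  set ε : X N := Pi.single e 1 with hε
  have hεn : ‖ε‖ = 1 := (Pi.norm_single (G := fun _ => ℝ) (1 : ℝ)).trans norm_one
  set g := mo b (K'.indicator u) with hg
  have hgs : ContDiff ℝ ∞ g := mo_smooth b hui
  have h1 : HasFDerivAt g (fderiv ℝ g x) x := (hgs.differentiable (by simp) _).hasFDerivAt
  have h2 : HasDerivAt (fun t : ℝ => x + t • ε) ε 0 := by
    simpa using ((hasDerivAt_id (0 : ℝ)).smul_const ε).const_add x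
  have h3 : HasDerivAt (fun t : ℝ => g (x + t • ε)) (pd e g x) 0 := by
    have h1' : HasFDerivAt g (fderiv ℝ g x) (x + (0 : ℝ) • ε) := by simpa using h1
    exact h1'.comp_hasDerivAt 0 h2
  have h4 := h3.tendsto_slope_zero_right
  refine ge_of_tendsto h4 ?_
  have h5 : ∀ᶠ t : ℝ in 𝓝[>] 0, t ∈ Ioo 0 (r - b.rOut) :=
    Ioo_mem_nhdsGT (by linarith)
  filter_upwards [h5] with t ht
  have ht0 : 0 < t := ht.1
  have hcont : Continuous (b.normed (volume : Measure (X N))) := b.continuous_normed
  have hint : ∀ z : X N, Integrable (fun s => b.normed volume s * K'.indicator u (z - s)) := by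
    intro z
    have := (b.hasCompactSupport_normed (μ := volume)).convolutionExists_left
      (ContinuousLinearMap.lsmul ℝ ℝ : ℝ →L[ℝ] ℝ →L[ℝ] ℝ) hcont hui z
    simpa [ConvolutionExistsAt] using this
  have h6 : lam * t ≤ g (x + t • ε) - g x := by
    rw [hg, mo_apply, mo_apply, ← integral_sub (hint _) (hint _)]
    have h7 : lam * t = ∫ s, b.normed volume s * (lam * t) := by
      rw [integral_mul_const, b.integral_normed, one_mul]
    rw [h7]
    refine integral_mono (b.integrable_normed.mul_const _) ((hint _).sub (hint _)) fun s => ?_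
    by_cases hs : s ∈ ball (0 : X N) b.rOut
    · rw [mem_ball_zero_iff] at hs
      have hin : ∀ a ∈ Icc (0 : ℝ) t, x - s + a • ε ∈ K' := by
        intro a ha
        apply hx
        rw [mem_closedBall, dist_eq_norm]
        calc ‖x - s + a • ε - x‖ = ‖a • ε - s‖ := by congr 1; abel
          _ ≤ ‖a • ε‖ + ‖s‖ := norm_sub_le _ _
          _ = a + ‖s‖ := by rw [norm_smul, hεn, mul_one, Real.norm_of_nonneg ha.1]
          _ ≤ r := by linarith [ha.2, ht.2]
      have h8 : x - s ∈ K' := by simpa using hin 0 ⟨le_rfl, ht0.le⟩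
      have h9 := hmono (x - s) (hK'U h8) t ht0 fun a ha => hK'U (hin a ha)
      have h10 : x + t • ε - s = x - s + t • ε := by abel
      have h11 := hin t ⟨ht0.le, le_rfl⟩
      simp only [h10, indicator_of_mem h8, indicator_of_mem h11]
      have h12 := b.nonneg_normed (μ := volume) s
      nlinarith
    · have h13 : b.normed (volume : Measure (X N)) s = 0 := by
        rw [← b.support_normed_eq (μ := volume)] at hs
        exact Function.notMem_support.1 hs
      simp [h13]
  have h7 : g (x + (0 : ℝ) • ε) = g x := by simp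
  show lam ≤ t⁻¹ • (g (x + (0 + t) • ε) - g (x + (0 : ℝ) • ε))
  rw [zero_add, h7, smul_eq_mul, inv_mul_eq_div, le_div_iff₀ ht0]
  exact h6

end Loc

open Loc in
/-- ROW LOC. -/
theorem loc {N : ℕ} (U : Set (X N)) (hU : IsOpen U) (p : ℝ≥0∞) (hp : 1 ≤ p) (hp' : p ≠ ⊤)
    (u : X N → ℝ) (hu : ContinuousOn u U) (hup : MemLp u p (volume.restrict U))
    (v : Fin N → X N → ℝ) (hv : ∀ j, MemLp (v j) p (volume.restrict U))
    (hw : ∀ j, IsWeakPartial U j u (v j))
    (K : Set (X N)) (hK : IsCompact K) (hKU : K ⊆ U) (τ : ℝ) (hτ : 0 < τ)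
    (e : Fin N) (lam : ℝ)
    (hmono : ∀ x ∈ U, ∀ t : ℝ, 0 < t → (∀ s ∈ Icc 0 t, x + s • (Pi.single e 1 : X N) ∈ U) →
      u x + lam * t ≤ u (x + t • (Pi.single e 1 : X N))) :
    ∃ g : X N → ℝ, ContDiff ℝ ∞ g ∧ (∀ x ∈ K, |g x - u x| ≤ τ) ∧
      (∀ j, eLpNorm (K.indicator (fun x => pd j g x - v j x)) p volume ≤ ENNReal.ofReal τ) ∧
      ∀ x ∈ K, lam ≤ pd e g x := by
  obtain ⟨r, hr, hrU⟩ := hK.exists_cthickening_subset_open hU hKU
  set K' := cthickening r K with hK'
  have hK'c : IsCompact K' := hK.cthickening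
  have hK'm : MeasurableSet K' := hK'c.measurableSet
  have hKK' : K ⊆ K' := self_subset_cthickening K
  have hball : ∀ x ∈ K, closedBall x r ⊆ K' := fun x hx => closedBall_subset_cthickening hx r
  have hui : Integrable (K'.indicator u) volume :=
    (integrable_indicator_iff hK'm).2 ((hu.mono hrU).integrableOn_compact hK'c)
  have hul := hui.locallyIntegrable
  have hvL : ∀ j, MemLp (K'.indicator (v j)) p volume := fun j =>
    (memLp_indicator_iff_restrict hK'm).2
      ((hv j).mono_measure (Measure.restrict_mono hrU le_rfl))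
  choose r0 hr0 hr0' using fun j => mol p hp hp' (K'.indicator (v j)) (hvL j) τ hτ
  have huc : UniformContinuousOn u K' := hK'c.uniformContinuousOn_of_continuous (hu.mono hrU)
  obtain ⟨δ, hδ, hδ'⟩ := Metric.uniformContinuousOn_iff.1 huc τ hτ
  have _ := hup
  have : Nonempty (Fin N) := ⟨e⟩
  obtain ⟨j0, hj0⟩ := Finite.exists_min r0
  set ρ : ℝ := min (min (r / 2) δ) (r0 j0) with hρ
  have hρ0 : 0 < ρ := lt_min (lt_min (by linarith) hδ) (hr0 j0)
  have hρr : ρ < r := lt_of_le_of_lt ((min_le_left _ _).trans (min_le_left _ _)) (by linarith)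
  have hρδ : ρ ≤ δ := (min_le_left _ _).trans (min_le_right _ _)
  have hρj : ∀ j, ρ ≤ r0 j := fun j => (min_le_right _ _).trans (hj0 j)
  let b : ContDiffBump (0 : X N) := ⟨ρ / 2, ρ, by linarith, by linarith⟩
  have hbρ : b.rOut = ρ := rfl
  refine ⟨mo b (K'.indicator u), mo_smooth b hul, ?_, ?_, ?_⟩
  · intro x hx
    have h1 : dist (mo b (K'.indicator u) x) (K'.indicator u x) ≤ τ := by
      refine b.dist_normed_convolution_le hui.aestronglyMeasurable fun y hy => ?_
      rw [hbρ] at hy
      have hy' : y ∈ K' := hball x hx (ball_subset_closedBall (ball_subset_ball hρr.le hy))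
      rw [indicator_of_mem hy', indicator_of_mem (hKK' hx)]
      exact (hδ' y hy' x (hKK' hx) (lt_of_lt_of_le hy hρδ)).le
    rwa [indicator_of_mem (hKK' hx), Real.dist_eq] at h1
  · intro j
    refine le_trans (eLpNorm_mono fun x => ?_) (hr0' j b (by rw [hbρ]; exact hρj j))
    by_cases hx : x ∈ K
    · rw [indicator_of_mem hx, pd_weak U hU u (v j) j (hw j) K' hrU hul b x
        ((closedBall_subset_closedBall (by rw [hbρ]; exact hρr.le)).trans (hball x hx)),
        indicator_of_mem (hKK' hx)]
    · rw [indicator_of_notMem hx]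
      simp
  · intro x hx
    exact pd_ge U u K' hrU hul e lam hmono b x r (by rw [hbρ]; exact hρr) (hball x hx)

end Vale.Agent.P073
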