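import Vale.Agent.P073.Defs

/-!
# Smooth partition of unity of a bounded open set (problem P073)
-/

open MeasureTheory Set Filter Topology
open scoped ContDiff ENNReal

namespace Vale.Agent.P073

namespace Part

/-- The `i`-th function of the partition, built from `θ`. -/
noncomputable def chi {N : ℕ} (θ : X N → ℝ) (i : ℕ) (x : X N) : ℝ :=
  Real.smoothTransition ((θ x)⁻¹ - i) - Real.smoothTransition ((θ x)⁻¹ - (i + 1))

lemma chi_zero {N : ℕ} {θ : X N → ℝ} (h0 : ∀ x, 0 ≤ θ x) (i : ℕ) {x : X N}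
    (hx : θ x < 1 / ((i : ℝ) + 2)) : chi θ i x = 0 := by
  unfold chi
  have hi : (0 : ℝ) ≤ i := Nat.cast_nonneg i
  rcases (h0 x).lt_or_eq with h | h
  · have h2 : (i : ℝ) + 2 < (θ x)⁻¹ := by
      rw [one_div] at hx
      rw [lt_inv_comm₀ (by positivity) h]
      exact hx
    rw [Real.smoothTransition.one_of_one_le (by linarith),
      Real.smoothTransition.one_of_one_le (by linarith), sub_self]
  · rw [← h, inv_zero, Real.smoothTransition.zero_of_nonpos (by linarith),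
      Real.smoothTransition.zero_of_nonpos (by linarith), sub_self]

lemma chi_zero' {N : ℕ} {θ : X N → ℝ} {i : ℕ} {x : X N} (hx : (θ x)⁻¹ ≤ i) :
    chi θ i x = 0 := by
  unfold chi
  rw [Real.smoothTransition.zero_of_nonpos (by linarith),
    Real.smoothTransition.zero_of_nonpos (by linarith), sub_self]

lemma chi_smooth {N : ℕ} {θ : X N → ℝ} (hs : ContDiff ℝ ∞ θ) (h0 : ∀ x, 0 ≤ θ x) (i : ℕ) :
    ContDiff ℝ ∞ (chi θ i) := by
  rw [contDiff_iff_contDiffAt]
  intro x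
  by_cases hx : θ x = 0
  · have h1 : ∀ᶠ y in 𝓝 x, θ y < 1 / ((i : ℝ) + 2) := by
      refine hs.continuous.continuousAt.eventually_lt continuousAt_const ?_
      rw [hx]; positivity
    refine (contDiffAt_const (c := (0 : ℝ))).congr_of_eventuallyEq ?_
    filter_upwards [h1] with y hy using chi_zero h0 i hy
  · have h1 : ContDiffAt ℝ ∞ (fun y => (θ y)⁻¹) x := hs.contDiffAt.inv hx
    exact (Real.smoothTransition.contDiff.contDiffAt.comp x (h1.sub contDiffAt_const)).sub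
      (Real.smoothTransition.contDiff.contDiffAt.comp x (h1.sub contDiffAt_const))

end Part

/-- ROW PART. Smooth partition of unity of a bounded open set. -/
theorem part {N : ℕ} (U : Set (X N)) (hU : IsOpen U) (hb : Bornology.IsBounded U) :
    ∃ χ : ℕ → X N → ℝ, (∀ i, ContDiff ℝ ∞ (χ i)) ∧ (∀ i, HasCompactSupport (χ i)) ∧
      (∀ i, tsupport (χ i) ⊆ U) ∧ (∀ i x, 0 ≤ χ i x ∧ χ i x ≤ 1) ∧
      ∀ x ∈ U, ∃ m : ℕ, ∃ V ∈ 𝓝 x, ∀ y ∈ V, (∀ i, m ≤ i → χ i y = 0) ∧
        ∑ i ∈ Finset.range m, χ i y = 1 := by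
  obtain ⟨θ, hθU, hθs, hθr⟩ := hU.exists_contDiff_support_eq (n := (⊤ : ℕ∞))
  have h0 : ∀ x, 0 ≤ θ x := fun x => (hθr ⟨x, rfl⟩).1
  have h1 : ∀ x, θ x ≤ 1 := fun x => (hθr ⟨x, rfl⟩).2
  have hs : ContDiff ℝ ∞ θ := hθs
  have hmemU : ∀ x, 0 < θ x → x ∈ U := by
    intro x hx
    rw [← hθU]
    exact hx.ne'
  have hK : ∀ i : ℕ, IsClosed {x | 1 / ((i : ℝ) + 2) ≤ θ x} := fun i =>
    isClosed_le continuous_const hs.continuous
  have hKU : ∀ i : ℕ, {x | 1 / ((i : ℝ) + 2) ≤ θ x} ⊆ U := fun i x hx =>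
    hmemU x (lt_of_lt_of_le (by positivity) hx)
  have hsupp : ∀ i : ℕ, Function.support (Part.chi θ i) ⊆ {x | 1 / ((i : ℝ) + 2) ≤ θ x} := by
    intro i x hx
    by_contra hc
    exact hx (Part.chi_zero h0 i (not_le.mp hc))
  have hts : ∀ i : ℕ, tsupport (Part.chi θ i) ⊆ {x | 1 / ((i : ℝ) + 2) ≤ θ x} := fun i =>
    closure_minimal (hsupp i) (hK i)
  refine ⟨Part.chi θ, Part.chi_smooth hs h0, fun i => ?_, fun i => (hts i).trans (hKU i),
    fun i x => ⟨?_, ?_⟩, fun x hx => ?_⟩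
  · exact HasCompactSupport.of_support_subset_isCompact
      (Metric.isCompact_of_isClosed_isBounded (hK i) (hb.subset (hKU i))) (hsupp i)
  · unfold Part.chi
    have h2 := Real.smoothTransition.monotone
      (show (θ x)⁻¹ - ((i : ℝ) + 1) ≤ (θ x)⁻¹ - i by linarith)
    linarith
  · unfold Part.chi
    have h2 := Real.smoothTransition.le_one ((θ x)⁻¹ - i)
    have h3 := Real.smoothTransition.nonneg ((θ x)⁻¹ - ((i : ℝ) + 1))
    linarith
  · have hx0 : 0 < θ x := by
      refine lt_of_le_of_ne (h0 x) (Ne.symm ?_)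
      rw [← hθU] at hx
      exact hx
    obtain ⟨m, hm⟩ := exists_nat_gt (θ x)⁻¹
    have hm0 : (0 : ℝ) < m := lt_trans (inv_pos.mpr hx0) hm
    have hlt : 1 / (m : ℝ) < θ x := by
      rw [one_div, inv_lt_comm₀ hm0 hx0]
      exact hm
    refine ⟨m, {y | 1 / (m : ℝ) < θ y}, (isOpen_lt continuous_const hs.continuous).mem_nhds hlt,
      fun y hy => ?_⟩
    have hy' : 1 / (m : ℝ) < θ y := hy
    have hy0 : 0 < θ y := lt_trans (by positivity) hy'
    have hym : (θ y)⁻¹ < m := by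
      rw [inv_lt_comm₀ hy0 hm0, ← one_div]
      exact hy'
    refine ⟨fun i hi => Part.chi_zero' ?_, ?_⟩
    · exact hym.le.trans (by exact_mod_cast hi)
    · have h2 := Finset.sum_range_sub'
        (fun i : ℕ => Real.smoothTransition ((θ y)⁻¹ - (i : ℝ))) m
      have h3 : ∑ i ∈ Finset.range m, Part.chi θ i y =
          Real.smoothTransition ((θ y)⁻¹ - ((0 : ℕ) : ℝ)) -
            Real.smoothTransition ((θ y)⁻¹ - (m : ℝ)) := by
        rw [← h2]
        refine Finset.sum_congr rfl fun i _ => ?_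
        simp [Part.chi]
      have h4 : 1 ≤ (θ y)⁻¹ := (one_le_inv₀ hy0).mpr (h1 y)
      have h5 : Real.smoothTransition ((θ y)⁻¹ - (m : ℝ)) = 0 :=
        Real.smoothTransition.zero_of_nonpos (by linarith)
      have h6 : Real.smoothTransition ((θ y)⁻¹ - ((0 : ℕ) : ℝ)) = 1 :=
        Real.smoothTransition.one_of_one_le (by simpa using h4)
      rw [h3, h5, h6, sub_zero]

end Vale.Agent.P073
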