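import Vale.Agent.P073.GlueOf
import Vale.Agent.P073.Loc
import Vale.Agent.P073.Part

/-!
# P073, row GLUE
-/

open MeasureTheory Set Filter Topology
open scoped ContDiff ENNReal

namespace Vale.Agent.P073

theorem glue {N : ℕ} (U : Set (X N)) (hU : IsOpen U) (hb : Bornology.IsBounded U)
    (p : ℝ≥0∞) (hp : 1 ≤ p) (hp' : p ≠ ⊤)
    (u : X N → ℝ) (hu : ContinuousOn u U) (hup : MemLp u p (volume.restrict U))
    (v : Fin N → X N → ℝ) (hv : ∀ j, MemLp (v j) p (volume.restrict U))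
    (hw : ∀ j, IsWeakPartial U j u (v j))
    (e : Fin N) (lam : ℝ) (hlam : 0 < lam)
    (hmono : ∀ x ∈ U, ∀ t : ℝ, 0 < t → (∀ s ∈ Icc 0 t, x + s • (Pi.single e 1 : X N) ∈ U) →
      u x + lam * t ≤ u (x + t • (Pi.single e 1 : X N)))
    (δ : X N → ℝ) (hδ : ContinuousOn δ U) (hδ0 : ∀ x ∈ U, 0 < δ x) (ε : ℝ) (hε : 0 < ε) :
    ∃ w : X N → ℝ, ContDiffOn ℝ ∞ w U ∧ (∀ x ∈ U, |w x - u x| ≤ δ x) ∧
      (∀ x ∈ U, |w x - u x| ≤ ε) ∧
      (∀ j, eLpNorm (fun x => pd j w x - v j x) p (volume.restrict U) ≤ ENNReal.ofReal ε) ∧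
      ∀ x ∈ U, 0 < pd e w x :=
  glue_of U hU hb p hp u hu v hv e lam hlam δ hδ hδ0 ε hε
    (fun K hK hKU τ hτ => loc U hU p hp hp' u hu hup v hv hw K hK hKU τ hτ e lam hmono)
    (part U hU hb)

end Vale.Agent.P073
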