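import Vale.Agent.P073.Defs

/-!
# P073, row GLUE: gluing local approximations with a partition of unity
-/

open MeasureTheory Set Filter Topology
open scoped ContDiff ENNReal

namespace Vale.Agent.P073

namespace Glue

theorem sum_q (n : ℕ) : ∑ i ∈ Finset.range n, (1 / 2 : ℝ) ^ (i + 1) ≤ 1 := by
  have : ∑ i ∈ Finset.range n, (1 / 2 : ℝ) ^ (i + 1) = 1 - (1 / 2) ^ n := by
    induction n with
    | zero => simp
    | succ n ih => rw [Finset.sum_range_succ, ih]; ring
  rw [this]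
  have := pow_nonneg (by norm_num : (0 : ℝ) ≤ 1 / 2) n
  linarith

theorem choose_tau (a b c M D l : ℝ) (ha : 0 < a) (hb : 0 < b) (hc : 0 < c) (hM : 0 ≤ M)
    (hD : 0 < D) (hl : 0 < l) :
    ∃ τ : ℝ, 0 < τ ∧ τ ≤ a ∧ τ ≤ b ∧ τ ≤ c ∧ M * (D * τ) ≤ c ∧ D * τ ≤ l := by
  have h1 : 0 < c / ((M + 1) * D) := by positivity
  have h2 : 0 < l / D := by positivity
  refine ⟨min a (min b (min c (min (c / ((M + 1) * D)) (l / D)))), by positivity, ?_, ?_, ?_,
    ?_, ?_⟩
  · exact min_le_left _ _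
  · exact (min_le_right _ _).trans (min_le_left _ _)
  · exact (min_le_right _ _).trans ((min_le_right _ _).trans (min_le_left _ _))
  · set τ := min a (min b (min c (min (c / ((M + 1) * D)) (l / D)))) with hτ
    have hτ0 : 0 < τ := by positivity
    have h3 : τ ≤ c / ((M + 1) * D) :=
      (min_le_right _ _).trans ((min_le_right _ _).trans ((min_le_right _ _).trans
        (min_le_left _ _)))
    have h4 : τ * ((M + 1) * D) ≤ c := (le_div_iff₀ (by positivity)).1 h3
    have h5 : 0 < D * τ := by positivity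
    nlinarith
  · set τ := min a (min b (min c (min (c / ((M + 1) * D)) (l / D)))) with hτ
    have h3 : τ ≤ l / D :=
      (min_le_right _ _).trans ((min_le_right _ _).trans ((min_le_right _ _).trans
        (min_le_right _ _)))
    have h4 : τ * D ≤ l := (le_div_iff₀ hD).1 h3
    linarith

theorem norm_single_le {N : ℕ} (j : Fin N) : ‖(Pi.single j (1 : ℝ) : X N)‖ ≤ 1 := by
  rw [pi_norm_le_iff_of_nonneg zero_le_one]
  intro i
  by_cases h : i = j
  · subst h; simp
  · simp [Pi.single_eq_of_ne h]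

theorem pd_bound {N : ℕ} {χ : X N → ℝ} (hχ : ContDiff ℝ ∞ χ) (hc : HasCompactSupport χ) :
    ∃ D : ℝ, 0 < D ∧ ∀ j x, |pd j χ x| ≤ D := by
  obtain ⟨C, hC⟩ := (hc.fderiv (𝕜 := ℝ)).exists_bound_of_continuous
    (hχ.continuous_fderiv (by simp))
  refine ⟨|C| + 1, by positivity, fun j x => ?_⟩
  have h1 : |pd j χ x| ≤ ‖fderiv ℝ χ x‖ * ‖(Pi.single j (1 : ℝ) : X N)‖ :=
    (fderiv ℝ χ x).le_opNorm _
  have h2 : ‖fderiv ℝ χ x‖ * ‖(Pi.single j (1 : ℝ) : X N)‖ ≤ ‖fderiv ℝ χ x‖ * 1 :=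
    mul_le_mul_of_nonneg_left (norm_single_le j) (norm_nonneg _)
  have h3 := hC x
  have h4 := le_abs_self C
  linarith

theorem continuous_pd {N : ℕ} {f : X N → ℝ} (hf : ContDiff ℝ ∞ f) (j : Fin N) :
    Continuous (pd j f) := by
  unfold pd
  exact (hf.continuous_fderiv (by simp)).clm_apply continuous_const

theorem pd_zero_of_notMem {N : ℕ} {χ : X N → ℝ} {x : X N} (hx : x ∉ tsupport χ) (j : Fin N) :
    pd j χ x = 0 := by
  have h : χ =ᶠ[𝓝 x] fun _ => 0 := notMem_tsupport_iff_eventuallyEq.1 hx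
  unfold pd
  rw [h.fderiv_eq]
  simp

/-- The glued function. -/
noncomputable def W {N : ℕ} (χ g : ℕ → X N → ℝ) (x : X N) : ℝ := ∑' i, χ i x * g i x

theorem expand {N : ℕ} {χ g : ℕ → X N → ℝ} (hχ : ∀ i, ContDiff ℝ ∞ (χ i))
    (hg : ∀ i, ContDiff ℝ ∞ (g i)) {x : X N} {n : ℕ} {V : Set (X N)} (hV : V ∈ 𝓝 x)
    (h0 : ∀ y ∈ V, (∀ i, n ≤ i → χ i y = 0) ∧ ∑ i ∈ Finset.range n, χ i y = 1) :
    W χ g x = ∑ i ∈ Finset.range n, χ i x * g i x ∧ ∑ i ∈ Finset.range n, χ i x = 1 ∧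
      ContDiffAt ℝ ∞ (W χ g) x ∧
      ∀ j, pd j (W χ g) x = ∑ i ∈ Finset.range n, (χ i x * pd j (g i) x + pd j (χ i) x * g i x) ∧
        ∑ i ∈ Finset.range n, pd j (χ i) x = 0 := by
  have hW : ∀ y ∈ V, W χ g y = ∑ i ∈ Finset.range n, χ i y * g i y := by
    intro y hy
    refine tsum_eq_sum fun i hi => ?_
    rw [(h0 y hy).1 i (by simpa using hi), zero_mul]
  have hev : W χ g =ᶠ[𝓝 x] fun y => ∑ i ∈ Finset.range n, χ i y * g i y :=
    Filter.eventually_of_mem hV hW
  have hev1 : (fun y => ∑ i ∈ Finset.range n, χ i y) =ᶠ[𝓝 x] fun _ => (1 : ℝ) :=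
    Filter.eventually_of_mem hV fun y hy => (h0 y hy).2
  have hdχ : ∀ i, HasFDerivAt (χ i) (fderiv ℝ (χ i) x) x := fun i =>
    ((hχ i).differentiable (by simp) x).hasFDerivAt
  have hdg : ∀ i, HasFDerivAt (g i) (fderiv ℝ (g i) x) x := fun i =>
    ((hg i).differentiable (by simp) x).hasFDerivAt
  have hsum : HasFDerivAt (fun y => ∑ i ∈ Finset.range n, χ i y * g i y)
      (∑ i ∈ Finset.range n, (χ i x • fderiv ℝ (g i) x + g i x • fderiv ℝ (χ i) x)) x :=
    HasFDerivAt.fun_sum fun i _ => (hdχ i).mul (hdg i)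
  have hsum1 : HasFDerivAt (fun y => ∑ i ∈ Finset.range n, χ i y)
      (∑ i ∈ Finset.range n, fderiv ℝ (χ i) x) x :=
    HasFDerivAt.fun_sum fun i _ => hdχ i
  have hz : ∑ i ∈ Finset.range n, fderiv ℝ (χ i) x = 0 :=
    hsum1.unique ((hasFDerivAt_const (1 : ℝ) x).congr_of_eventuallyEq hev1)
  refine ⟨hW x (mem_of_mem_nhds hV), (h0 x (mem_of_mem_nhds hV)).2, ?_, fun j => ⟨?_, ?_⟩⟩
  · refine ContDiffAt.congr_of_eventuallyEq ?_ hev
    exact ContDiffAt.sum fun i _ => ((hχ i).mul (hg i)).contDiffAt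
  · unfold pd
    rw [hev.fderiv_eq, hsum.fderiv]
    simp only [ContinuousLinearMap.sum_apply, ContinuousLinearMap.add_apply,
      ContinuousLinearMap.smul_apply, smul_eq_mul]
    refine Finset.sum_congr rfl fun i _ => by ring
  · unfold pd
    rw [← ContinuousLinearMap.sum_apply, hz]
    simp

/-- The derivative error as a finite sum. -/
theorem error {N : ℕ} {χ g : ℕ → X N → ℝ} {x : X N} {n : ℕ} {j : Fin N} {a b : ℝ}
    (h1 : ∑ i ∈ Finset.range n, χ i x = 1)
    (h2 : pd j (W χ g) x = ∑ i ∈ Finset.range n, (χ i x * pd j (g i) x + pd j (χ i) x * g i x))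
    (h3 : ∑ i ∈ Finset.range n, pd j (χ i) x = 0) :
    pd j (W χ g) x - a =
      ∑ i ∈ Finset.range n, (χ i x * (pd j (g i) x - a) + pd j (χ i) x * (g i x - b)) := by
  have e : ∀ i, χ i x * (pd j (g i) x - a) + pd j (χ i) x * (g i x - b) =
      (χ i x * pd j (g i) x + pd j (χ i) x * g i x) - χ i x * a - pd j (χ i) x * b := by
    intro i; ring
  rw [Finset.sum_congr rfl fun i _ => e i, Finset.sum_sub_distrib, Finset.sum_sub_distrib,
    ← Finset.sum_mul, ← Finset.sum_mul, h1, h3, ← h2]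
  ring

end Glue

open Glue in
theorem glue_of {N : ℕ} (U : Set (X N)) (hU : IsOpen U) (hb : Bornology.IsBounded U)
    (p : ℝ≥0∞) (hp : 1 ≤ p)
    (u : X N → ℝ) (hu : ContinuousOn u U)
    (v : Fin N → X N → ℝ) (hv : ∀ j, MemLp (v j) p (volume.restrict U))
    (e : Fin N) (lam : ℝ) (hlam : 0 < lam)
    (δ : X N → ℝ) (hδ : ContinuousOn δ U) (hδ0 : ∀ x ∈ U, 0 < δ x) (ε : ℝ) (hε : 0 < ε)
    (hloc : ∀ K : Set (X N), IsCompact K → K ⊆ U → ∀ τ : ℝ, 0 < τ →
      ∃ g : X N → ℝ, ContDiff ℝ ∞ g ∧ (∀ x ∈ K, |g x - u x| ≤ τ) ∧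
        (∀ j, eLpNorm (K.indicator (fun x => pd j g x - v j x)) p volume ≤ ENNReal.ofReal τ) ∧
        ∀ x ∈ K, lam ≤ pd e g x)
    (hpart : ∃ χ : ℕ → X N → ℝ, (∀ i, ContDiff ℝ ∞ (χ i)) ∧ (∀ i, HasCompactSupport (χ i)) ∧
      (∀ i, tsupport (χ i) ⊆ U) ∧ (∀ i x, 0 ≤ χ i x ∧ χ i x ≤ 1) ∧
      ∀ x ∈ U, ∃ m : ℕ, ∃ V ∈ 𝓝 x, ∀ y ∈ V, (∀ i, m ≤ i → χ i y = 0) ∧
        ∑ i ∈ Finset.range m, χ i y = 1) :
    ∃ w : X N → ℝ, ContDiffOn ℝ ∞ w U ∧ (∀ x ∈ U, |w x - u x| ≤ δ x) ∧
      (∀ x ∈ U, |w x - u x| ≤ ε) ∧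
      (∀ j, eLpNorm (fun x => pd j w x - v j x) p (volume.restrict U) ≤ ENNReal.ofReal ε) ∧
      ∀ x ∈ U, 0 < pd e w x := by
  classical
  obtain ⟨χ, hχ, hχc, hχU, hχ01, hχ1⟩ := hpart
  -- bounds for the derivatives of the cut-off functions
  choose D hD0 hD using fun i => pd_bound (hχ i) (hχc i)
  -- the factor from the bounded domain
  have hUfin : volume U < ⊤ := hb.measure_lt_top
  set M : ℝ≥0∞ := (volume.restrict U) univ ^ (p.toReal)⁻¹ with hM
  have hMfin : M ≠ ⊤ := by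
    rw [hM, Measure.restrict_apply_univ]
    exact ENNReal.rpow_ne_top_of_nonneg (by positivity) hUfin.ne
  -- lower bounds for `δ`
  have hδi : ∀ i, ∃ d : ℝ, 0 < d ∧ ∀ x ∈ tsupport (χ i), d ≤ δ x := by
    intro i
    rcases (tsupport (χ i)).eq_empty_or_nonempty with h | h
    · exact ⟨1, one_pos, by simp [h]⟩
    · obtain ⟨x0, hx0, hmin⟩ := (hχc i).isCompact.exists_isMinOn h (hδ.mono (hχU i))
      exact ⟨δ x0, hδ0 x0 (hχU i hx0), fun x hx => hmin hx⟩
  choose d hd0 hd using hδi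
  have hq : ∀ i : ℕ, (0 : ℝ) < (1 / 2) ^ (i + 1) := fun i => by positivity
  choose τ hτ0 hτd hτε hτq hτM hτl using fun i : ℕ =>
    choose_tau (d i) ε (ε / 2 * (1 / 2) ^ (i + 1)) M.toReal (D i) (lam / 2 * (1 / 2) ^ (i + 1))
      (hd0 i) hε (by positivity) ENNReal.toReal_nonneg (hD0 i) (by positivity)
  choose g hg hgu hgv hge using fun i =>
    hloc (tsupport (χ i)) (hχc i).isCompact (hχU i) (τ i) (hτ0 i)
  -- the basic expansion
  have hexp : ∀ x ∈ U, ∃ m : ℕ, ∀ n, m ≤ n →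
      W χ g x = ∑ i ∈ Finset.range n, χ i x * g i x ∧ ∑ i ∈ Finset.range n, χ i x = 1 ∧
      ContDiffAt ℝ ∞ (W χ g) x ∧
      ∀ j, pd j (W χ g) x = ∑ i ∈ Finset.range n, (χ i x * pd j (g i) x + pd j (χ i) x * g i x) ∧
        ∑ i ∈ Finset.range n, pd j (χ i) x = 0 := by
    intro x hx
    obtain ⟨m, V, hV, h⟩ := hχ1 x hx
    refine ⟨m, fun n hn => expand hχ hg hV fun y hy => ⟨fun i hi => (h y hy).1 i (hn.trans hi), ?_⟩⟩
    rw [← (h y hy).2]
    symm
    refine Finset.sum_subset (Finset.range_subset_range.2 hn) fun i _ hi => ?_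
    exact (h y hy).1 i (by simpa using hi)
  have hbound : ∀ x ∈ U, ∀ B : ℝ, (∀ i, x ∈ tsupport (χ i) → τ i ≤ B) →
      |W χ g x - u x| ≤ B := by
    intro x hx B hB
    obtain ⟨m, hm⟩ := hexp x hx
    obtain ⟨h1, h2, -, -⟩ := hm m le_rfl
    have e1 : W χ g x - u x = ∑ i ∈ Finset.range m, χ i x * (g i x - u x) := by
      rw [h1]
      simp only [mul_sub, Finset.sum_sub_distrib]
      rw [← Finset.sum_mul, h2, one_mul]
    have e2 : ∀ i ∈ Finset.range m, |χ i x * (g i x - u x)| ≤ χ i x * B := by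
      intro i _
      rw [abs_mul, abs_of_nonneg (hχ01 i x).1]
      by_cases hxi : x ∈ tsupport (χ i)
      · exact mul_le_mul_of_nonneg_left ((hgu i x hxi).trans (hB i hxi)) (hχ01 i x).1
      · rw [image_eq_zero_of_notMem_tsupport hxi]; simp
    calc |W χ g x - u x| ≤ ∑ i ∈ Finset.range m, |χ i x * (g i x - u x)| := by
          rw [e1]; exact Finset.abs_sum_le_sum_abs _ _
      _ ≤ ∑ i ∈ Finset.range m, χ i x * B := Finset.sum_le_sum e2
      _ = B := by rw [← Finset.sum_mul, h2, one_mul]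
  refine ⟨W χ g, ?_, ?_, ?_, ?_, ?_⟩
  · intro x hx
    obtain ⟨m, hm⟩ := hexp x hx
    exact (hm m le_rfl).2.2.1.contDiffWithinAt
  · intro x hx
    exact hbound x hx (δ x) fun i hi => (hτd i).trans (hd i x hi)
  · intro x hx
    exact hbound x hx ε fun i _ => hτε i
  · intro j
    set f : ℕ → X N → ℝ := fun i x =>
      χ i x * (pd j (g i) x - v j x) + pd j (χ i) x * (g i x - u x) with hf
    have hlim : ∀ᵐ x ∂(volume.restrict U), Tendsto (fun n => (∑ i ∈ Finset.range n, f i) x) atTop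
        (𝓝 (pd j (W χ g) x - v j x)) := by
      refine (ae_restrict_iff' hU.measurableSet).2 (Eventually.of_forall fun x hx => ?_)
      obtain ⟨m, hm⟩ := hexp x hx
      refine tendsto_const_nhds.congr' ?_
      filter_upwards [eventually_ge_atTop m] with n hn
      obtain ⟨-, h2, -, h4⟩ := hm n hn
      rw [error (b := u x) h2 (h4 j).1 (h4 j).2, Finset.sum_apply]
    have hum : AEStronglyMeasurable u (volume.restrict U) :=
      hu.aestronglyMeasurable hU.measurableSet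
    have hm1 : ∀ i, AEStronglyMeasurable (fun x => χ i x * (pd j (g i) x - v j x))
        (volume.restrict U) := fun i =>
      (hχ i).continuous.aestronglyMeasurable.mul
        ((continuous_pd (hg i) j).aestronglyMeasurable.sub (hv j).1)
    have hm2 : ∀ i, AEStronglyMeasurable (fun x => pd j (χ i) x * (g i x - u x))
        (volume.restrict U) := fun i =>
      (continuous_pd (hχ i) j).aestronglyMeasurable.mul
        ((hg i).continuous.aestronglyMeasurable.sub hum)
    have hfm : ∀ i, AEStronglyMeasurable (f i) (volume.restrict U) := fun i =>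
      (hm1 i).add (hm2 i)
    have hn1 : ∀ i, eLpNorm (fun x => χ i x * (pd j (g i) x - v j x)) p (volume.restrict U) ≤
        ENNReal.ofReal (ε / 2 * (1 / 2) ^ (i + 1)) := by
      intro i
      refine (eLpNorm_mono fun x => ?_).trans ((eLpNorm_mono_measure _
        Measure.restrict_le_self).trans ((hgv i j).trans (ENNReal.ofReal_le_ofReal (hτq i))))
      by_cases hxi : x ∈ tsupport (χ i)
      · rw [indicator_of_mem hxi, norm_mul]
        have : ‖χ i x‖ ≤ 1 := by
          rw [Real.norm_eq_abs, abs_of_nonneg (hχ01 i x).1]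
          exact (hχ01 i x).2
        calc ‖χ i x‖ * ‖pd j (g i) x - v j x‖ ≤ 1 * ‖pd j (g i) x - v j x‖ :=
              mul_le_mul_of_nonneg_right this (norm_nonneg _)
          _ = _ := one_mul _
      · rw [image_eq_zero_of_notMem_tsupport hxi]; simp
    have hn2 : ∀ i, eLpNorm (fun x => pd j (χ i) x * (g i x - u x)) p (volume.restrict U) ≤
        ENNReal.ofReal (ε / 2 * (1 / 2) ^ (i + 1)) := by
      intro i
      have hb2 : ∀ᵐ x ∂(volume.restrict U), ‖pd j (χ i) x * (g i x - u x)‖ ≤ D i * τ i := by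
        refine Eventually.of_forall fun x => ?_
        rw [norm_mul, Real.norm_eq_abs, Real.norm_eq_abs]
        by_cases hxi : x ∈ tsupport (χ i)
        · exact mul_le_mul (hD i j x) (hgu i x hxi) (abs_nonneg _) (hD0 i).le
        · rw [pd_zero_of_notMem hxi, abs_zero, zero_mul]
          exact mul_nonneg (hD0 i).le (hτ0 i).le
      refine (eLpNorm_le_of_ae_bound hb2).trans ?_
      rw [← hM, ← ENNReal.ofReal_toReal hMfin, ← ENNReal.ofReal_mul ENNReal.toReal_nonneg]
      exact ENNReal.ofReal_le_ofReal (hτM i)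
    have hn : ∀ n, eLpNorm (∑ i ∈ Finset.range n, f i) p (volume.restrict U) ≤
        ENNReal.ofReal ε := by
      intro n
      calc eLpNorm (∑ i ∈ Finset.range n, f i) p (volume.restrict U)
          ≤ ∑ i ∈ Finset.range n, eLpNorm (f i) p (volume.restrict U) :=
            eLpNorm_sum_le (fun i _ => hfm i) hp
        _ ≤ ∑ i ∈ Finset.range n, ENNReal.ofReal (ε * (1 / 2) ^ (i + 1)) := by
            refine Finset.sum_le_sum fun i _ => ?_
            refine (eLpNorm_add_le (hm1 i) (hm2 i) hp).trans ((add_le_add (hn1 i) (hn2 i)).trans ?_)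
            rw [← ENNReal.ofReal_add (by positivity) (by positivity)]
            exact ENNReal.ofReal_le_ofReal (by linarith)
        _ = ENNReal.ofReal (∑ i ∈ Finset.range n, ε * (1 / 2) ^ (i + 1)) :=
            (ENNReal.ofReal_sum_of_nonneg fun i _ => by positivity).symm
        _ ≤ ENNReal.ofReal ε := by
            refine ENNReal.ofReal_le_ofReal ?_
            rw [← Finset.mul_sum]
            have := sum_q n
            nlinarith
    refine (Lp.eLpNorm_lim_le_liminf_eLpNorm (fun n => ?_) _ hlim).trans ?_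
    · exact Finset.aestronglyMeasurable_sum _ fun i _ => hfm i
    · refine (liminf_le_liminf (Eventually.of_forall hn)).trans ?_
      simp
  · intro x hx
    obtain ⟨m, hm⟩ := hexp x hx
    obtain ⟨-, h2, -, h4⟩ := hm m le_rfl
    have e1 := error (a := lam) (b := u x) h2 (h4 e).1 (h4 e).2
    have e2 : ∀ i ∈ Finset.range m, -(lam / 2 * (1 / 2) ^ (i + 1)) ≤
        χ i x * (pd e (g i) x - lam) + pd e (χ i) x * (g i x - u x) := by
      intro i _
      by_cases hxi : x ∈ tsupport (χ i)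
      · have h5 : 0 ≤ χ i x * (pd e (g i) x - lam) :=
          mul_nonneg (hχ01 i x).1 (sub_nonneg.2 (hge i x hxi))
        have h6 : |pd e (χ i) x * (g i x - u x)| ≤ D i * τ i := by
          rw [abs_mul]
          exact mul_le_mul (hD i e x) (hgu i x hxi) (abs_nonneg _) (hD0 i).le
        have h7 := neg_abs_le (pd e (χ i) x * (g i x - u x))
        have h8 := hτl i
        linarith
      · rw [image_eq_zero_of_notMem_tsupport hxi, pd_zero_of_notMem hxi]
        have : 0 < lam / 2 * (1 / 2 : ℝ) ^ (i + 1) := by positivity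
        linarith
    have e3 := Finset.sum_le_sum e2
    rw [← e1, Finset.sum_neg_distrib, ← Finset.mul_sum] at e3
    have := sum_q m
    nlinarith

end Vale.Agent.P073
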