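import Vale.Agent.P073.Defs

open MeasureTheory Set Filter Topology
open scoped ContDiff ENNReal

/-!
P073, row INV: the inverse function theorem on the cylinder.
-/

namespace Vale.Agent.P073

namespace Inv

theorem inv_smooth {E : Type*} [NormedAddCommGroup E] [NormedSpace ℝ E] [CompleteSpace E]
    {n : WithTop ℕ∞} (hn : n ≠ 0)
    {U : Set E} (hU : IsOpen U) {F G : E → E} (hF : ContDiffOn ℝ n F U)
    (hG : ∀ x ∈ U, G (F x) = x)
    (hd : ∀ x ∈ U, ∃ L : E ≃L[ℝ] E, HasFDerivAt F (L : E →L[ℝ] E) x) :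
    ContDiffOn ℝ n G (F '' U) := by
  rintro y ⟨x, hx, rfl⟩
  obtain ⟨L, hL⟩ := hd x hx
  have hFx : ContDiffAt ℝ n F x := hF.contDiffAt (hU.mem_nhds hx)
  have h1 := hFx.to_localInverse hL hn
  have hs := hFx.hasStrictFDerivAt' hL hn
  have h2 := hs.eventually_right_inverse
  have h3 : ∀ᶠ y in 𝓝 (F x), hs.localInverse F L x y ∈ U :=
    hs.localInverse_tendsto (hU.mem_nhds hx)
  refine (h1.congr_of_eventuallyEq ?_).contDiffWithinAt
  filter_upwards [h2, h3] with y hy2 hy3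
  have h4 := hG _ hy3
  rw [hy2] at h4
  exact h4

/-- the projection to the first coordinates, as a continuous linear map -/
noncomputable def iniL (n : ℕ) : X (n + 1) →L[ℝ] X n :=
  ContinuousLinearMap.pi fun i => ContinuousLinearMap.proj i.castSucc

theorem iniL_apply {n : ℕ} (y : X (n + 1)) : iniL n y = ini y := rfl

theorem diffeo_inj {n : ℕ} {Ω Λ : Set (X n)} (hΩ : IsOpen Ω) (hΛ : IsOpen Λ) {φ : X n → X n}
    (hφ : IsDiffeo φ Ω Λ) {x : X n} (hx : x ∈ Ω) {v : X n} (hv : fderiv ℝ φ x v = 0) : v = 0 := by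
  obtain ⟨h1, h2, k, h3, h4, h5, h6⟩ := hφ
  have hd1 : DifferentiableAt ℝ φ x := (h1.contDiffAt (hΩ.mem_nhds hx)).differentiableAt (by simp)
  have hd2 : DifferentiableAt ℝ k (φ x) :=
    (h3.contDiffAt (hΛ.mem_nhds (h2 hx))).differentiableAt (by simp)
  have h7 : HasFDerivAt (fun y => k (φ y)) ((fderiv ℝ k (φ x)).comp (fderiv ℝ φ x)) x :=
    hd2.hasFDerivAt.comp x hd1.hasFDerivAt
  have h8 : HasFDerivAt (fun y => k (φ y)) (ContinuousLinearMap.id ℝ (X n)) x := by
    refine (hasFDerivAt_id x).congr_of_eventuallyEq ?_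
    filter_upwards [hΩ.mem_nhds hx] with y hy
    exact h5 y hy
  have h9 := h7.unique h8
  have h10 := congrArg (fun L : X n →L[ℝ] X n => L v) h9
  simp only [ContinuousLinearMap.comp_apply, hv, map_zero] at h10
  exact h10.symm

theorem eq_single {n : ℕ} {v : X (n + 1)} (h : ini v = 0) :
    v = v (Fin.last n) • (Pi.single (Fin.last n) 1 : X (n + 1)) := by
  funext i
  refine Fin.lastCases ?_ (fun i => ?_) i
  · simp
  · have h1 : v i.castSucc = 0 := congrFun h i
    rw [h1, Pi.smul_apply, Pi.single_eq_of_ne (Fin.castSucc_lt_last i).ne, smul_zero]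

theorem exists_equiv {n : ℕ} {Ω Λ : Set (X n)} (hΩ : IsOpen Ω) (hΛ : IsOpen Λ) {φ : X n → X n}
    (hφ : IsDiffeo φ Ω Λ) {w : X (n + 1) → ℝ} {y : X (n + 1)} (hy : ini y ∈ Ω)
    (hwd : DifferentiableAt ℝ w y) (hpos : 0 < pd (Fin.last n) w y)
    (hFd : DifferentiableAt ℝ (fun y => jn (φ (ini y)) (w y)) y) :
    ∃ L : X (n + 1) ≃L[ℝ] X (n + 1),
      HasFDerivAt (fun y => jn (φ (ini y)) (w y)) (L : X (n + 1) →L[ℝ] X (n + 1)) y := by
  set F : X (n + 1) → X (n + 1) := fun y => jn (φ (ini y)) (w y) with hF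
  set F' := fderiv ℝ F y with hF'
  have hd1 : DifferentiableAt ℝ φ (ini y) :=
    (hφ.1.contDiffAt (hΩ.mem_nhds hy)).differentiableAt (by simp)
  have e1 : (iniL n).comp F' = (fderiv ℝ φ (ini y)).comp (iniL n) := by
    have h1 : HasFDerivAt (fun y => iniL n (F y)) ((iniL n).comp F') y :=
      (iniL n).hasFDerivAt.comp y hFd.hasFDerivAt
    have h2 : HasFDerivAt (fun y => φ (iniL n y)) ((fderiv ℝ φ (ini y)).comp (iniL n)) y :=
      HasFDerivAt.comp y (f := fun y => iniL n y) hd1.hasFDerivAt (iniL n).hasFDerivAt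
    have h3 : (fun y => iniL n (F y)) = fun y => φ (iniL n y) := by
      funext y
      simp only [iniL_apply, hF, ini_jn]
    rw [h3] at h1
    exact h1.unique h2
  have e2 : (ContinuousLinearMap.proj (R := ℝ) (φ := fun _ : Fin (n + 1) => ℝ)
      (Fin.last n)).comp F' = fderiv ℝ w y := by
    have h1 : HasFDerivAt (fun y => (ContinuousLinearMap.proj (R := ℝ)
        (φ := fun _ : Fin (n + 1) => ℝ) (Fin.last n)) (F y))
        ((ContinuousLinearMap.proj (R := ℝ) (φ := fun _ : Fin (n + 1) => ℝ)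
          (Fin.last n)).comp F') y :=
      (ContinuousLinearMap.proj (R := ℝ) (φ := fun _ : Fin (n + 1) => ℝ)
        (Fin.last n)).hasFDerivAt.comp y hFd.hasFDerivAt
    have h3 : (fun y => (ContinuousLinearMap.proj (R := ℝ)
        (φ := fun _ : Fin (n + 1) => ℝ) (Fin.last n)) (F y)) = w := by
      funext y
      simp only [ContinuousLinearMap.proj_apply, hF, last_jn]
    rw [h3] at h1
    exact h1.unique hwd.hasFDerivAt
  have hinj : Function.Injective (F' : X (n + 1) →ₗ[ℝ] X (n + 1)) := by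
    rw [← LinearMap.ker_eq_bot, LinearMap.ker_eq_bot']
    intro v hv
    have hv' : F' v = 0 := hv
    have h1 : fderiv ℝ φ (ini y) (ini v) = 0 := by
      have h2 := congrArg (fun L : X (n + 1) →L[ℝ] X n => L v) e1
      simp only [ContinuousLinearMap.comp_apply, hv', map_zero] at h2
      exact h2.symm
    have h2 : ini v = 0 := diffeo_inj hΩ hΛ hφ hy h1
    have h3 : fderiv ℝ w y v = 0 := by
      have h4 := congrArg (fun L : X (n + 1) →L[ℝ] ℝ => L v) e2
      simp only [ContinuousLinearMap.comp_apply, hv', map_zero] at h4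
      exact h4.symm
    rw [eq_single h2, map_smul, smul_eq_mul] at h3
    rcases mul_eq_zero.1 h3 with h5 | h5
    · rw [eq_single h2, h5, zero_smul]
    · exact absurd h5 hpos.ne'
  refine ⟨(LinearEquiv.ofInjectiveEndo (F' : X (n + 1) →ₗ[ℝ] X (n + 1))
    hinj).toContinuousLinearEquiv, ?_⟩
  have h6 : (((LinearEquiv.ofInjectiveEndo (F' : X (n + 1) →ₗ[ℝ] X (n + 1))
      hinj).toContinuousLinearEquiv : X (n + 1) ≃L[ℝ] X (n + 1)) :
        X (n + 1) →L[ℝ] X (n + 1)) = F' := by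
    ext v
    rfl
  rw [h6]
  exact hFd.hasFDerivAt

end Inv

/-- ROW INV (file Inv.lean): inverse function theorem on the cylinder. -/
theorem inv {n : ℕ} {Ω Λ : Set (X n)} (hΩ : IsOpen Ω) (hΛ : IsOpen Λ) {φ : X n → X n}
    (hφ : IsDiffeo φ Ω Λ) {w : X (n + 1) → ℝ} (hw : ContDiffOn ℝ ∞ w (Cyl Ω))
    (hpos : ∀ y ∈ Cyl Ω, 0 < pd (Fin.last n) w y)
    (hbij : ∀ x ∈ Ω, BijOn (fun z => w (jn x z)) (Ioo 0 1) (Ioo 0 1)) :
    IsDiffeo (fun y => jn (φ (ini y)) (w y)) (Cyl Ω) (Cyl Λ) := by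
  classical
  set F : X (n + 1) → X (n + 1) := fun y => jn (φ (ini y)) (w y) with hF
  have hini : ContDiff ℝ ∞ (ini : X (n + 1) → X n) := (Inv.iniL n).contDiff
  have hsm : ContDiffOn ℝ ∞ F (Cyl Ω) := by
    rw [contDiffOn_pi]
    intro i
    refine Fin.lastCases ?_ (fun i => ?_) i
    · simp only [hF, last_jn]
      exact hw
    · simp only [hF, castSucc_jn]
      have h1 : ContDiffOn ℝ ∞ (fun y => φ (ini y)) (Cyl Ω) :=
        hφ.1.comp hini.contDiffOn (fun y hy => hy.1)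
      exact (contDiffOn_pi.1 h1) i
  have hmaps : MapsTo F (Cyl Ω) (Cyl Λ) := by
    intro y hy
    have h1 := (hbij _ hy.1).mapsTo (⟨hy.2.1, hy.2.2⟩ : y (Fin.last n) ∈ Ioo (0 : ℝ) 1)
    simp only [jn_ini] at h1
    refine ⟨?_, ?_, ?_⟩
    · simp only [hF, ini_jn]
      exact hφ.2.1 hy.1
    · simp only [hF, last_jn]
      exact h1.1
    · simp only [hF, last_jn]
      exact h1.2
  have hinj : InjOn F (Cyl Ω) := by
    intro y hy y' hy' h
    obtain ⟨-, -, k, -, -, hk, -⟩ := hφ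
    have h1 : φ (ini y) = φ (ini y') := by
      have := congrArg ini h
      simpa only [hF, ini_jn] using this
    have h2 : w y = w y' := by
      have := congrFun h (Fin.last n)
      simpa only [hF, last_jn] using this
    have h3 : ini y = ini y' := by
      rw [← hk _ hy.1, ← hk _ hy'.1, h1]
    have h4 : y (Fin.last n) = y' (Fin.last n) := by
      refine (hbij _ hy.1).injOn ⟨hy.2.1, hy.2.2⟩ ⟨hy'.2.1, hy'.2.2⟩ ?_
      change w (jn (ini y) (y (Fin.last n))) = w (jn (ini y) (y' (Fin.last n)))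
      rw [jn_ini, h3, jn_ini, h2]
    rw [← jn_ini y, ← jn_ini y', h3, h4]
  have hsurj : SurjOn F (Cyl Ω) (Cyl Λ) := by
    intro u hu
    obtain ⟨-, -, k, -, hkm, -, hk⟩ := hφ
    have hx := hkm hu.1
    obtain ⟨z, hz, hwz⟩ := (hbij _ hx).surjOn
      (⟨hu.2.1, hu.2.2⟩ : u (Fin.last n) ∈ Ioo (0 : ℝ) 1)
    refine ⟨jn (k (ini u)) z, ⟨?_, ?_, ?_⟩, ?_⟩
    · rw [ini_jn]
      exact hx
    · rw [last_jn]
      exact hz.1
    · rw [last_jn]
      exact hz.2
    · simp only [hF, ini_jn]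
      have h5 : w (jn (k (ini u)) z) = u (Fin.last n) := hwz
      rw [h5, hk _ hu.1, jn_ini]
  have himg : F '' Cyl Ω = Cyl Λ := (BijOn.mk hmaps hinj hsurj).image_eq
  have hne : Nonempty (X (n + 1)) := ⟨0⟩
  have hleft : ∀ y ∈ Cyl Ω, Function.invFunOn F (Cyl Ω) (F y) = y := fun y hy =>
    hinj.leftInvOn_invFunOn hy
  have hd : ∀ y ∈ Cyl Ω, ∃ L : X (n + 1) ≃L[ℝ] X (n + 1),
      HasFDerivAt F (L : X (n + 1) →L[ℝ] X (n + 1)) y := by
    intro y hy
    have hn := (isOpen_Cyl hΩ).mem_nhds hy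
    exact Inv.exists_equiv hΩ hΛ hφ hy.1 ((hw.contDiffAt hn).differentiableAt (by simp))
      (hpos y hy) ((hsm.contDiffAt hn).differentiableAt (by simp))
  refine ⟨hsm, hmaps, Function.invFunOn F (Cyl Ω), ?_, ?_, hleft, ?_⟩
  · rw [← himg]
    exact Inv.inv_smooth (by simp) (isOpen_Cyl hΩ) hsm hleft hd
  · intro u hu
    exact Function.invFunOn_mem (hsurj hu)
  · intro u hu
    exact Function.invFunOn_eq (hsurj hu)

end Vale.Agent.P073
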