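import Vale.Agent.P073.Cube
import Vale.Agent.P073.Congr
import Vale.Agent.P073.CompR
import Vale.Agent.P073.CompL

open MeasureTheory Set Filter Topology
open scoped ContDiff ENNReal

namespace Vale.Agent.P073

theorem invariance {n : ℕ} {p : ℝ≥0∞} (hp : 1 ≤ p) (hp' : p ≠ ⊤) {U Ω Λ V : Set (X n)}
    (hU : IsOpen U) (hbU : Bornology.IsBounded U) (hΩ : IsOpen Ω)
    (hbΩ : Bornology.IsBounded Ω) (hΛ : IsOpen Λ) (hbV : Bornology.IsBounded V)
    {β : X n → X n} (hβ : NiceDiffeo β U Ω) {α : X n → X n} (hα : NiceDiffeo α Λ V)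
    {f : X n → X n} (hfm : MapsTo f Ω Λ) (hf : Approximable p f Ω Λ) :
    Approximable p (fun x => α (f (β x))) U V := by
  have h1 : Approximable p (fun x => f (β x)) U Λ := comp_right hp hp' hU hbU hΩ hbΩ hβ hf
  exact comp_left hp hp' hU hbU hΛ hbV hα (fun x hx => hfm (hβ.2.1 hx)) h1

end Vale.Agent.P073
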