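import Vale.Agent.P073.Defs2
import Vale.Agent.P073.Inv

/-!
# Vertical maps with positive derivative are diffeomorphisms (problem P073)
-/

open MeasureTheory Set Filter Topology
open scoped ContDiff ENNReal

namespace Vale.Agent.P073

namespace InvV

lemma upd_eq {n : ℕ} (e : Fin n) (w : X n → ℝ) (y : X n) :
    Function.update y e (w y) = y + (w y - y e) • (Pi.single e 1 : X n) := by
  funext i
  by_cases h : i = e
  · subst h; simp
  · rw [Function.update_of_ne h, Pi.add_apply, Pi.smul_apply, Pi.single_eq_of_ne h]
    simp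

end InvV

/-- ROW INVV. -/
theorem inv_vert {n : ℕ} {U : Set (X n)} (hU : IsOpen U) (e : Fin n) {w : X n → ℝ}
    (hw : ContDiffOn ℝ ∞ w U) (hpos : ∀ y ∈ U, 0 < pd e w y)
    (hbij : BijOn (fun y => Function.update y e (w y)) U U) :
    IsDiffeo (fun y => Function.update y e (w y)) U U := by
  have hfun : (fun y : X n => Function.update y e (w y)) =
      fun y => y + (w y - y e) • (Pi.single e 1 : X n) := funext (InvV.upd_eq e w)
  set F : X n → X n := fun y => Function.update y e (w y) with hF
  have hFs : ContDiffOn ℝ ∞ F U := by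
    rw [hfun]
    exact contDiffOn_id.add ((hw.sub (contDiff_apply ℝ ℝ e).contDiffOn).smul contDiffOn_const)
  have hleft : ∀ y ∈ U, Function.invFunOn F U (F y) = y := fun y hy =>
    hbij.injOn (Function.invFunOn_mem ⟨y, hy, rfl⟩) hy (Function.invFunOn_eq ⟨y, hy, rfl⟩)
  have hsurj : ∀ u ∈ U, ∃ y ∈ U, F y = u := fun u hu => hbij.surjOn hu
  have himg : F '' U = U := hbij.image_eq
  have hd : ∀ y ∈ U, ∃ L : X n ≃L[ℝ] X n, HasFDerivAt F (L : X n →L[ℝ] X n) y := by
    intro y hy
    have hwd : HasFDerivAt w (fderiv ℝ w y) y :=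
      ((hw.differentiableOn (by simp)).differentiableAt (hU.mem_nhds hy)).hasFDerivAt
    let A : X n →L[ℝ] X n := ContinuousLinearMap.id ℝ (X n) +
      (fderiv ℝ w y - ContinuousLinearMap.proj e).smulRight (Pi.single e 1 : X n)
    have hA : HasFDerivAt F A y := by
      rw [hfun]
      have h1 : HasFDerivAt (fun y : X n => w y - y e)
          (fderiv ℝ w y - ContinuousLinearMap.proj e) y :=
        hwd.sub (ContinuousLinearMap.proj (R := ℝ) (φ := fun _ : Fin n => ℝ) e).hasFDerivAt
      exact (hasFDerivAt_id y).add (h1.smul_const _)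
    have hinj : Function.Injective (A : X n →ₗ[ℝ] X n) := by
      rw [← LinearMap.ker_eq_bot, LinearMap.ker_eq_bot']
      intro v hv
      have hv' : v + (fderiv ℝ w y v - v e) • (Pi.single e 1 : X n) = 0 := hv
      have h2 : v = v e • (Pi.single e 1 : X n) := by
        funext i
        by_cases h : i = e
        · subst h; simp
        · have h3 := congrFun hv' i
          rw [Pi.add_apply, Pi.smul_apply, Pi.single_eq_of_ne h] at h3
          rw [Pi.smul_apply, Pi.single_eq_of_ne h]
          simpa using h3
      have h4 : fderiv ℝ w y v = v e * pd e w y := by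
        conv_lhs => rw [h2]
        rw [map_smul, smul_eq_mul]
        rfl
      have h5 := congrFun hv' e
      rw [Pi.add_apply, Pi.smul_apply, Pi.single_eq_same, h4] at h5
      have h6 : v e * pd e w y = 0 := by
        simp only [smul_eq_mul, mul_one, Pi.zero_apply] at h5
        linarith
      have h7 : v e = 0 := by
        rcases mul_eq_zero.mp h6 with h | h
        · exact h
        · exact absurd h (hpos y hy).ne'
      rw [h2, h7, zero_smul]
    refine ⟨(LinearEquiv.ofInjectiveEndo (A : X n →ₗ[ℝ] X n) hinj).toContinuousLinearEquiv, ?_⟩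
    have h8 : ((LinearEquiv.ofInjectiveEndo (A : X n →ₗ[ℝ] X n) hinj).toContinuousLinearEquiv :
        X n →L[ℝ] X n) = A := by
      ext v
      rfl
    rw [h8]
    exact hA
  refine ⟨hFs, hbij.mapsTo, Function.invFunOn F U, ?_, ?_, hleft, ?_⟩
  · have h9 := Inv.inv_smooth (by simp) hU hFs hleft hd
    rwa [himg] at h9
  · intro u hu
    exact Function.invFunOn_mem (hsurj u hu)
  · intro u hu
    exact Function.invFunOn_eq (hsurj u hu)

end Vale.Agent.P073
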