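import Vale.Agent.P073.Defs

/-!
P073, row LIN: weak derivative of `a u + lam x_e`.
-/

open MeasureTheory Set Filter Topology
open scoped ContDiff ENNReal

namespace Vale.Agent.P073

namespace Lin

variable {N : ℕ}

theorem pd_cont {ψ : X N → ℝ} (h : ContDiff ℝ ∞ ψ) (j : Fin N) : Continuous (pd j ψ) := by
  unfold pd
  exact (h.continuous_fderiv (by simp)).clm_apply continuous_const

theorem pd_zero {ψ : X N → ℝ} (j : Fin N) {x : X N} (hx : x ∉ tsupport ψ) : pd j ψ x = 0 := by
  unfold pd
  rw [fderiv_of_notMem_tsupport ℝ hx]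
  rfl

theorem pd_supp {ψ : X N → ℝ} (hc : HasCompactSupport ψ) (j : Fin N) :
    HasCompactSupport (pd j ψ) := by
  refine HasCompactSupport.intro hc fun x hx => pd_zero j hx

theorem mul_int {U : Set (X N)} {p : ℝ≥0∞} (hb : Bornology.IsBounded U) (hp : 1 ≤ p)
    {u g : X N → ℝ} (hu : MemLp u p (volume.restrict U)) (hg : Continuous g)
    (hc : HasCompactSupport g) : Integrable (fun x => u x * g x) (volume.restrict U) := by
  have hfin : IsFiniteMeasure (volume.restrict U) :=
    ⟨by rw [Measure.restrict_apply_univ]; exact hb.measure_lt_top⟩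
  have hu1 : Integrable u (volume.restrict U) := hu.integrable hp
  obtain ⟨C, hC⟩ := hc.exists_bound_of_continuous hg
  exact hu1.mul_bdd (c := C) hg.aestronglyMeasurable (Eventually.of_forall hC)

theorem coord {U : Set (X N)} (j e : Fin N) {ψ : X N → ℝ} (hψ : ContDiff ℝ ∞ ψ)
    (hc : HasCompactSupport ψ) (hs : tsupport ψ ⊆ U) :
    ∫ x in U, x e * pd j ψ x = - ((if j = e then 1 else 0) * ∫ x in U, ψ x) := by
  have h1 : ∫ x in U, x e * pd j ψ x = ∫ x, x e * pd j ψ x := by
    apply setIntegral_eq_integral_of_forall_compl_eq_zero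
    intro x hx
    rw [pd_zero j (fun h => hx (hs h)), mul_zero]
  have h2 : ∫ x in U, ψ x = ∫ x, ψ x := by
    apply setIntegral_eq_integral_of_forall_compl_eq_zero
    intro x hx
    exact image_eq_zero_of_notMem_tsupport (fun h => hx (hs h))
  rw [h1, h2]
  have hf : ∀ x : X N, fderiv ℝ (fun x : X N => x e) x (Pi.single j 1) =
      if j = e then 1 else 0 := by
    intro x
    have : fderiv ℝ (fun x : X N => x e) x = ContinuousLinearMap.proj (R := ℝ) (φ := fun _ => ℝ) e :=
      (ContinuousLinearMap.proj (R := ℝ) (φ := fun _ : Fin N => ℝ) e).fderiv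
    rw [this]
    simp only [ContinuousLinearMap.proj_apply, Pi.single_apply]
    by_cases h : j = e
    · rw [if_pos h, if_pos h.symm]
    · rw [if_neg h, if_neg (fun h' => h h'.symm)]
  have hcont : Continuous (fun x : X N => x e) := continuous_apply e
  have key := integral_mul_fderiv_eq_neg_fderiv_mul_of_integrable (μ := (volume : Measure (X N)))
    (f := fun x : X N => x e) (g := ψ) (v := Pi.single j 1) ?_ ?_ ?_ ?_ ?_
  · have h3 : ∫ x : X N, x e * pd j ψ x = ∫ x : X N, x e * fderiv ℝ ψ x (Pi.single j 1) := rfl
    rw [h3, key]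
    congr 1
    rw [← integral_const_mul]
    apply integral_congr_ae
    exact Eventually.of_forall fun x => by
      simp only
      rw [hf x]
  · have : (fun x : X N => fderiv ℝ (fun x : X N => x e) x (Pi.single j 1) * ψ x) =
        fun x => (if j = e then 1 else 0) * ψ x := by
      funext x
      rw [hf x]
    rw [this]
    exact (hψ.continuous.integrable_of_hasCompactSupport hc).const_mul _
  · exact ((hcont.mul (pd_cont hψ j)).integrable_of_hasCompactSupport
      ((pd_supp hc j).mul_left))
  · exact ((hcont.mul hψ.continuous).integrable_of_hasCompactSupport (hc.mul_left))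
  · intro x _
    exact (ContinuousLinearMap.proj (R := ℝ) (φ := fun _ : Fin N => ℝ) e).differentiableAt
  · intro x _
    exact hψ.differentiable (by simp) x

end Lin

/-- ROW LIN (file Lin.lean). -/
theorem lin {N : ℕ} {U : Set (X N)} (hU : IsOpen U) (hb : Bornology.IsBounded U)
    (p : ℝ≥0∞) (hp : 1 ≤ p) (j e : Fin N) (u v : X N → ℝ)
    (hu : MemLp u p (volume.restrict U)) (hv : MemLp v p (volume.restrict U))
    (h : IsWeakPartial U j u v) (a lam : ℝ) :
    IsWeakPartial U j (fun x => a * u x + lam * x e)
      (fun x => a * v x + lam * (if j = e then 1 else 0)) := by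
  intro ψ hψ hc hs
  have h1 := h ψ hψ hc hs
  have hi1 : Integrable (fun x => u x * pd j ψ x) (volume.restrict U) :=
    Lin.mul_int hb hp hu (Lin.pd_cont hψ j) (Lin.pd_supp hc j)
  have hi2 : Integrable (fun x => v x * ψ x) (volume.restrict U) :=
    Lin.mul_int hb hp hv hψ.continuous hc
  have hi3 : Integrable (fun x : X N => x e * pd j ψ x) (volume.restrict U) :=
    (((continuous_apply e).mul (Lin.pd_cont hψ j)).integrable_of_hasCompactSupport
      ((Lin.pd_supp hc j).mul_left)).restrict
  have hi4 : Integrable ψ (volume.restrict U) :=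
    (hψ.continuous.integrable_of_hasCompactSupport hc).restrict
  have e1 : ∫ x in U, (a * u x + lam * x e) * pd j ψ x =
      a * (∫ x in U, u x * pd j ψ x) + lam * (∫ x in U, x e * pd j ψ x) := by
    rw [← integral_const_mul, ← integral_const_mul, ← integral_add (hi1.const_mul a)
      (hi3.const_mul lam)]
    congr 1
    funext x
    ring
  have e2 : ∫ x in U, (a * v x + lam * (if j = e then 1 else 0)) * ψ x =
      a * (∫ x in U, v x * ψ x) + lam * ((if j = e then 1 else 0) * (∫ x in U, ψ x)) := by
    rw [← integral_const_mul, ← integral_const_mul, ← integral_const_mul,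
      ← integral_add (hi2.const_mul a) ((hi4.const_mul _).const_mul lam)]
    congr 1
    funext x
    ring
  rw [e1, e2, h1, Lin.coord j e hψ hc hs]
  ring

end Vale.Agent.P073
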