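import Vale.Agent.P073.Flip
import Vale.Agent.P073.Bij
import Vale.Agent.P073.Dir
import Vale.Agent.P073.Fub
import Vale.Agent.P073.Inv
import Vale.Agent.P073.Glue

open MeasureTheory Set Filter Topology
open scoped ContDiff ENNReal

namespace Vale.Agent.P073

theorem IsWeakPartial.congr {n : ℕ} {Ω : Set (X n)} (hΩ : MeasurableSet Ω) {j : Fin n}
    {u v u' v' : X n → ℝ} (h : IsWeakPartial Ω j u v) (hu : ∀ x ∈ Ω, u' x = u x)
    (hv : ∀ x ∈ Ω, v' x = v x) : IsWeakPartial Ω j u' v' := by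
  intro ψ h1 h2 h3
  have e1 : ∫ x in Ω, u' x * pd j ψ x = ∫ x in Ω, u x * pd j ψ x :=
    setIntegral_congr_fun hΩ (fun x hx => by simp only [hu x hx])
  have e2 : ∫ x in Ω, v' x * ψ x = ∫ x in Ω, v x * ψ x :=
    setIntegral_congr_fun hΩ (fun x hx => by simp only [hv x hx])
  rw [e1, e2]
  exact h ψ h1 h2 h3

theorem continuous_ini {n : ℕ} : Continuous (ini : X (n + 1) → X n) := by
  unfold ini; fun_prop

/-- `ini` as a continuous linear map. -/
noncomputable def iniL (n : ℕ) : X (n + 1) →L[ℝ] X n :=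
  ContinuousLinearMap.pi (fun i => ContinuousLinearMap.proj i.castSucc)

theorem iniL_apply {n : ℕ} (y : X (n + 1)) : iniL n y = ini y := rfl

theorem ini_single_castSucc {n : ℕ} (j : Fin n) :
    ini (Pi.single j.castSucc (1 : ℝ) : X (n + 1)) = Pi.single j 1 := by
  funext i
  simp only [ini, Pi.single_apply, Fin.castSucc_inj]

theorem ini_single_last {n : ℕ} :
    ini (Pi.single (Fin.last n) (1 : ℝ) : X (n + 1)) = 0 := by
  funext i
  simp [ini, Fin.castSucc_ne_last]

theorem pd_comp_ini {n : ℕ} (j : Fin (n + 1)) {g : X n → ℝ} {y : X (n + 1)}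
    (hg : DifferentiableAt ℝ g (ini y)) :
    pd j (fun y => g (ini y)) y = fderiv ℝ g (ini y) (ini (Pi.single j 1)) := by
  unfold pd
  have h1 : HasFDerivAt (fun y => g (ini y)) ((fderiv ℝ g (ini y)).comp (iniL n)) y := by
    have h2 : HasFDerivAt (fun y : X (n + 1) => ini y) (iniL n) y := (iniL n).hasFDerivAt
    exact hg.hasFDerivAt.comp y h2
  rw [h1.fderiv]
  rfl

theorem pd_comp_ini_castSucc {n : ℕ} (j : Fin n) {g : X n → ℝ} {y : X (n + 1)}
    (hg : DifferentiableAt ℝ g (ini y)) :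
    pd j.castSucc (fun y => g (ini y)) y = pd j g (ini y) := by
  rw [pd_comp_ini _ hg, ini_single_castSucc]; rfl

theorem pd_comp_ini_last {n : ℕ} {g : X n → ℝ} {y : X (n + 1)}
    (hg : DifferentiableAt ℝ g (ini y)) :
    pd (Fin.last n) (fun y => g (ini y)) y = 0 := by
  rw [pd_comp_ini _ hg, ini_single_last]; simp

theorem isBounded_Cyl {n : ℕ} {Ω : Set (X n)} (hb : Bornology.IsBounded Ω) :
    Bornology.IsBounded (Cyl Ω) := by
  obtain ⟨R, hR⟩ := (Metric.isBounded_iff_subset_closedBall (0 : X n)).1 hb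
  refine (Metric.isBounded_iff_subset_closedBall (0 : X (n + 1))).2 ⟨max R 1, fun y hy => ?_⟩
  have h1 := hR hy.1
  rw [mem_closedBall_zero_iff] at h1 ⊢
  refine (pi_norm_le_iff_of_nonneg (le_trans zero_le_one (le_max_right _ _))).2 (fun i => ?_)
  refine Fin.lastCases ?_ (fun i => ?_) i
  · rw [Real.norm_eq_abs, abs_le]
    have := hy.2
    have h2 := le_max_right R 1
    constructor <;> linarith [this.1, this.2]
  · exact le_trans (norm_le_pi_norm (ini y) i) (le_trans h1 (le_max_left _ _))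

theorem memLp_comp_ini {n : ℕ} {Ω : Set (X n)} (hΩ : MeasurableSet Ω) {p : ℝ≥0∞}
    {g : X n → ℝ} (hg : MemLp g p (volume.restrict Ω)) :
    MemLp (fun y => g (ini y)) p (volume.restrict (Cyl Ω)) :=
  hg.comp_measurePreserving (fub1 hΩ)

theorem eLpNorm_comp_ini {n : ℕ} {Ω : Set (X n)} (hΩ : MeasurableSet Ω) {p : ℝ≥0∞}
    {g : X n → ℝ} (hg : AEStronglyMeasurable g (volume.restrict Ω)) :
    eLpNorm (fun y => g (ini y)) p (volume.restrict (Cyl Ω)) = eLpNorm g p (volume.restrict Ω) :=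
  eLpNorm_comp_measurePreserving hg (fub1 hΩ)

theorem continuousOn_pd {n : ℕ} {Ω : Set (X n)} (hΩ : IsOpen Ω) {w : X n → ℝ}
    (hw : ContDiffOn ℝ ∞ w Ω) (j : Fin n) : ContinuousOn (pd j w) Ω := by
  have h1 : ContinuousOn (fderiv ℝ w) Ω := hw.continuousOn_fderiv_of_isOpen hΩ (by simp)
  exact h1.clm_apply continuousOn_const

/-- The weak derivative matrix over the cylinder. -/
noncomputable def mat {n : ℕ} (Fφ : X n → Fin n → Fin n → ℝ) (V : X (n + 1) → Fin (n + 1) → ℝ) :
    X (n + 1) → Fin (n + 1) → Fin (n + 1) → ℝ :=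
  fun y i j => Fin.lastCases (motive := fun _ => ℝ) (V y j)
    (fun i' => Fin.lastCases (motive := fun _ => ℝ) 0 (fun j' => Fφ (ini y) i' j') j) i

@[simp] theorem mat_last {n : ℕ} (Fφ : X n → Fin n → Fin n → ℝ)
    (V : X (n + 1) → Fin (n + 1) → ℝ) (y : X (n + 1)) (j : Fin (n + 1)) :
    mat Fφ V y (Fin.last n) j = V y j := by simp [mat]

@[simp] theorem mat_cs_last {n : ℕ} (Fφ : X n → Fin n → Fin n → ℝ)
    (V : X (n + 1) → Fin (n + 1) → ℝ) (y : X (n + 1)) (i : Fin n) :
    mat Fφ V y i.castSucc (Fin.last n) = 0 := by simp [mat]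

@[simp] theorem mat_cs_cs {n : ℕ} (Fφ : X n → Fin n → Fin n → ℝ)
    (V : X (n + 1) → Fin (n + 1) → ℝ) (y : X (n + 1)) (i j : Fin n) :
    mat Fφ V y i.castSucc j.castSucc = Fφ (ini y) i j := by simp [mat]

theorem mat_W1p {n : ℕ} {p : ℝ≥0∞} (hp : 1 ≤ p) {Ω : Set (X n)}
    (hΩ : IsOpen Ω) (hb : Bornology.IsBounded Ω) {φ : X n → X n}
    {Fφ : X n → Fin n → Fin n → ℝ} (hφ : InW1p Ω p φ Fφ)
    {f : X (n + 1) → X (n + 1)} {F : X (n + 1) → Fin (n + 1) → Fin (n + 1) → ℝ}
    (hF : InW1p (Cyl Ω) p f F) (hfib : ∀ y ∈ Cyl Ω, ini (f y) = φ (ini y)) :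
    InW1p (Cyl Ω) p f (mat Fφ (fun y => F y (Fin.last n))) := by
  have hC : MeasurableSet (Cyl Ω) := (isOpen_Cyl hΩ).measurableSet
  refine ⟨hF.1, fun i j => ?_⟩
  refine Fin.lastCases ?_ (fun i => ?_) i
  · simp only [mat_last]
    exact hF.2 (Fin.last n) j
  · have hfi : ∀ y ∈ Cyl Ω, f y i.castSucc = φ (ini y) i := fun y hy => by
      have := congrFun (hfib y hy) i
      exact this
    refine Fin.lastCases ?_ (fun j => ?_) j
    · simp only [mat_cs_last]
      refine ⟨MemLp.zero', ?_⟩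
      exact (fub3 hΩ hb p hp (fun x => φ x i) (hφ.1 i)).congr hC hfi (fun _ _ => rfl)
    · simp only [mat_cs_cs]
      refine ⟨memLp_comp_ini hΩ.measurableSet (hφ.2 i j).1, ?_⟩
      exact (fub2 hΩ hb p hp j (fun x => φ x i) (fun x => Fφ x i j) (hφ.1 i) (hφ.2 i j).1
        (hφ.2 i j).2).congr hC hfi (fun _ _ => rfl)

theorem bound_const {N : ℕ} {U : Set (X N)} (hU : IsOpen U) (hb : Bornology.IsBounded U)
    (p : ℝ≥0∞) : ∃ A : ℝ, 0 ≤ A ∧ ∀ c : ℝ, 0 ≤ c → ∀ q : X N → ℝ, (∀ y ∈ U, |q y| ≤ c) →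
      eLpNorm q p (volume.restrict U) ≤ ENNReal.ofReal (A * c) := by
  have hfin : (volume.restrict U) univ ≠ ⊤ := by
    rw [Measure.restrict_apply_univ]; exact hb.measure_lt_top.ne
  refine ⟨((volume.restrict U) univ ^ p.toReal⁻¹).toReal, ENNReal.toReal_nonneg, ?_⟩
  intro c hc q hq
  have h1 : ∀ᵐ x ∂(volume.restrict U), ‖q x‖ ≤ c :=
    (ae_restrict_iff' hU.measurableSet).2 (Eventually.of_forall (fun x hx => hq x hx))
  refine (eLpNorm_le_of_ae_bound h1).trans ?_
  rw [ENNReal.ofReal_mul ENNReal.toReal_nonneg, ENNReal.ofReal_toReal]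
  exact ENNReal.rpow_ne_top_of_nonneg (inv_nonneg.2 ENNReal.toReal_nonneg) hfin

theorem add_single_jn {n : ℕ} (y : X (n + 1)) (t : ℝ) :
    y + t • (Pi.single (Fin.last n) 1 : X (n + 1)) = jn (ini y) (y (Fin.last n) + t) := by
  funext i
  refine Fin.lastCases ?_ (fun i => ?_) i
  · simp
  · simp [ini]

theorem mainInc {n : ℕ} (p : ℝ≥0∞) (hp : 1 ≤ p) (hp' : p ≠ ⊤) {Ω Λ : Set (X n)}
    (hΩ : IsOpen Ω) (hbΩ : Bornology.IsBounded Ω)
    (hΛ : IsOpen Λ)
    {φ : X n → X n} (happ : Approximable p φ Ω Λ)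
    {f : X (n + 1) → X (n + 1)} (hfh : IsHomeo f (Cyl Ω) (Cyl Λ))
    (F : X (n + 1) → Fin (n + 1) → Fin (n + 1) → ℝ) (hF : InW1p (Cyl Ω) p f F)
    (hfib : ∀ y ∈ Cyl Ω, ini (f y) = φ (ini y))
    (hbij : ∀ x ∈ Ω, BijOn (fun z => f (jn x z) (Fin.last n)) (Ioo 0 1) (Ioo 0 1))
    (hmono : ∀ x ∈ Ω, StrictMonoOn (fun z => f (jn x z) (Fin.last n)) (Ioo 0 1)) :
    Approximable p f (Cyl Ω) (Cyl Λ) := by
  obtain ⟨Fφ, hFφ, hφap⟩ := happ
  have hCo : IsOpen (Cyl Ω) := isOpen_Cyl hΩ
  have hCm : MeasurableSet (Cyl Ω) := hCo.measurableSet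
  have hCb : Bornology.IsBounded (Cyl Ω) := isBounded_Cyl hbΩ
  refine ⟨mat Fφ (fun y => F y (Fin.last n)), mat_W1p hp hΩ hbΩ hFφ hF hfib, ?_⟩
  intro ε hε
  obtain ⟨A, hA0, hA⟩ := bound_const hCo hCb p
  set μ : Measure (X (n + 1)) := volume.restrict (Cyl Ω) with hμ
  have : IsFiniteMeasure μ := ⟨by
    rw [hμ, Measure.restrict_apply_univ]; exact hCb.measure_lt_top⟩
  set h : X (n + 1) → ℝ := fun y => f y (Fin.last n) with hh
  set V : Fin (n + 1) → X (n + 1) → ℝ := fun j y => F y (Fin.last n) j with hV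
  have hVm : ∀ j, MemLp (V j) p μ := fun j => (hF.2 (Fin.last n) j).1
  have hVw : ∀ j, IsWeakPartial (Cyl Ω) j h (V j) := fun j => (hF.2 (Fin.last n) j).2
  have hhm : MemLp h p μ := hF.1 (Fin.last n)
  set d : Fin (n + 1) → ℝ := fun j => if j = Fin.last n then 1 else 0 with hd
  set Bf : Fin (n + 1) → ℝ := fun j => (eLpNorm (fun y => d j - V j y) p μ).toReal with hBf
  have hdV : ∀ j, MemLp (fun y => d j - V j y) p μ := fun j =>
    (memLp_const (d j)).sub (hVm j)
  set B : ℝ := ∑ j, Bf j with hB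
  have hBf0 : ∀ j, 0 ≤ Bf j := fun j => ENNReal.toReal_nonneg
  have hB0 : 0 ≤ B := Finset.sum_nonneg (fun j _ => hBf0 j)
  have hBj : ∀ j, Bf j ≤ B := fun j =>
    Finset.single_le_sum (f := Bf) (fun i _ => hBf0 i) (Finset.mem_univ j)
  set D : ℝ := 1 + A + B with hD
  have hD1 : 1 ≤ D := by rw [hD]; linarith
  have hD0 : 0 < D := by linarith
  set η : ℝ := ε / (4 * D) with hη
  have hη0 : 0 < η := by positivity
  have hηD : η * D = ε / 4 := by rw [hη]; field_simp
  set lam : ℝ := min (1 / 2) η with hlam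
  have hlam0 : 0 < lam := lt_min (by norm_num) hη0
  have hlam1 : lam < 1 := lt_of_le_of_lt (min_le_left _ _) (by norm_num)
  have hlamη : lam ≤ η := min_le_right _ _
  -- the modified height
  set u : X (n + 1) → ℝ := fun y => (1 - lam) * h y + lam * y (Fin.last n) with hu
  set v : Fin (n + 1) → X (n + 1) → ℝ := fun j y => (1 - lam) * V j y + lam * d j with hv
  have hzc : MemLp (fun y : X (n + 1) => y (Fin.last n)) p μ := by
    refine MemLp.of_bound (C := 1) (measurable_pi_apply _).aestronglyMeasurable ?_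
    refine (ae_restrict_iff' hCm).2 (Eventually.of_forall (fun y hy => ?_))
    rw [Real.norm_eq_abs, abs_le]
    exact ⟨by linarith [hy.2.1], hy.2.2.le⟩
  have hum : MemLp u p μ := (hhm.const_mul (1 - lam)).add (hzc.const_mul lam)
  have hvm : ∀ j, MemLp (v j) p μ := fun j =>
    ((hVm j).const_mul (1 - lam)).add (memLp_const (lam * d j))
  have huw : ∀ j, IsWeakPartial (Cyl Ω) j u (v j) := fun j =>
    lin hCo hCb p hp j (Fin.last n) h (V j) hhm (hVm j) (hVw j) (1 - lam) lam
  have hhc : ContinuousOn h (Cyl Ω) := by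
    have := (continuous_apply (Fin.last n)).comp_continuousOn hfh.1
    exact this
  have huc : ContinuousOn u (Cyl Ω) := by
    refine (continuousOn_const.mul hhc).add ?_
    exact (by fun_prop : Continuous fun y : X (n + 1) => lam * y (Fin.last n)).continuousOn
  have hmon : ∀ x ∈ Cyl Ω, ∀ t : ℝ, 0 < t →
      (∀ s ∈ Icc 0 t, x + s • (Pi.single (Fin.last n) 1 : X (n + 1)) ∈ Cyl Ω) →
      u x + lam * t ≤ u (x + t • (Pi.single (Fin.last n) 1 : X (n + 1))) := by
    intro y hy t ht hs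
    have h1 := hs t ⟨ht.le, le_refl _⟩
    rw [add_single_jn] at h1 ⊢
    have h2 : y (Fin.last n) + t ∈ Ioo (0 : ℝ) 1 := by
      have := h1.2; simp only [last_jn] at this; exact this
    have h3 := (hmono (ini y) hy.1).monotoneOn hy.2 h2 (by linarith)
    simp only [jn_ini] at h3
    simp only [hu, hh, last_jn]
    have h4 : (1 - lam) * f y (Fin.last n)
        ≤ (1 - lam) * f (jn (ini y) (y (Fin.last n) + t)) (Fin.last n) :=
      mul_le_mul_of_nonneg_left h3 (by linarith)
    linarith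
  obtain ⟨w, hwC, hwδ, hwη, hwp, hwpos⟩ := glue (Cyl Ω) hCo hCb p hp hp' u huc hum v hvm huw
    (Fin.last n) lam hlam0 hmon (fun y => y (Fin.last n) * (1 - y (Fin.last n)))
    (by fun_prop) (fun y hy => mul_pos hy.2.1 (by linarith [hy.2.2])) η hη0
  have hwb := bij hΩ (h := h) (w := w) (fun x hx => ⟨hmono x hx, hbij x hx⟩) lam hlam0 hlam1
    hwC hwpos hwδ
  obtain ⟨g, hgd, hgm, hgdm, hge, hgde⟩ := hφap ε hε
  have hgC : ∀ i, ContDiffOn ℝ ∞ (fun x => g x i) Ω := fun i => by
    have := (contDiffOn_pi.1 hgd.1) i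
    exact this
  have hgdiff : ∀ i, ∀ y ∈ Cyl Ω, DifferentiableAt ℝ (fun x => g x i) (ini y) := fun i y hy =>
    ((hgC i).differentiableOn (by simp)).differentiableAt (hΩ.mem_nhds hy.1)
  -- the estimates for `w`
  have hwh : ∀ y ∈ Cyl Ω, |w y - h y| ≤ η + lam := by
    intro y hy
    have h1 := hwη y hy
    have h2 : u y - h y = lam * (y (Fin.last n) - h y) := by simp only [hu]; ring
    have h3 : h y ∈ Ioo (0 : ℝ) 1 := (hfh.2.1 hy).2
    have h4 : |y (Fin.last n) - h y| ≤ 1 := by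
      rw [abs_le]; constructor <;> linarith [h3.1, h3.2, hy.2.1, hy.2.2]
    have h5 : |u y - h y| ≤ lam := by
      rw [h2, abs_mul, abs_of_pos hlam0]
      nlinarith
    calc |w y - h y| = |(w y - u y) + (u y - h y)| := by ring_nf
      _ ≤ |w y - u y| + |u y - h y| := abs_add_le _ _
      _ ≤ η + lam := add_le_add h1 h5
  have hwsm : AEStronglyMeasurable w μ := hwC.continuousOn.aestronglyMeasurable hCm
  have hwhp : eLpNorm (fun y => w y - h y) p μ ≤ ENNReal.ofReal ε := by
    refine (hA (η + lam) (by positivity) _ hwh).trans (ENNReal.ofReal_le_ofReal ?_)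
    have : A * (η + lam) ≤ D * (2 * η) := by
      apply mul_le_mul <;> linarith
    nlinarith
  have hpdw : ∀ j, eLpNorm (fun y => pd j w y - V j y) p μ ≤ ENNReal.ofReal ε := by
    intro j
    have e1 : (fun y => pd j w y - V j y)
        = (fun y => pd j w y - v j y) + (lam • fun y => d j - V j y) := by
      funext y; simp only [Pi.add_apply, Pi.smul_apply, smul_eq_mul, hv]; ring
    have hms : AEStronglyMeasurable (pd j w) μ :=
      (continuousOn_pd hCo hwC j).aestronglyMeasurable hCm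
    rw [e1]
    refine (eLpNorm_add_le (hms.sub (hvm j).1) ((hdV j).1.const_smul lam) hp).trans ?_
    rw [eLpNorm_const_smul]
    have h2 : eLpNorm (fun y => d j - V j y) p μ = ENNReal.ofReal (Bf j) := by
      simp only [hBf]; rw [ENNReal.ofReal_toReal (hdV j).2.ne]
    rw [h2, Real.enorm_eq_ofReal hlam0.le, ← ENNReal.ofReal_mul hlam0.le]
    refine (add_le_add (hwp j) le_rfl).trans ?_
    rw [← ENNReal.ofReal_add hη0.le (mul_nonneg hlam0.le (hBf0 j))]
    refine ENNReal.ofReal_le_ofReal ?_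
    have h3 : lam * Bf j ≤ η * B := mul_le_mul hlamη (hBj j) (hBf0 j) hη0.le
    nlinarith
  refine ⟨fun y => jn (g (ini y)) (w y), inv hΩ hΛ hgd hwC hwpos hwb, ?_, ?_, ?_, ?_⟩
  · intro i
    refine Fin.lastCases ?_ (fun i => ?_) i
    · simp only [last_jn]
      have h1 : MemLp (fun y => w y - h y) p μ :=
        ⟨hwsm.sub hhm.1, lt_of_le_of_lt hwhp ENNReal.ofReal_lt_top⟩
      have h2 := h1.add hhm
      refine h2.congr_norm hwsm ?_
      exact Eventually.of_forall (fun y => by simp)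
    · simp only [castSucc_jn]
      exact memLp_comp_ini hΩ.measurableSet (hgm i)
  · intro i j
    refine Fin.lastCases ?_ (fun i => ?_) i
    · simp only [last_jn]
      have hms : AEStronglyMeasurable (pd j w) μ :=
        (continuousOn_pd hCo hwC j).aestronglyMeasurable hCm
      have h1 : MemLp (fun y => pd j w y - V j y) p μ :=
        ⟨hms.sub (hVm j).1, lt_of_le_of_lt (hpdw j) ENNReal.ofReal_lt_top⟩
      have h2 := h1.add (hVm j)
      refine h2.congr_norm hms ?_
      exact Eventually.of_forall (fun y => by simp)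
    · simp only [castSucc_jn]
      refine Fin.lastCases ?_ (fun j => ?_) j
      · refine (MemLp.zero' (p := p) (μ := μ) (ε := ℝ)).ae_eq ?_
        refine (ae_restrict_iff' hCm).2 (Eventually.of_forall (fun y hy => ?_))
        exact (pd_comp_ini_last (hgdiff i y hy)).symm
      · refine (memLp_comp_ini hΩ.measurableSet (hgdm i j)).ae_eq ?_
        refine (ae_restrict_iff' hCm).2 (Eventually.of_forall (fun y hy => ?_))
        exact (pd_comp_ini_castSucc j (hgdiff i y hy)).symm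
  · intro i
    refine Fin.lastCases ?_ (fun i => ?_) i
    · simp only [last_jn]
      exact hwhp
    · simp only [castSucc_jn]
      have e1 : eLpNorm (fun y => g (ini y) i - f y i.castSucc) p μ
          = eLpNorm (fun y => (fun x => g x i - φ x i) (ini y)) p μ := by
        refine eLpNorm_congr_ae ?_
        refine (ae_restrict_iff' hCm).2 (Eventually.of_forall (fun y hy => ?_))
        have := congrFun (hfib y hy) i
        simp only [ini] at this ⊢
        rw [this]
      rw [e1, hμ, eLpNorm_comp_ini (g := fun x => g x i - φ x i) hΩ.measurableSet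
        ((hgm i).1.sub (hFφ.1 i).1)]
      exact hge i
  · intro i j
    refine Fin.lastCases ?_ (fun i => ?_) i
    · simp only [last_jn, mat_last]
      exact hpdw j
    · simp only [castSucc_jn]
      refine Fin.lastCases ?_ (fun j => ?_) j
      · simp only [mat_cs_last, sub_zero]
        have e1 : eLpNorm (fun y => pd (Fin.last n) (fun y => g (ini y) i) y) p μ
            = eLpNorm (fun _ : X (n + 1) => (0 : ℝ)) p μ := by
          refine eLpNorm_congr_ae ?_
          refine (ae_restrict_iff' hCm).2 (Eventually.of_forall (fun y hy => ?_))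
          exact pd_comp_ini_last (hgdiff i y hy)
        rw [e1]; simp
      · simp only [mat_cs_cs]
        have e1 : eLpNorm (fun y => pd j.castSucc (fun y => g (ini y) i) y
              - Fφ (ini y) i j) p μ
            = eLpNorm (fun y => (fun x => pd j (fun x => g x i) x - Fφ x i j) (ini y)) p μ := by
          refine eLpNorm_congr_ae ?_
          refine (ae_restrict_iff' hCm).2 (Eventually.of_forall (fun y hy => ?_))
          show pd j.castSucc (fun y => g (ini y) i) y - Fφ (ini y) i j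
            = pd j (fun x => g x i) (ini y) - Fφ (ini y) i j
          rw [pd_comp_ini_castSucc j (hgdiff i y hy)]
        rw [e1, hμ, eLpNorm_comp_ini (g := fun x => pd j (fun x => g x i) x - Fφ x i j)
          hΩ.measurableSet ((hgdm i j).1.sub (hFφ.2 i j).1.1)]
        exact hgde i j


/-- The base map of a fibre-preserving homeomorphism is approximable: so is the map. -/
theorem main {n : ℕ} (p : ℝ≥0∞) (hp : 1 ≤ p) (hp' : p ≠ ⊤) {Ω Λ : Set (X n)}
    (hΩ : IsOpen Ω) (hbΩ : Bornology.IsBounded Ω) (hcΩ : IsPreconnected Ω)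
    (hΛ : IsOpen Λ)
    {φ : X n → X n} (hφ : IsHomeo φ Ω Λ) (happ : Approximable p φ Ω Λ)
    {f : X (n + 1) → X (n + 1)} (hf : IsW1pHomeo p f (Cyl Ω) (Cyl Λ))
    (hfib : ∀ y ∈ Cyl Ω, ini (f y) = φ (ini y)) :
    Approximable p f (Cyl Ω) (Cyl Λ) := by
  obtain ⟨hfh, F, hF⟩ := hf
  obtain ⟨_, _, k, _, _, hk1, _⟩ := hφ
  have hinj : InjOn φ Ω := fun a ha b hb hab => by rw [← hk1 a ha, ← hk1 b hb, hab]
  obtain ⟨hbij, hmono⟩ := dir hΩ hcΩ hinj hfh hfib
  rcases hmono with hmono | hanti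
  · exact mainInc p hp hp' hΩ hbΩ hΛ happ hfh F hF hfib hbij hmono
  · refine flip_app hp (isBounded_Cyl hbΩ) ?_
    refine mainInc p hp hp' hΩ hbΩ hΛ happ (fl_homeo hfh) _
      (fl_W1p (isBounded_Cyl hbΩ) hp hF) (fun y hy => by rw [ini_fl]; exact hfib y hy) ?_ ?_
    · intro x hx
      have h1 := hbij x hx
      simp only [fl_last]
      refine ⟨fun z hz => ?_, fun a ha b hb hab => ?_, fun s hs => ?_⟩
      · have h2 := h1.mapsTo hz
        exact ⟨by linarith [h2.2], by linarith [h2.1]⟩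
      · exact h1.injOn ha hb (by linarith [hab])
      · obtain ⟨z, hz, hzs⟩ := h1.surjOn (⟨by linarith [hs.2], by linarith [hs.1]⟩ :
          1 - s ∈ Ioo (0 : ℝ) 1)
        exact ⟨z, hz, by simp only at hzs ⊢; linarith⟩
    · intro x hx a ha b hb hab
      have h2 := hanti x hx ha hb hab
      simp only [fl_last]
      linarith

end Vale.Agent.P073
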