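import Vale.Agent.P073.Defs

/-!
# P073: mollification converges in `L^p`
-/

open MeasureTheory Metric Set Filter
open scoped ENNReal Topology Convolution

namespace Vale.Agent.P073

namespace Mol

section
variable {E F : Type*} [NormedAddCommGroup E] [NormedSpace ℝ E] [FiniteDimensional ℝ E]
    [MeasurableSpace E] [BorelSpace E] (μ : Measure E) [μ.IsAddHaarMeasure]
    [NormedAddCommGroup F]

theorem trans_cont {p : ℝ≥0∞} (hp : p ≠ ⊤) (hp1 : 1 ≤ p) {f : E → F} (hf : MemLp f p μ)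
    {ε : ℝ≥0∞} (hε : ε ≠ 0) :
    ∃ δ > (0 : ℝ), ∀ t : E, ‖t‖ < δ → eLpNorm (fun x => f (x - t) - f x) p μ ≤ ε := by
  have : Fact (1 ≤ p) := ⟨hp1⟩
  have : Fact (p ≠ ⊤) := ⟨hp⟩
  have : ProperSpace E := FiniteDimensional.proper ℝ E
  let g := hf.toLp f
  have hc : Continuous (fun t : E => (DomAddAct.mk (-t)) +ᵥ g) := by
    have h1 : Continuous (fun t : E => DomAddAct.mk (-t)) :=
      DomAddAct.continuous_mk.comp continuous_neg
    exact h1.vadd continuous_const
  have h0 := hc.tendsto 0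
  have h1 : ∀ᶠ t : E in 𝓝 0, edist (DomAddAct.mk (-t : E) +ᵥ g) (DomAddAct.mk (-(0:E)) +ᵥ g) < ε :=
    h0 (Metric.eball_mem_nhds _ (pos_iff_ne_zero.2 hε))
  obtain ⟨δ, hδ, h2⟩ := Metric.eventually_nhds_iff.1 h1
  refine ⟨δ, hδ, fun t ht => ?_⟩
  have h3 := h2 (y := t) (by simpa using ht)
  rw [DomAddAct.mk_vadd_toLp, DomAddAct.mk_vadd_toLp, Lp.edist_toLp_toLp] at h3
  refine le_of_eq_of_le ?_ h3.le
  congr 1
  funext x
  simp [sub_eq_add_neg, add_comm]

variable [NormedSpace ℝ F] [CompleteSpace F]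

theorem gen {p : ℝ≥0∞} (hp : p ≠ ⊤) (hp1 : 1 ≤ p) {f : E → F} (hf : MemLp f p μ)
    {ε : ℝ≥0∞} (hε : ε ≠ 0) :
    ∃ δ > (0 : ℝ), ∀ ρ : E → ℝ, Continuous ρ → (∀ t, 0 ≤ ρ t) → (∫ t, ρ t ∂μ = 1) →
      (∀ t, ρ t ≠ 0 → ‖t‖ < δ) →
      eLpNorm (fun x => (∫ t, ρ t • f (x - t) ∂μ) - f x) p μ ≤ ε := by
  have : ProperSpace E := FiniteDimensional.proper ℝ E
  obtain ⟨δ, hδ, H⟩ := trans_cont μ hp hp1 hf hε
  refine ⟨δ, hδ, fun ρ hρ hρ0 hρ1 hρδ => ?_⟩
  have hp0 : 0 < p.toReal := ENNReal.toReal_pos (zero_lt_one.trans_le hp1).ne' hp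
  let w : E → ℝ≥0∞ := fun t => ENNReal.ofReal (ρ t)
  have hw : Measurable w := (ENNReal.continuous_ofReal.comp hρ).measurable
  let ν : Measure E := μ.withDensity w
  have hρi : Integrable ρ μ := by
    by_contra h
    rw [integral_undef h] at hρ1
    exact zero_ne_one hρ1
  have : IsProbabilityMeasure ν := by
    constructor
    rw [withDensity_apply _ MeasurableSet.univ, Measure.restrict_univ,
      ← ofReal_integral_eq_lintegral_ofReal hρi (Eventually.of_forall hρ0), hρ1,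
      ENNReal.ofReal_one]
  have hνμ : ν ≪ μ := withDensity_absolutelyContinuous μ w
  have hcs : HasCompactSupport ρ := by
    refine HasCompactSupport.of_support_subset_isCompact (isCompact_closedBall (0:E) δ) ?_
    intro t ht
    simpa using (hρδ t ht).le
  have hloc : LocallyIntegrable f μ := hf.locallyIntegrable hp1
  have hint : ∀ x, Integrable (fun t => ρ t • f (x - t)) μ := by
    intro x
    exact (hcs.convolutionExists_left (ContinuousLinearMap.lsmul ℝ ℝ) hρ hloc) x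
  have hint2 : ∀ x, Integrable (fun t => ρ t • f x) μ := fun x => hρi.smul_const _
  have heq : ∀ x, (∫ t, ρ t • f (x - t) ∂μ) - f x = ∫ t, (f (x - t) - f x) ∂ν := by
    intro x
    have h1 : f x = ∫ t, ρ t • f x ∂μ := by
      rw [integral_smul_const, hρ1, one_smul]
    conv_lhs => rw [h1]
    rw [← integral_sub (hint x) (hint2 x)]
    rw [integral_withDensity_eq_integral_toReal_smul hw (Eventually.of_forall fun t => ENNReal.ofReal_lt_top)]
    congr 1
    funext t
    rw [← smul_sub, ENNReal.toReal_ofReal (hρ0 t)]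
  have hqmp : Measure.QuasiMeasurePreserving (fun q : E × E => q.1 - q.2) (μ.prod ν) μ :=
    (quasiMeasurePreserving_sub_of_right_invariant μ ν)
  have hm2 : AEStronglyMeasurable (fun q : E × E => f (q.1 - q.2) - f q.1) (μ.prod ν) :=
    (hf.1.comp_quasiMeasurePreserving hqmp).sub hf.1.comp_fst
  have hm1 : ∀ x, AEStronglyMeasurable (fun t => f (x - t) - f x) ν := by
    intro x
    refine AEStronglyMeasurable.sub ?_ aestronglyMeasurable_const
    exact (hf.1.comp_quasiMeasurePreserving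
      (quasiMeasurePreserving_sub_left_of_right_invariant μ x)).mono_ac hνμ
  have hJ : ∀ x, ‖(∫ t, ρ t • f (x - t) ∂μ) - f x‖ₑ ^ p.toReal ≤
      ∫⁻ t, ‖f (x - t) - f x‖ₑ ^ p.toReal ∂ν := by
    intro x
    rw [heq x]
    have h1 : ‖∫ t, (f (x - t) - f x) ∂ν‖ₑ ≤ eLpNorm (fun t => f (x - t) - f x) p ν := by
      refine le_trans (enorm_integral_le_lintegral_enorm _) ?_
      rw [← eLpNorm_one_eq_lintegral_enorm]
      exact eLpNorm_le_eLpNorm_of_exponent_le hp1 (hm1 x)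
    calc ‖∫ t, (f (x - t) - f x) ∂ν‖ₑ ^ p.toReal
        ≤ (eLpNorm (fun t => f (x - t) - f x) p ν) ^ p.toReal := by gcongr
      _ = _ := by
          rw [eLpNorm_eq_lintegral_rpow_enorm_toReal (zero_lt_one.trans_le hp1).ne' hp, ← ENNReal.rpow_mul,
            one_div, inv_mul_cancel₀ hp0.ne', ENNReal.rpow_one]
  rw [eLpNorm_eq_lintegral_rpow_enorm_toReal (zero_lt_one.trans_le hp1).ne' hp, one_div,
    ENNReal.rpow_inv_le_iff hp0]
  calc ∫⁻ x, ‖(∫ t, ρ t • f (x - t) ∂μ) - f x‖ₑ ^ p.toReal ∂μ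
      ≤ ∫⁻ x, ∫⁻ t, ‖f (x - t) - f x‖ₑ ^ p.toReal ∂ν ∂μ := lintegral_mono hJ
    _ = ∫⁻ t, ∫⁻ x, ‖f (x - t) - f x‖ₑ ^ p.toReal ∂μ ∂ν := by
        apply lintegral_lintegral_swap
        exact (hm2.enorm.pow_const _)
    _ ≤ ∫⁻ t, ε ^ p.toReal ∂ν := by
        apply lintegral_mono_ae
        have hae : ∀ᵐ t ∂ν, w t ≠ 0 := by
          rw [ae_withDensity_iff hw]
          exact Eventually.of_forall fun t ht => ht
        filter_upwards [hae] with t ht
        have ht' : ‖t‖ < δ := by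
          apply hρδ
          intro h0
          apply ht
          simp [w, h0]
        have := H t ht'
        rw [eLpNorm_eq_lintegral_rpow_enorm_toReal (zero_lt_one.trans_le hp1).ne' hp, one_div,
          ENNReal.rpow_inv_le_iff hp0] at this
        exact this
    _ = ε ^ p.toReal := by simp

end

end Mol

theorem mol {N : ℕ} (p : ℝ≥0∞) (hp : 1 ≤ p) (hp' : p ≠ ⊤) (v : X N → ℝ)
    (hv : MemLp v p volume) (τ : ℝ) (hτ : 0 < τ) :
    ∃ r0 : ℝ, 0 < r0 ∧ ∀ b : ContDiffBump (0 : X N), b.rOut ≤ r0 →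
      eLpNorm (fun x => (∫ t, b.normed volume t * v (x - t)) - v x) p volume
        ≤ ENNReal.ofReal τ := by
  obtain ⟨δ, hδ, H⟩ := Mol.gen (volume : Measure (X N)) hp' hp hv
    (ε := ENNReal.ofReal τ) (by simpa using hτ)
  refine ⟨δ, hδ, fun b hb => ?_⟩
  refine H (b.normed volume) b.continuous_normed b.nonneg_normed b.integral_normed ?_
  intro t ht
  have h1 : t ∈ Function.support (b.normed volume) := ht
  rw [b.support_normed_eq] at h1
  have h2 : ‖t‖ < b.rOut := by simpa using h1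
  exact h2.trans_le hb

end Vale.Agent.P073
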