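import Vale.Agent.P073.Main
import Vale.Agent.P073.Base
import Vale.Agent.P073.BaseW

/-!
# Triangular homeomorphisms of cubes (problem P073)
-/

open MeasureTheory Set Filter Topology
open scoped ContDiff ENNReal

namespace Vale.Agent.P073

/-- The open unit cube `(0, 1)^n`. -/
def Cube (n : ℕ) : Set (X n) := {x | ∀ i, 0 < x i ∧ x i < 1}

/-- `f` is triangular on `Ω`: its `i`-th component only depends on the first `i` coordinates. -/
def IsTriangular {n : ℕ} (f : X n → X n) (Ω : Set (X n)) : Prop :=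
  ∀ x ∈ Ω, ∀ y ∈ Ω, ∀ i, (∀ j, j ≤ i → x j = y j) → f x i = f y i

/-- `f` maps vertical segments of the cylinder over `Ω` into vertical segments. -/
def IsFibred {n : ℕ} (f : X (n + 1) → X (n + 1)) (Ω : Set (X n)) : Prop :=
  ∀ y ∈ Cyl Ω, ∀ y' ∈ Cyl Ω, ini y = ini y' → ini (f y) = ini (f y')

namespace Tri

lemma cyl_cube (n : ℕ) : Cyl (Cube n) = Cube (n + 1) := by
  ext y
  constructor
  · rintro ⟨h1, h2⟩ i
    refine Fin.lastCases ?_ (fun i => ?_) i
    · exact h2
    · exact h1 i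
  · intro h
    exact ⟨fun i => h i.castSucc, h (Fin.last n)⟩

lemma isOpen_cube (n : ℕ) : IsOpen (Cube n) := by
  have h : Cube n = Set.pi univ (fun _ => Ioo (0 : ℝ) 1) := by
    ext x; simp [Cube]
  rw [h]
  exact isOpen_set_pi finite_univ fun _ _ => isOpen_Ioo

lemma isPreconnected_cube (n : ℕ) : IsPreconnected (Cube n) := by
  have h : Cube n = Set.pi univ (fun _ => Ioo (0 : ℝ) 1) := by
    ext x; simp [Cube]
  rw [h]
  exact (convex_pi fun _ _ => convex_Ioo 0 1).isPreconnected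

lemma isBounded_cube (n : ℕ) : Bornology.IsBounded (Cube n) := by
  refine (Metric.isBounded_iff_subset_closedBall (0 : X n)).2 ⟨1, fun y hy => ?_⟩
  rw [mem_closedBall_zero_iff, pi_norm_le_iff_of_nonneg zero_le_one]
  intro i
  rw [Real.norm_eq_abs, abs_le]
  have := hy i
  constructor <;> linarith [this.1, this.2]

end Tri

/-- Fibre-preserving homeomorphisms: the base map is automatically a `W^{1,p}` homeomorphism. -/
theorem fibred {n : ℕ} (p : ℝ≥0∞) (hp : 1 ≤ p) (hp' : p ≠ ⊤) {Ω Λ : Set (X n)}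
    (hΩ : IsOpen Ω) (hbΩ : Bornology.IsBounded Ω) (hcΩ : IsPreconnected Ω) (hΛ : IsOpen Λ)
    {f : X (n + 1) → X (n + 1)} (hf : IsW1pHomeo p f (Cyl Ω) (Cyl Λ))
    (hfib : IsFibred f Ω)
    (happ : ∀ φ : X n → X n, IsW1pHomeo p φ Ω Λ →
      (∀ x ∈ Ω, φ x = ini (f (jn x (1 / 2)))) → Approximable p φ Ω Λ) :
    Approximable p f (Cyl Ω) (Cyl Λ) := by
  set φ : X n → X n := fun x => ini (f (jn x (1 / 2))) with hφ
  have hfib' : ∀ y ∈ Cyl Ω, ini (f y) = φ (ini y) := by
    intro y hy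
    exact hfib y hy _ (Base.jn_mem hy.1 Base.half_mem) (by simp)
  have h1 : IsHomeo φ Ω Λ := base_homeo hΩ hΛ hf.1 hfib'
  obtain ⟨F, hF⟩ := hf.2
  have h2 : ∃ G, InW1p Ω p φ G := base_W1p hΩ hbΩ p hp hp' hF hfib'
  exact main p hp hp' hΩ hbΩ hcΩ hΛ h1 (happ φ ⟨h1, h2⟩ fun _ _ => rfl) hf hfib'

/-- Every triangular `W^{1,p}` homeomorphism of the unit cube onto itself is diffeomorphically
approximable. -/
theorem triangular (p : ℝ≥0∞) (hp : 1 ≤ p) (hp' : p ≠ ⊤) :
    ∀ (n : ℕ) (f : X n → X n), IsW1pHomeo p f (Cube n) (Cube n) → IsTriangular f (Cube n) →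
      Approximable p f (Cube n) (Cube n) := by
  intro n
  induction n with
  | zero =>
    intro f hf _
    obtain ⟨F, hF⟩ := hf.2
    obtain ⟨_, hm, k, _, hk, hkf, hfk⟩ := hf.1
    refine ⟨F, hF, fun ε _ => ⟨f, ⟨contDiff_of_subsingleton.contDiffOn, hm, k,
      contDiff_of_subsingleton.contDiffOn, hk, hkf, hfk⟩, fun i => i.elim0, fun i => i.elim0,
      fun i => i.elim0, fun i => i.elim0⟩⟩
  | succ n ih =>
    intro f hf ht
    rw [← Tri.cyl_cube] at hf ht ⊢
    refine fibred p hp hp' (Tri.isOpen_cube n) (Tri.isBounded_cube n) (Tri.isPreconnected_cube n)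
      (Tri.isOpen_cube n) hf ?_ ?_
    · intro y hy y' hy' h
      funext i
      refine ht y hy y' hy' i.castSucc fun j hj => ?_
      obtain ⟨j', rfl⟩ : ∃ j' : Fin n, j'.castSucc = j :=
        ⟨j.castPred (ne_of_lt (lt_of_le_of_lt hj (Fin.castSucc_lt_last i))), by simp⟩
      exact congrFun h j'
    · intro φ hφ hval
      refine ih φ hφ ?_
      intro x hx x' hx' i hi
      rw [hval x hx, hval x' hx']
      refine ht _ (Base.jn_mem hx Base.half_mem) _ (Base.jn_mem hx' Base.half_mem) i.castSucc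
        fun j hj => ?_
      obtain ⟨j', rfl⟩ : ∃ j' : Fin n, j'.castSucc = j :=
        ⟨j.castPred (ne_of_lt (lt_of_le_of_lt hj (Fin.castSucc_lt_last i))), by simp⟩
      rw [castSucc_jn, castSucc_jn]
      exact hi j' (by simpa using hj)

end Vale.Agent.P073
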