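import Vale.Agent.P073.Main
import Vale.Agent.P073.InvV
import Vale.Agent.P073.BijV
import Vale.Agent.P073.Defs3

open MeasureTheory Set Filter Topology
open scoped ContDiff ENNReal

namespace Vale.Agent.P073

theorem coord_weak {n : ℕ} {U : Set (X n)} (hU : IsOpen U) (hb : Bornology.IsBounded U)
    (p : ℝ≥0∞) (hp : 1 ≤ p) (i j : Fin n) :
    IsWeakPartial U j (fun x => x i) (fun _ => if j = i then 1 else 0) := by
  have h0 : IsWeakPartial U j (fun _ => (0 : ℝ)) (fun _ => 0) := by
    intro ψ _ _ _
    simp
  have := lin hU hb p hp j i (fun _ => 0) (fun _ => 0) MemLp.zero' MemLp.zero' h0 1 1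
  simpa using this

theorem coord_memLp {n : ℕ} {U : Set (X n)} (hU : IsOpen U) (hb : Bornology.IsBounded U)
    (p : ℝ≥0∞) (i : Fin n) : MemLp (fun x : X n => x i) p (volume.restrict U) := by
  have hfin : IsFiniteMeasure (volume.restrict U) :=
    ⟨by rw [Measure.restrict_apply_univ]; exact hb.measure_lt_top⟩
  obtain ⟨R, hR⟩ := (Metric.isBounded_iff_subset_closedBall (0 : X n)).1 hb
  refine MemLp.of_bound (C := R) (measurable_pi_apply _).aestronglyMeasurable ?_
  refine (ae_restrict_iff' hU.measurableSet).2 (Eventually.of_forall (fun y hy => ?_))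
  have h1 := hR hy
  rw [mem_closedBall_zero_iff] at h1
  exact (norm_le_pi_norm y i).trans h1

theorem pd_coord {n : ℕ} (i j : Fin n) (x : X n) :
    pd j (fun y : X n => y i) x = if j = i then 1 else 0 := by
  unfold pd
  have : fderiv ℝ (fun x : X n => x i) x
      = ContinuousLinearMap.proj (R := ℝ) (φ := fun _ : Fin n => ℝ) i :=
    (ContinuousLinearMap.proj (R := ℝ) (φ := fun _ : Fin n => ℝ) i).fderiv
  rw [this]
  simp only [ContinuousLinearMap.proj_apply, Pi.single_apply]
  by_cases h : j = i
  · rw [if_pos h, if_pos h.symm]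
  · rw [if_neg h, if_neg (fun h' => h h'.symm)]

theorem vert {n : ℕ} (p : ℝ≥0∞) (hp : 1 ≤ p) (hp' : p ≠ ⊤) {U : Set (X n)}
    (hU : IsOpen U) (hb : Bornology.IsBounded U) (e : Fin n) {f : X n → X n}
    (hf : IsW1pHomeo p f U U) (hs : SegmentPreserving e f U) :
    Approximable p f U U := by
  classical
  obtain ⟨hfh, F, hF⟩ := hf
  obtain ⟨hv, hseg, hinc⟩ := hs
  have hUm : MeasurableSet U := hU.measurableSet
  have hfin : IsFiniteMeasure (volume.restrict U) :=
    ⟨by rw [Measure.restrict_apply_univ]; exact hb.measure_lt_top⟩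
  obtain ⟨θ, hθU, hθs, hθ01⟩ := hU.exists_contDiff_support_eq (n := ⊤) (E := X n)
  have hθc : Continuous θ := hθs.continuous
  have hθ0 : ∀ y ∈ U, 0 < θ y := fun y hy => by
    have h1 : θ y ≠ 0 := by
      have : y ∈ Function.support θ := by rw [hθU]; exact hy
      exact this
    have h2 : 0 ≤ θ y := (hθ01 (mem_range_self y)).1
    exact lt_of_le_of_ne h2 (Ne.symm h1)
  have hθn : ∀ y, y ∉ U → θ y = 0 := fun y hy => by
    have : y ∉ Function.support θ := by rw [hθU]; exact hy
    simpa using this
  set G : X n → Fin n → Fin n → ℝ :=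
    fun y i j => if i = e then F y e j else (if j = i then 1 else 0) with hG
  have hGW : InW1p U p f G := by
    refine ⟨hF.1, fun i j => ?_⟩
    by_cases hi : i = e
    · subst hi
      simp only [hG, if_true]
      exact hF.2 _ j
    · simp only [hG, if_neg hi]
      exact ⟨memLp_const _, (coord_weak hU hb p hp i j).congr hUm (fun x hx => hv x hx i hi)
        (fun _ _ => rfl)⟩
  refine ⟨G, hGW, fun ε hε => ?_⟩
  obtain ⟨A, hA0, hA⟩ := bound_const hU hb p
  obtain ⟨R, hR⟩ := (Metric.isBounded_iff_subset_closedBall (0 : X n)).1 hb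
  have hR' : ∀ y ∈ U, |y e| ≤ max R 0 := fun y hy => by
    have h1 := hR hy
    rw [mem_closedBall_zero_iff] at h1
    exact ((norm_le_pi_norm y e).trans h1).trans (le_max_left _ _)
  set R' : ℝ := max R 0 with hR0
  have hR'0 : 0 ≤ R' := le_max_right _ _
  set h : X n → ℝ := fun y => f y e with hh
  set V : Fin n → X n → ℝ := fun j y => F y e j with hV
  have hVm : ∀ j, MemLp (V j) p (volume.restrict U) := fun j => (hF.2 e j).1
  have hVw : ∀ j, IsWeakPartial U j h (V j) := fun j => (hF.2 e j).2
  have hhm : MemLp h p (volume.restrict U) := hF.1 e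
  set d : Fin n → ℝ := fun j => if j = e then 1 else 0 with hd
  set Bf : Fin n → ℝ :=
    fun j => (eLpNorm (fun y => d j - V j y) p (volume.restrict U)).toReal with hBf
  have hdV : ∀ j, MemLp (fun y => d j - V j y) p (volume.restrict U) := fun j =>
    (memLp_const (d j)).sub (hVm j)
  set B : ℝ := ∑ j, Bf j with hB
  have hBf0 : ∀ j, 0 ≤ Bf j := fun j => ENNReal.toReal_nonneg
  have hB0 : 0 ≤ B := Finset.sum_nonneg (fun j _ => hBf0 j)
  have hBj : ∀ j, Bf j ≤ B := fun j =>
    Finset.single_le_sum (f := Bf) (fun i _ => hBf0 i) (Finset.mem_univ j)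
  set D : ℝ := 1 + A * (1 + 2 * R') + B with hD
  have hAR : 0 ≤ A * (1 + 2 * R') := by positivity
  have hD1 : 1 ≤ D := by rw [hD]; linarith
  have hD0 : 0 < D := by linarith
  set η : ℝ := ε / (4 * D) with hη
  have hη0 : 0 < η := by positivity
  have hηD : η * D = ε / 4 := by rw [hη]; field_simp
  set lam : ℝ := min (1 / 2) η with hlam
  have hlam0 : 0 < lam := lt_min (by norm_num) hη0
  have hlam1 : lam < 1 := lt_of_le_of_lt (min_le_left _ _) (by norm_num)
  have hlamη : lam ≤ η := min_le_right _ _
  set u : X n → ℝ := fun y => (1 - lam) * h y + lam * y e with hu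
  set v : Fin n → X n → ℝ := fun j y => (1 - lam) * V j y + lam * d j with hv'
  have hum : MemLp u p (volume.restrict U) :=
    (hhm.const_mul (1 - lam)).add ((coord_memLp hU hb p e).const_mul lam)
  have hvm : ∀ j, MemLp (v j) p (volume.restrict U) := fun j =>
    ((hVm j).const_mul (1 - lam)).add (memLp_const (lam * d j))
  have huw : ∀ j, IsWeakPartial U j u (v j) := fun j =>
    lin hU hb p hp j e h (V j) hhm (hVm j) (hVw j) (1 - lam) lam
  have hhc : ContinuousOn h U := (continuous_apply e).comp_continuousOn hfh.1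
  have huc : ContinuousOn u U := by
    refine (continuousOn_const.mul hhc).add ?_
    exact (by fun_prop : Continuous fun y : X n => lam * y e).continuousOn
  have hmon : ∀ x ∈ U, ∀ t : ℝ, 0 < t →
      (∀ s ∈ Icc 0 t, x + s • (Pi.single e 1 : X n) ∈ U) →
      u x + lam * t ≤ u (x + t • (Pi.single e 1 : X n)) := by
    intro y hy t ht hst
    have h3 := (hinc y hy t ht hst).le
    have h4 : (1 - lam) * f y e ≤ (1 - lam) * f (y + t • (Pi.single e 1 : X n)) e :=
      mul_le_mul_of_nonneg_left h3 (by linarith)
    have h5 : (y + t • (Pi.single e 1 : X n)) e = y e + t := by simp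
    simp only [hu, hh, h5]
    linarith
  obtain ⟨w, hwC, hwδ, hwη, hwp, hwpos⟩ := glue U hU hb p hp hp' u huc hum v hvm huw
    e lam hlam0 hmon θ hθc.continuousOn hθ0 η hη0
  obtain ⟨hfc, hfm, k, hkc, hkm, hkf, hfk⟩ := hfh
  have hbij : BijOn (fun y => Function.update y e (w y)) U U := by
    refine bij_vert hU hb e hhc ?_ ?_ hinc lam hlam0 hlam1 hwC hwpos hθc hθn hwδ
    · intro y hy s hs
      have h1 : y + (s * (h y - y e)) • (Pi.single e 1 : X n) = y + s • (f y - y) := by
        funext i
        by_cases hi : i = e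
        · subst hi
          simp [hh]
        · have := hv y hy i hi
          simp [hi, this]
      rw [h1]
      refine hseg y hy ?_
      rw [segment_eq_image']
      exact ⟨s, hs, rfl⟩
    · intro y hy
      refine ⟨k y, hkm hy, fun i hi => ?_, ?_⟩
      · rw [← hv (k y) (hkm hy) i hi, hfk y hy]
      · show f (k y) e = y e
        rw [hfk y hy]
  have hwh : ∀ y ∈ U, |w y - h y| ≤ η + lam * (2 * R') := by
    intro y hy
    have h1 := hwη y hy
    have h2 : u y - h y = lam * (y e - h y) := by simp only [hu]; ring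
    have h3 : |h y| ≤ R' := hR' (f y) (hfm hy)
    have h4 : |y e - h y| ≤ 2 * R' := by
      calc |y e - h y| ≤ |y e| + |h y| := abs_sub _ _
        _ ≤ R' + R' := add_le_add (hR' y hy) h3
        _ = 2 * R' := by ring
    have h5 : |u y - h y| ≤ lam * (2 * R') := by
      rw [h2, abs_mul, abs_of_pos hlam0]
      exact mul_le_mul_of_nonneg_left h4 hlam0.le
    calc |w y - h y| = |(w y - u y) + (u y - h y)| := by ring_nf
      _ ≤ |w y - u y| + |u y - h y| := abs_add_le _ _
      _ ≤ η + lam * (2 * R') := add_le_add h1 h5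
  have hwsm : AEStronglyMeasurable w (volume.restrict U) :=
    hwC.continuousOn.aestronglyMeasurable hUm
  have hwhp : eLpNorm (fun y => w y - h y) p (volume.restrict U) ≤ ENNReal.ofReal ε := by
    refine (hA _ (by positivity) _ hwh).trans (ENNReal.ofReal_le_ofReal ?_)
    have h1 : lam * (2 * R') ≤ η * (2 * R') := mul_le_mul_of_nonneg_right hlamη (by positivity)
    have h2 : A * (η + lam * (2 * R')) ≤ A * (η * (1 + 2 * R')) :=
      mul_le_mul_of_nonneg_left (by linarith) hA0
    have h3 : A * (η * (1 + 2 * R')) = η * (A * (1 + 2 * R')) := by ring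
    have h4 : η * (A * (1 + 2 * R')) ≤ η * D :=
      mul_le_mul_of_nonneg_left (by rw [hD]; linarith) hη0.le
    linarith
  have hpdw : ∀ j, eLpNorm (fun y => pd j w y - V j y) p (volume.restrict U)
      ≤ ENNReal.ofReal ε := by
    intro j
    have e1 : (fun y => pd j w y - V j y)
        = (fun y => pd j w y - v j y) + (lam • fun y => d j - V j y) := by
      funext y; simp only [Pi.add_apply, Pi.smul_apply, smul_eq_mul, hv']; ring
    have hms : AEStronglyMeasurable (pd j w) (volume.restrict U) :=
      (continuousOn_pd hU hwC j).aestronglyMeasurable hUm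
    rw [e1]
    refine (eLpNorm_add_le (hms.sub (hvm j).1) ((hdV j).1.const_smul lam) hp).trans ?_
    rw [eLpNorm_const_smul]
    have h2 : eLpNorm (fun y => d j - V j y) p (volume.restrict U)
        = ENNReal.ofReal (Bf j) := by
      simp only [hBf]; rw [ENNReal.ofReal_toReal (hdV j).2.ne]
    rw [h2, Real.enorm_eq_ofReal hlam0.le, ← ENNReal.ofReal_mul hlam0.le]
    refine (add_le_add (hwp j) le_rfl).trans ?_
    rw [← ENNReal.ofReal_add hη0.le (mul_nonneg hlam0.le (hBf0 j))]
    refine ENNReal.ofReal_le_ofReal ?_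
    have h3 : lam * Bf j ≤ η * B := mul_le_mul hlamη (hBj j) (hBf0 j) hη0.le
    have h4 : η * (1 + B) ≤ η * D := mul_le_mul_of_nonneg_left (by rw [hD]; linarith) hη0.le
    nlinarith
  have hgi : ∀ i, i ≠ e → (fun y : X n => Function.update y e (w y) i) = fun y => y i :=
    fun i hi => by funext y; simp [hi]
  have hge : (fun y : X n => Function.update y e (w y) e) = w := by funext y; simp
  refine ⟨fun y => Function.update y e (w y), inv_vert hU e hwC hwpos hbij, ?_, ?_, ?_, ?_⟩
  · intro i
    by_cases hi : i = e
    · subst hi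
      rw [hge]
      have h1 : MemLp (fun y => w y - h y) p (volume.restrict U) :=
        ⟨hwsm.sub hhm.1, lt_of_le_of_lt hwhp ENNReal.ofReal_lt_top⟩
      refine (h1.add hhm).congr_norm hwsm ?_
      exact Eventually.of_forall (fun y => by simp)
    · rw [hgi i hi]
      exact coord_memLp hU hb p i
  · intro i j
    by_cases hi : i = e
    · subst hi
      rw [hge]
      have hms : AEStronglyMeasurable (pd j w) (volume.restrict U) :=
        (continuousOn_pd hU hwC j).aestronglyMeasurable hUm
      have h1 : MemLp (fun y => pd j w y - V j y) p (volume.restrict U) :=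
        ⟨hms.sub (hVm j).1, lt_of_le_of_lt (hpdw j) ENNReal.ofReal_lt_top⟩
      refine (h1.add (hVm j)).congr_norm hms ?_
      exact Eventually.of_forall (fun y => by simp)
    · rw [hgi i hi]
      have : pd j (fun y : X n => y i) = fun _ => if j = i then 1 else 0 := by
        funext y; exact pd_coord i j y
      rw [this]
      exact memLp_const _
  · intro i
    by_cases hi : i = e
    · subst hi
      simp only [Function.update_self]
      exact hwhp
    · have e1 : eLpNorm (fun y => Function.update y e (w y) i - f y i) p (volume.restrict U)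
          = eLpNorm (fun _ : X n => (0 : ℝ)) p (volume.restrict U) := by
        refine eLpNorm_congr_ae ?_
        refine (ae_restrict_iff' hUm).2 (Eventually.of_forall (fun y hy => ?_))
        simp only [Function.update_of_ne hi, hv y hy i hi, sub_self]
      rw [e1]
      simp
  · intro i j
    by_cases hi : i = e
    · subst hi
      simp only [hG, if_true]
      have : (fun y : X n => Function.update y i (w y) i) = w := hge
      rw [this]
      exact hpdw j
    · have e1 : (fun y => pd j (fun y : X n => Function.update y e (w y) i) y - G y i j)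
          = fun _ => 0 := by
        funext y
        rw [hgi i hi, pd_coord]
        simp only [hG, if_neg hi, sub_self]
      rw [e1]
      simp

end Vale.Agent.P073
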